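import Vale.Agent.P329.Rand

/-! The random function of the inner levels. -/

namespace Vale.Agent.P329

open Finset Function
open scoped Classical

theorem rec_eq {K : ℕ} {Act : Type} {n₀ : ZMod K} {ζ : ℕ → ZMod K → Act} {a : ℕ → Act}
    (h : ∀ k < K, ζ (k + 1) = update (ζ k) (n₀ + k) (a k)) {k : ℕ} :
    ∀ m, k ≤ m → m < K → ζ (m + 1) (n₀ + k) = a k := by
  intro m hm
  induction m, hm using Nat.le_induction with
  | base => intro hk; rw [h k hk, update_self]
  | succ m hm ih =>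
    intro hk
    rw [h _ hk, update_of_ne, ih (by omega)]
    intro e
    have := (ZMod.natCast_eq_natCast_iff' k (m + 1) K).1 (add_left_cancel e)
    rw [Nat.mod_eq_of_lt (by omega), Nat.mod_eq_of_lt hk] at this
    omega

theorem randB (V Act : Type) [AddCommGroup V] [Fintype V] [Fintype Act] [Inhabited Act]
    (push : Act → V → V) :
    ∃ T : ℕ, 0 < T ∧ ∃ F : ZMod (2 * T) × (ZMod (2 * T) → Act) → V,
      ∀ (n₀ : ZMod (2 * T)) (ζ : ℕ → ZMod (2 * T) → Act) (a b : ℕ → Act),
        (∀ k < 2 * T, ζ (k + 1) = update (ζ k) (n₀ + k) (a k)) →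
        ∃ k < T, ∀ a' ≠ a k, ∀ z, ¬ alB (fun m => (n₀ + m, update (ζ (m + 1)) (n₀ + k) a'))
          (fun m p => push (a (m + 1)) (push (b m) p)) F T k z := by
  obtain ⟨N, hN⟩ : ∃ N : ℝ, N = Fintype.card Act := ⟨_, rfl⟩
  obtain ⟨v, hv⟩ : ∃ v : ℝ, v = Fintype.card V := ⟨_, rfl⟩
  have hN1 : 1 ≤ N := by rw [hN]; exact_mod_cast Fintype.card_pos
  have hv1 : 1 ≤ v := by rw [hv]; exact_mod_cast Fintype.card_pos
  have hρ0 : 0 ≤ 1 - 1 / v := sub_nonneg.2 ((div_le_one (by linarith)).2 hv1)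
  have hρ1 : 1 - 1 / v < 1 := sub_lt_self _ (by positivity)
  obtain ⟨T₀, hT₀⟩ := exists_pow_lt_of_lt_one (show 0 < 1 / (2 * N ^ 9 * v) by positivity) hρ1
  obtain ⟨T, hT, hρ⟩ : ∃ T : ℕ, 0 < T ∧ 2 * N ^ 9 * v * (1 - 1 / v) ^ T < 1 :=
    ⟨T₀ + 1, T₀.succ_pos, by
      rw [mul_comm, ← lt_div_iff₀ (by positivity)]
      exact (pow_le_pow_of_le_one hρ0 hρ1.le (Nat.le_succ _)).trans_lt hT₀⟩
  have : NeZero (2 * T) := ⟨by omega⟩
  refine ⟨T, hT, ?_⟩
  let X := ZMod (2 * T) × (ZMod (2 * T) → Act) × (Fin (2 * T + 1) → Act × Act) ×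
    (Fin T → Act × V)
  let ab : X → ℕ → Act × Act := fun x m => if h : m < 2 * T + 1 then x.2.2.1 ⟨m, h⟩ else default
  let sel : X → ℕ → Act × V := fun x k => if h : k < T then x.2.2.2 ⟨k, h⟩ else (default, 0)
  let ζ : X → ℕ → ZMod (2 * T) → Act := fun x k =>
    Nat.rec x.2.1 (fun k ζ => update ζ (x.1 + k) (ab x k).1) k
  obtain ⟨F, hF⟩ := exists_good (X := X) (Ω := ZMod (2 * T) × (ZMod (2 * T) → Act) → V)
    (fun x F => (∀ k < T, (sel x k).1 ≠ (ab x k).1) ∧ ∀ k < T,
      alB (fun m => (x.1 + m, update (ζ x (m + 1)) (x.1 + k) (sel x k).1))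
        (fun m p => push (ab x (m + 1)).1 (push (ab x m).2 p)) F T k (sel x k).2)
    (b := ((1 - 1 / v) ^ T) ^ T) (fun x => by
      by_cases hx : ∀ k < T, (sel x k).1 ≠ (ab x k).1
      · rw [hv]
        refine le_trans (sum_le_sum fun F _ => ind_mono And.right)
          (alB_bound T _ _ (fun k => (sel x k).2) T ?_)
        intro k i k' i' h1 h2 h3 h4 h5 h6 e
        obtain ⟨e1, e2⟩ := Prod.mk.inj e
        have := (ZMod.natCast_eq_natCast_iff' i i' _).1 (add_left_cancel e1)
        rw [Nat.mod_eq_of_lt (by omega), Nat.mod_eq_of_lt (by omega)] at this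
        subst this
        refine ⟨?_, rfl⟩
        by_contra hne
        have e3 := congrFun e2 (x.1 + k)
        rw [update_self, update_of_ne, rec_eq (ζ := ζ x) (a := fun k => (ab x k).1)
          (fun _ _ => rfl) i h3 (by omega)] at e3
        · exact hx k h1 e3
        · intro e4
          have := (ZMod.natCast_eq_natCast_iff' k k' _).1 (add_left_cancel e4)
          rw [Nat.mod_eq_of_lt (by omega), Nat.mod_eq_of_lt (by omega)] at this
          exact hne this
      · simp only [hx, false_and, ind, if_false, sum_const_zero]; positivity)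
    (by
      have c : (Fintype.card X : ℝ) ≤ (2 * N ^ 9 * v) ^ T := by
        simp only [X, Fintype.card_prod, Fintype.card_fun, ZMod.card, Fintype.card_fin]
        push_cast
        rw [← hN, ← hv]
        have h1 : (2 * T : ℝ) ≤ 2 ^ T := by exact_mod_cast Nat.mul_le_pow (by omega) T
        have h2 : (N * N) ^ (2 * T + 1) ≤ (N * N) ^ (3 * T) :=
          pow_le_pow_right₀ (by nlinarith) (by omega)
        calc _ ≤ 2 ^ T * (N ^ (2 * T) * ((N * N) ^ (3 * T) * (N * v) ^ T)) := by gcongr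
          _ = _ := by ring
      refine (mul_le_mul_of_nonneg_right c (by positivity)).trans_lt ?_
      rw [← mul_pow]
      exact pow_lt_one₀ (by positivity) hρ hT.ne')
  refine ⟨F, fun n₀ ζ' a b hζ => ?_⟩
  by_contra hn
  push Not at hn
  choose! a' h1 z h2 using hn
  let x : X := (n₀, ζ' 0, fun m => (a m, b m), fun k => (a' k, z k))
  have e1 : ∀ m < 2 * T + 1, ab x m = (a m, b m) := fun m h => dif_pos h
  have e2 : ∀ k < T, sel x k = (a' k, z k) := fun m h => dif_pos h
  have e3 : ∀ m ≤ 2 * T, ζ x m = ζ' m := by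
    intro m
    induction m with
    | zero => exact fun _ => rfl
    | succ m ih =>
      intro h
      rw [hζ m h, ← ih (by omega)]
      exact congrArg (update (ζ x m) (n₀ + m)) (congrArg Prod.fst (e1 m (by omega)))
  refine hF x ⟨fun k hk => ?_, fun k hk => ?_⟩
  · rw [e1 k (by omega), e2 k hk]; exact h1 k hk
  · rw [e2 k hk]
    refine (alB_congr _ _ _ fun i a b => ?_).1 (h2 k hk)
    rw [e3 (i + 1) (by omega), e1 (i + 1) (by omega), e1 i (by omega)]
    exact ⟨rfl, rfl⟩

end Vale.Agent.P329
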