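import Vale.Agent.P329.Chain
import Vale.Agent.P329.RandB

/-! The two inner levels. -/

namespace Vale.Agent.P329

open Function
open scoped Classical

variable {α V : Type} {L K : ℕ}

/-- Label, record of zone actions, clock and parity. -/
abbrev BS (V : Type) (K : ℕ) : Type := (V →₀ ZMod 2) × (ZMod K → V → V) × ZMod K × Bool

noncomputable def upd (G : ZMod K × (ZMod K → V → V) → V →₀ ZMod 2) (β : BS V K) (a : V → V) :
    BS V K :=
  if β.2.2.2 = true then (β.1.mapDomain a + G (β.2.2.1, update β.2.1 β.2.2.1 a),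
    update β.2.1 β.2.2.1 a, β.2.2.1 + 1, false)
  else (β.1.mapDomain a, β.2.1, β.2.2.1, true)

/-- The property of the random function of the inner levels. -/
def GoodB (T : ℕ) (G : ZMod (2 * T) × (ZMod (2 * T) → V → V) → V →₀ ZMod 2) : Prop :=
  ∀ (n₀ : ZMod (2 * T)) (ζ : ℕ → ZMod (2 * T) → V → V) (a b : ℕ → V → V),
    (∀ k < 2 * T, ζ (k + 1) = update (ζ k) (n₀ + k) (a k)) →
    ∃ k < T, ∀ a' ≠ a k, ∀ z, ¬ alB (fun m => (n₀ + m, update (ζ (m + 1)) (n₀ + k) a'))
      (fun m p => (p.mapDomain (b m)).mapDomain (a (m + 1))) G T k z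

theorem partner_dies {T M : ℕ} {G : ZMod (2 * T) × (ZMod (2 * T) → V → V) → V →₀ ZMod 2}
    (hG : GoodB T G) (hM : 4 * T + 2 ≤ M) {A : ℕ → V → V} {β : ℕ → BS V (2 * T)}
    (hβ : ∀ i < M, β (i + 1) = upd G (β i) (A i)) :
    ∃ i₀ ≤ 2 * T, (β i₀).2.2.2 = true ∧ ∀ a' ≠ A i₀, ∀ β' : ℕ → BS V (2 * T),
      β' (i₀ + 1) = upd G (β i₀) a' → (∀ i, i₀ < i → i < M → β' (i + 1) = upd G (β' i) (A i)) →
      ∃ i, i₀ < i ∧ i < M ∧ (β' i).2.2.2 = false ∧ (β' i).1 = 0 := by
  obtain ⟨ε, hε, h0⟩ : ∃ ε ≤ 1, (β ε).2.2.2 = true := by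
    by_cases h : (β 0).2.2.2 = true
    · exact ⟨0, by omega, h⟩
    · exact ⟨1, le_rfl, by rw [hβ 0 (by omega), upd, if_neg h]⟩
  have two : ∀ k < 2 * T, (β (ε + 2 * k)).2.2.2 = true → (β (ε + 2 * (k + 1))).2 =
      (update (β (ε + 2 * k)).2.1 (β (ε + 2 * k)).2.2.1 (A (ε + 2 * k)),
        (β (ε + 2 * k)).2.2.1 + 1, true) := by
    intro k hk h
    rw [show ε + 2 * (k + 1) = ε + 2 * k + 1 + 1 by omega, hβ _ (by omega), hβ _ (by omega)]
    simp [upd, h]
  have inv : ∀ k ≤ 2 * T, (β (ε + 2 * k)).2.2 = ((β ε).2.2.1 + k, true) := by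
    intro k
    induction k with
    | zero => intro _; simp [← h0]
    | succ k ih =>
      intro hk
      have := ih (by omega)
      rw [two k hk (by rw [this]), this]; simp [add_assoc]
  have hζ : ∀ k < 2 * T, (β (ε + 2 * (k + 1))).2.1 =
      update (β (ε + 2 * k)).2.1 ((β ε).2.2.1 + k) (A (ε + 2 * k)) := fun k hk => by
    rw [two k hk (by rw [inv k hk.le]), inv k hk.le]
  obtain ⟨k, hk, H⟩ := hG (β ε).2.2.1 (fun k => (β (ε + 2 * k)).2.1) (fun k => A (ε + 2 * k))
    (fun k => A (ε + 2 * k + 1)) hζ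
  refine ⟨ε + 2 * k, by omega, by rw [inv k (by omega)], fun a' ha β' h1 h2 => ?_⟩
  by_contra hn
  push Not at hn
  refine H a' ha ((β (ε + 2 * k)).1.mapDomain a') ?_
  have main : ∀ t m z, k ≤ m → m + t ≤ k + T → β' (ε + 2 * m + 1) =
      (z + G ((β ε).2.2.1 + m, update (β (ε + 2 * (m + 1))).2.1 ((β ε).2.2.1 + k) a'),
        update (β (ε + 2 * (m + 1))).2.1 ((β ε).2.2.1 + k) a', (β ε).2.2.1 + (m + 1 : ℕ), false) →
      alB (fun m : ℕ => ((β ε).2.2.1 + m,
        update (β (ε + 2 * (m + 1))).2.1 ((β ε).2.2.1 + k) a'))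
        (fun m p => (p.mapDomain (A (ε + 2 * m + 1))).mapDomain (A (ε + 2 * (m + 1)))) G t m z := by
    intro t
    induction t with
    | zero => exact fun _ _ _ _ _ => trivial
    | succ t ih =>
      intro m z a b e
      refine ⟨fun h => hn (ε + 2 * m + 1) (by omega) (by omega) (by rw [e]) (by rw [e]; exact h),
        ih _ _ (by omega) (by omega) ?_⟩
      have ne : (β ε).2.2.1 + (k : ℕ) ≠ (β ε).2.2.1 + (m + 1 : ℕ) := fun e4 => by
        have := (ZMod.natCast_eq_natCast_iff' k (m + 1) _).1 (add_left_cancel e4)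
        rw [Nat.mod_eq_of_lt (by omega), Nat.mod_eq_of_lt (by omega)] at this
        omega
      rw [h2 _ (by omega) (by omega), show ε + 2 * (m + 1) = ε + 2 * m + 1 + 1 by omega,
        h2 _ (by omega) (by omega), e, hζ (m + 1) (by omega), ← update_comm ne]
      simp [upd, add_assoc, mul_add, one_add_one_eq_two]
  refine main T k _ le_rfl le_rfl ?_
  rw [h1, upd, if_pos (by rw [inv k (by omega)]), hζ k (by omega), inv k (by omega)]
  simp [add_assoc]

theorem exists_code (ι : Type) [Fintype ι] : ∃ code : ι → ℕ, (∀ a, 1 ≤ code a) ∧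
    (∀ a, code a ≤ 3 * Fintype.card ι ^ 3) ∧
    ∀ a b c d, a ≠ b → code a + code d = code c + code b → a = c := by
  obtain ⟨Z, hZ⟩ : ∃ Z, Z = Fintype.card ι := ⟨_, rfl⟩
  obtain ⟨e, he, lt⟩ : ∃ e : ι → ℕ, Injective e ∧ ∀ a, e a < Z :=
    ⟨fun a => Fintype.equivFin ι a, fun a b h => (Fintype.equivFin ι).injective (Fin.ext h),
      fun a => hZ ▸ (Fintype.equivFin ι a).2⟩
  have sq : ∀ a, e a * e a < Z * Z := fun a => Nat.mul_self_lt_mul_self (lt a)
  refine ⟨fun a => 2 * (Z * Z) * e a + e a * e a + 1, fun a => Nat.le_add_left _ _, fun a => ?_,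
    fun a b c d hab h => he ?_⟩
  · have h1 : Z * Z * (e a + 1) ≤ Z * Z * Z := Nat.mul_le_mul_left _ (lt a)
    have := sq a
    rw [← hZ]; nlinarith
  · have h0 : e a ≠ e b := fun h => hab (he h)
    have := sq a; have := sq b; have := sq c; have := sq d
    simp only at h
    have h1 : e a + e d = e c + e b := by
      rcases lt_trichotomy (e a + e d) (e c + e b) with h1 | h1 | h1
      · have := Nat.mul_le_mul_left (2 * (Z * Z)) (Nat.succ_le_of_lt h1); nlinarith
      · exact h1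
      · have := Nat.mul_le_mul_left (2 * (Z * Z)) (Nat.succ_le_of_lt h1); nlinarith
    have h2 : e a * e a + e d * e d = e c * e c + e b * e b := by
      have := congrArg (2 * (Z * Z) * ·) h1
      nlinarith
    zify at h0 h1 h2 ⊢
    have h3 : ((e a : ℤ) - e b) * (e a - e c) = 0 := by
      have : (e d : ℤ) = e c + e b - e a := by linarith
      rw [this] at h2; linarith
    rcases mul_eq_zero.1 h3 with h | h
    · exact (h0 (by linarith)).elim
    · linarith

namespace Par

variable [AddCommGroup V] (P : Par α V L) (G : ZMod K × (ZMod K → V → V) → V →₀ ZMod 2)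

/-- The machine of the inner levels. -/
noncomputable def bstep (σ : CS α L × BS V K × (V → V)) (a : α) : CS α L × BS V K × (V → V) :=
  if P.cstep σ.1 a = off α L 0 then (off α L 0, upd G σ.2.1 (P.act σ.1 a ∘ σ.2.2), id)
  else (P.cstep σ.1 a, σ.2.1, P.act σ.1 a ∘ σ.2.2)

theorem bstep_fst (σ : CS α L × BS V K × (V → V)) (a : α) :
    (P.bstep G σ a).1 = P.cstep σ.1 a := by
  unfold bstep; split_ifs with h
  exacts [h.symm, rfl]

theorem run_bstep_fst (u : List α) : ∀ σ, (run (P.bstep G) σ u).1 = run P.cstep σ.1 u := by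
  induction u with
  | nil => exact fun _ => rfl
  | cons a u ih => exact fun σ => (ih _).trans (congrArg (run P.cstep · u) (P.bstep_fst G σ a))

theorem run_bstep_id {u : List α} (hu : u ≠ []) (σ : CS α L × BS V K × (V → V))
    (h : (run (P.bstep G) σ u).1 = off α L 0) : (run (P.bstep G) σ u).2.2 = id := by
  obtain ⟨v, a, rfl⟩ := (List.eq_nil_or_concat' u).resolve_left hu
  rw [run_append] at h ⊢
  change (P.bstep G _ a).1 = _ at h
  change (P.bstep G _ a).2.2 = _
  rw [bstep_fst] at h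
  rw [bstep, if_pos h]

theorem AliveA.left {c : CS α L} {u v : List α} : P.AliveA c (u ++ v) → P.AliveA c u :=
  fun ⟨x, h⟩ => ⟨x, h.left⟩

theorem AliveA.right {σ : CS α L × BS V K × (V → V)} {u v : List α} :
    P.AliveA σ.1 (u ++ v) → P.AliveA (run (P.bstep G) σ u).1 v := fun ⟨x, h⟩ =>
  ⟨(run P.astep (σ.1, x) u).2, by
    rw [run_bstep_fst, ← P.run_astep_fst u (σ.1, x)]; exact h.right⟩

variable (w : ℕ → α)

/-- The action on labels between the times `j` and `t`. -/
noncomputable def AS (c : CS α L) (j t : ℕ) : V → V := fun x => (tr P.astep w (c, x) j t).2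

variable {w}

theorem AS_succ (c : CS α L) {j t : ℕ} (h : j ≤ t) :
    P.AS w c j (t + 1) = P.act (tr P.cstep w c j t) (w t) ∘ P.AS w c j t := by
  funext x
  rw [AS, tr_succ h, astep, tr, run_astep_fst]; rfl

theorem tr_zone (c : CS α L) (β : BS V K) (al : V → V) {j : ℕ} (t : ℕ) (ht : j ≤ t)
    (h : ∀ τ, j < τ → τ ≤ t → tr P.cstep w c j τ ≠ off α L 0) :
    tr (P.bstep G) w (c, β, al) j t = (tr P.cstep w c j t, β, P.AS w c j t ∘ al) := by
  induction t, ht using Nat.le_induction with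
  | base => simp only [tr_self]; congr 2; funext x; simp [AS]
  | succ t ht ih =>
    have := h (t + 1) (by omega) le_rfl
    rw [tr_succ ht] at this
    rw [tr_succ ht, tr_succ ht, ih fun τ a b => h τ a (by omega), bstep, if_neg this,
      P.AS_succ c ht]
    rfl

theorem Next.tr_off {s s' c : ℕ} (h : P.Next w s s') (hc : c ≤ P.ℓ) (β : BS V K) :
    tr (P.bstep G) w (off α L 0, β, id) s (s + c) =
      (off α L c, β, P.AS w (off α L 0) s (s + c)) := by
  have := h.1
  rw [P.tr_zone G _ β id _ (Nat.le_add_right s c) fun τ a b => h.2.2.1 τ a (by omega),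
    P.tr_off hc]
  rfl

theorem Next.tr_next {s s' c : ℕ} (h : P.Next w s s') (hc : c ≤ P.ℓ) (β : BS V K) (al : V → V) :
    tr (P.bstep G) w (off α L c, β, al) (s + c) s' =
      (off α L 0, upd G β (P.AS w (off α L c) (s + c) s' ∘ al), id) := by
  have := h.1
  obtain ⟨t, rfl⟩ : ∃ t, s' = t + 1 := ⟨s' - 1, by omega⟩
  have e : ∀ τ, s + c ≤ τ → tr P.cstep w (off α L c) (s + c) τ = tr P.cstep w (off α L 0) s τ :=
    fun τ a => by rw [← P.tr_off (w := w) (s := s) hc, tr_trans (by omega) a]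
  have ht : s + c ≤ t := by omega
  have h1 := (e _ (by omega)).trans h.2.1
  rw [tr_succ ht] at h1
  rw [tr_succ ht, P.tr_zone G _ β al t ht fun τ a b => by
    rw [e τ a.le]; exact h.2.2.1 τ (by omega) (by omega), bstep, if_pos h1, P.AS_succ _ ht]
  rfl

variable {f : ℕ → ℕ} {M : ℕ} (hf : ∀ i < M, P.Next w (f i) (f (i + 1)))
include hf

theorem f_le {i j : ℕ} (h : i ≤ j) (hj : j ≤ M) : f i + (j - i) ≤ f j := by
  have := le_of_steps (c := 1) (fun i hi => by have := (hf i hi).1; omega : ∀ i < M,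
    f i + 1 ≤ f (i + 1)) i (j - i) (by omega)
  rwa [mul_one, Nat.add_sub_cancel' h] at this

theorem f_cnt (i : ℕ) : ∀ d, i + d ≤ M → d ≤ P.M.cnt w (f i) (f (i + d))
  | 0, _ => Nat.zero_le _
  | d + 1, h => by
    have h1 := f_cnt i d (by omega)
    have h2 := hf (i + d) (by omega)
    have h3 := P.f_le hf (Nat.le_add_right i d) (by omega)
    have := Marker.cnt_add (M := P.M) w (show f i ≤ f (i + d) by omega)
      (show f (i + d) ≤ f (i + d + 1) by have := h2.1; omega)
    have := h2.2.2.2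
    rw [← add_assoc]; omega

theorem f_seq (σ : CS α L × BS V K × (V → V)) {j i₁ : ℕ} (hj : j ≤ f i₁) {β : BS V K}
    (h : tr (P.bstep G) w σ j (f i₁) = (off α L 0, β, id)) (i : ℕ) (hi : i₁ ≤ i) :
    (i ≤ M → tr (P.bstep G) w σ j (f i) = (off α L 0, (tr (P.bstep G) w σ j (f i)).2.1, id)) ∧
    (i < M → (tr (P.bstep G) w σ j (f (i + 1))).2.1 =
      upd G (tr (P.bstep G) w σ j (f i)).2.1 (P.AS w (off α L 0) (f i) (f (i + 1)))) := by
  have step : ∀ i, i₁ ≤ i → i < M → ∀ β, tr (P.bstep G) w σ j (f i) = (off α L 0, β, id) →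
      tr (P.bstep G) w σ j (f (i + 1)) =
        (off α L 0, upd G β (P.AS w (off α L 0) (f i) (f (i + 1))), id) := by
    intro i a b β e
    have := P.f_le hf a b.le
    have := (hf i b).1
    rw [← tr_trans (show j ≤ f i by omega) (by omega), e]
    exact (hf i b).tr_next P G (Nat.zero_le _) β id
  have one : i ≤ M →
      tr (P.bstep G) w σ j (f i) = (off α L 0, (tr (P.bstep G) w σ j (f i)).2.1, id) := by
    induction i, hi using Nat.le_induction with
    | base => intro _; rw [h]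
    | succ i hi ih => intro a; rw [step i hi a _ (ih (by omega))]
  exact ⟨one, fun a => by rw [step i hi a _ (one a.le)]⟩

end Par

end Vale.Agent.P329
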