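import Vale.Agent.P329.Chan3

/-! The inner machine over the chain with a long counter, and the two kinds of cuts. -/

namespace Vale.Agent.P329

open Function
open scoped Classical
open Par (W W_none)

variable {α V : Type} {L H π K : ℕ}

theorem per_const (M : Marker α L) {E : ℕ} (hH : 0 < H) (hL : 0 < L)
    (hE : ∀ (f : V → V) (m k : ℕ), E ≤ m → f^[m + E * k] = f^[m])
    (h1 : ∀ p, 0 < p → p ≤ M.X → E * p ∣ π) (h2 : 13 * L + M.X + E * M.X ≤ π) (δ : V → α → V)
    {w : ℕ → α} {s : ℕ} (hm : ∀ τ, s + 18 * L ≤ τ → τ ≤ s + 2 * (H * π) → ¬ M.Mk w τ) (n : ℕ)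
    (hn : n < H) (x : V) : tr δ w x s (s + π * (n + 1)) = tr δ w x s (s + π) := by
  have a0 : π ≤ H * π := Nat.le_mul_of_pos_left _ hH
  obtain ⟨a, p, k, a1, a2, -, a3, a4⟩ := M.per (fun i => w (s + 13 * L + i))
    (2 * (H * π) - 13 * L) fun t ht h => hm (s + 13 * L + t + 5 * L) (by omega) (by omega)
      ⟨_, rfl, by simpa only [add_assoc] using h⟩
  have hp : 0 < p := Nat.pos_of_ne_zero (by rintro rfl; omega)
  obtain ⟨c, hc⟩ := h1 p hp a2
  have a5 : E * p ≤ E * M.X := Nat.mul_le_mul_left _ a2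
  have main : ∀ n < H, tr δ w x s (s + π * (n + 1)) = (fun σ => run δ σ
      (seg w (s + π - E * p) (s + π - E * p + p)))^[E] (tr δ w x s (s + π - E * p)) := by
    intro n hn
    have b1 : π * (n + 1) ≤ H * π := by rw [mul_comm H]; exact Nat.mul_le_mul_left _ hn
    have b2 : (E + E * (c * n)) * p = E * p + π * n := by rw [hc]; ring
    have b3 : s + π * (n + 1) = s + π - E * p + (E + E * (c * n)) * p := by
      rw [b2, Nat.mul_succ]; omega
    rw [← tr_trans (show s ≤ s + π - E * p by omega) (by omega), ← hE _ E (c * n) le_rfl,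
      ← run_pw, ← seg_pw w p _ _ fun t b4 b5 => ?_, ← b3, tr]
    have := a4 (t - (s + 13 * L)) (by omega) (by omega)
    rwa [← add_assoc, Nat.add_sub_cancel' (by omega)] at this
  rw [main n hn, ← main 0 hH, zero_add, mul_one]

namespace Par3

variable [AddCommGroup V] (P : Par3 α V L H π) (G : ZMod K × (ZMod K → V → V) → V →₀ ZMod 2)

/-- The machine of the inner levels. -/
noncomputable def bstep (σ : C3 α L H π × BS V K × (V → V)) (a : α) :
    C3 α L H π × BS V K × (V → V) :=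
  if P.cstep σ.1 a = of3 α L H π 0 then (of3 α L H π 0, upd G σ.2.1 (P.act σ.1 a ∘ σ.2.2), id)
  else (P.cstep σ.1 a, σ.2.1, P.act σ.1 a ∘ σ.2.2)

theorem bstep_fst (σ : C3 α L H π × BS V K × (V → V)) (a : α) :
    (P.bstep G σ a).1 = P.cstep σ.1 a := by
  unfold bstep; split_ifs with h
  exacts [h.symm, rfl]

theorem run_bstep_fst (u : List α) : ∀ σ, (run (P.bstep G) σ u).1 = run P.cstep σ.1 u := by
  induction u with
  | nil => exact fun _ => rfl
  | cons a u ih => exact fun σ => (ih _).trans (congrArg (run P.cstep · u) (P.bstep_fst G σ a))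

theorem AliveA.left {c : C3 α L H π} {u v : List α} : P.AliveA c (u ++ v) → P.AliveA c u :=
  fun ⟨x, h⟩ => ⟨x, h.left⟩

theorem AliveA.right {σ : C3 α L H π × BS V K × (V → V)} {u v : List α} :
    P.AliveA σ.1 (u ++ v) → P.AliveA (run (P.bstep G) σ u).1 v := fun ⟨x, h⟩ =>
  ⟨(run P.astep (σ.1, x) u).2, by
    rw [run_bstep_fst, ← P.run_astep_fst u (σ.1, x)]; exact h.right⟩

variable (w : ℕ → α)

/-- The action on labels between the times `j` and `t`. -/
noncomputable def AS (c : C3 α L H π) (j t : ℕ) : V → V := fun x => (tr P.astep w (c, x) j t).2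

variable {w}

theorem tr_bstep_id {σ : C3 α L H π × BS V K × (V → V)} {j t : ℕ} (h0 : j < t)
    (h : (tr (P.bstep G) w σ j t).1 = of3 α L H π 0) : (tr (P.bstep G) w σ j t).2.2 = id := by
  obtain ⟨t, rfl⟩ : ∃ t', t = t' + 1 := ⟨t - 1, by omega⟩
  rw [tr_succ (by omega)] at h ⊢
  rw [bstep_fst] at h
  rw [bstep, if_pos h]

theorem AS_succ (c : C3 α L H π) {j t : ℕ} (h : j ≤ t) :
    P.AS w c j (t + 1) = P.act (tr P.cstep w c j t) (w t) ∘ P.AS w c j t := by
  funext x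
  rw [AS, tr_succ h, astep, tr, run_astep_fst]; rfl

theorem tr_zone (c : C3 α L H π) (β : BS V K) (al : V → V) {j : ℕ} (t : ℕ) (ht : j ≤ t)
    (h : ∀ τ, j < τ → τ ≤ t → tr P.cstep w c j τ ≠ of3 α L H π 0) :
    tr (P.bstep G) w (c, β, al) j t = (tr P.cstep w c j t, β, P.AS w c j t ∘ al) := by
  induction t, ht using Nat.le_induction with
  | base => simp only [tr_self]; congr 2; funext x; simp [AS]
  | succ t ht ih =>
    have := h (t + 1) (by omega) le_rfl
    rw [tr_succ ht] at this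
    rw [tr_succ ht, tr_succ ht, ih fun τ a b => h τ a (by omega), bstep, if_neg this,
      P.AS_succ c ht]
    rfl

theorem Next.le {s s' : ℕ} (h : P.Next w s s') : s + 18 * L ≤ s' :=
  let ⟨_, a, b, _⟩ := h.2.2; a.trans b

theorem Next.tr_in {s s' t : ℕ} (h : P.Next w s s') (h1 : s ≤ t) (h2 : t < s') (β : BS V K) :
    tr (P.bstep G) w (of3 α L H π 0, β, id) s t =
      (tr P.cstep w (of3 α L H π 0) s t, β, P.AS w (of3 α L H π 0) s t) :=
  P.tr_zone G _ β id _ h1 fun τ a b => h.2.1 τ a (by omega)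

theorem Next.tr_out {s s' j : ℕ} (h : P.Next w s s') (h1 : s ≤ j) (h2 : j < s') (β : BS V K)
    (al : V → V) : tr (P.bstep G) w (tr P.cstep w (of3 α L H π 0) s j, β, al) j s' =
      (of3 α L H π 0, upd G β (P.AS w (tr P.cstep w (of3 α L H π 0) s j) j s' ∘ al), id) := by
  obtain ⟨t, rfl⟩ : ∃ t, s' = t + 1 := ⟨s' - 1, by omega⟩
  have ht : j ≤ t := by omega
  have h3 := (tr_trans h1 h2.le).trans h.1
  rw [tr_succ ht] at h3
  rw [tr_succ ht, P.tr_zone G _ β al t ht fun τ a b => by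
    rw [tr_trans h1 a.le]; exact h.2.1 τ (by omega) (by omega), bstep, if_pos h3, P.AS_succ _ ht]
  rfl

theorem Next.tr_next {s s' : ℕ} (h : P.Next w s s') (β : BS V K) :
    tr (P.bstep G) w (of3 α L H π 0, β, id) s s' =
      (of3 α L H π 0, upd G β (P.AS w (of3 α L H π 0) s s'), id) := by
  have := P.pos; have := h.le
  simpa using h.tr_out P G le_rfl (by omega) β id

/-- The root states of the inner levels. -/
def KB (σ : C3 α L H π × BS V K × (V → V)) : Prop :=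
  σ.1 = of3 α L H π 0 ∧ σ.2.1.2.2.2 = false ∧ σ.2.1.1 = 0

/-- The states at anchors. -/
def EB (σ : C3 α L H π × BS V K × (V → V)) : Prop := σ.1 = of3 α L H π 0 ∧ σ.2.2 = id

theorem last_anchor (β : BS V K) : ∀ t, ∃ s ≤ t + L, ∃ β',
    tr (P.bstep G) w (of3 α L H π 0, β, id) 0 s = (of3 α L H π 0, β', id) ∧
      ∀ τ, s + 18 * L ≤ τ → τ ≤ t → ¬ P.M.Mk w τ
  | 0 => ⟨0, Nat.zero_le _, β, tr_self, fun τ a b => by have := P.pos; omega⟩
  | t + 1 => by
    have := P.pos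
    obtain ⟨s, h1, β', h2, h3⟩ := last_anchor β t
    by_cases h : s + 18 * L ≤ t + 1 ∧ P.M.Mk w (t + 1)
    · obtain ⟨s', a1, a2, a3⟩ := P.next_of h.1 h.2 fun τ a b => h3 τ a (by omega)
      exact ⟨s', by omega, _, by
        rw [← tr_trans (Nat.zero_le s) (by omega), h2, a1.tr_next P G], fun τ a b => by omega⟩
    · refine ⟨s, by omega, β', h2, fun τ a b c => ?_⟩
      rcases b.eq_or_lt with rfl | b
      exacts [h ⟨a, c⟩, h3 τ a (by omega) c]

theorem calm_b {o j : ℕ} (ho : 13 * L ≤ o) {Z : Fin (5 * L) → Option α}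
    (h : P.Calm w (cn H π o, Z, 0) j (5 * L)) (β : BS V K) (al : V → V) :
    tr (P.bstep G) w ((cn H π o, Z, 0), β, al) j (j + 5 * L) =
      ((cn H π (o + 5 * L), W w L j (j + 5 * L), 0), β,
        (fun x => tr P.pu w x j (j + 5 * L)) ∘ al) := by
  have := P.pos
  rw [P.tr_zone G _ β al _ (by omega) fun τ a b => ?_, P.tr_fst _ 0, P.calm_tr ho h]
  · congr 3; funext x; rw [AS, P.calm_tr ho h]
  · obtain ⟨d, rfl⟩ : ∃ d, τ = j + d := ⟨τ - j, by omega⟩
    obtain ⟨Z', -, h2⟩ := P.notick ho Z d fun t ht => h t (by omega)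
    rw [P.tr_fst _ 0, h2]
    exact fun e => P.cn_ne (by omega) (Prod.mk.inj e).1

variable {f : ℕ → ℕ} {M : ℕ} (hf : ∀ i < M, P.Next w (f i) (f (i + 1)))
include hf

theorem f_le {i j : ℕ} (h : i ≤ j) (hj : j ≤ M) : f i + (j - i) ≤ f j := by
  have := le_of_steps (c := 1) (fun i hi => by
    have := (hf i hi).le; have := P.pos; omega : ∀ i < M, f i + 1 ≤ f (i + 1)) i (j - i) (by omega)
  rwa [mul_one, Nat.add_sub_cancel' h] at this

theorem f_cnt (i : ℕ) : ∀ d, i + d ≤ M → d ≤ P.M.cnt w (f i) (f (i + d))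
  | 0, _ => Nat.zero_le _
  | d + 1, h => by
    have := P.pos
    have h1 := f_cnt i d (by omega)
    obtain ⟨τ, a1, a2, a3⟩ := (hf (i + d) (by omega)).2.2
    have h3 := P.f_le hf (Nat.le_add_right i d) (by omega)
    have := Marker.cnt_add (M := P.M) w (show f i ≤ f (i + d) by omega)
      (show f (i + d) ≤ f (i + d + 1) by omega)
    have : P.M.cnt w (f (i + d)) (f (i + d + 1)) ≠ 0 := fun e =>
      Marker.cnt_eq_zero.1 e τ (by omega) a2 a3
    rw [← add_assoc]; omega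

theorem f_seq (σ : C3 α L H π × BS V K × (V → V)) {j i₁ : ℕ} (hj : j ≤ f i₁) {β : BS V K}
    (h : tr (P.bstep G) w σ j (f i₁) = (of3 α L H π 0, β, id)) (i : ℕ) (hi : i₁ ≤ i) :
    (i ≤ M → tr (P.bstep G) w σ j (f i) =
      (of3 α L H π 0, (tr (P.bstep G) w σ j (f i)).2.1, id)) ∧
    (i < M → (tr (P.bstep G) w σ j (f (i + 1))).2.1 =
      upd G (tr (P.bstep G) w σ j (f i)).2.1 (P.AS w (of3 α L H π 0) (f i) (f (i + 1)))) := by
  have step : ∀ i, i₁ ≤ i → i < M → ∀ β, tr (P.bstep G) w σ j (f i) = (of3 α L H π 0, β, id) →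
      tr (P.bstep G) w σ j (f (i + 1)) =
        (of3 α L H π 0, upd G β (P.AS w (of3 α L H π 0) (f i) (f (i + 1))), id) := by
    intro i a b β e
    have := P.f_le hf a b.le
    have := (hf i b).le
    rw [← tr_trans (show j ≤ f i by omega) (by omega), e]
    exact (hf i b).tr_next P G β
  have one : i ≤ M → tr (P.bstep G) w σ j (f i) =
      (of3 α L H π 0, (tr (P.bstep G) w σ j (f i)).2.1, id) := by
    induction i, hi using Nat.le_induction with
    | base => intro _; rw [h]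
    | succ i hi ih => intro a; rw [step i hi a _ (ih (by omega))]
  exact ⟨one, fun a => by rw [step i hi a _ (one a.le)]⟩

omit hf in
/-- The states at which cuts are made. -/
def Cut {r : ℕ} (code : Fin (80 * r) × BS V K × (Bool ⊕ (V → V)) → ℕ)
    (σ : C3 α L H π × BS V K × (V → V)) : Prop :=
  ∃ b, CutC b.2.2.getLeft? (code b) σ.1 ∧ σ.2.1 = b.2.1 ∧ ∀ al, b.2.2 = .inr al → σ.2.2 = al

variable {ℓ T r : ℕ} (hG : P.Good ℓ T r) (hℓ : 6 * ℓ + 3 ≤ H)
  {code : Fin (80 * r) × BS V K × (Bool ⊕ (V → V)) → ℕ} (c2 : ∀ a, code a ≤ ℓ)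
  (sidon : ∀ a b c d, a ≠ b → code a + code d = code c + code b → a = c)
  (half : ∀ a b c, code a < code b + code c)

include hG hℓ c2 sidon half

theorem cutK {i₀ : ℕ} (hi : i₀ + (19 * T + 40) ≤ M) {σ : C3 α L H π × BS V K × (V → V)}
    {β : BS V K} (h : tr (P.bstep G) w σ 0 (f i₀) = (of3 α L H π 0, β, id)) :
    ∃ j, f i₀ ≤ j ∧ j < f (i₀ + 1) ∧ Cut code (tr (P.bstep G) w σ 0 j) ∧
      ∀ σ', Cut code σ' → P.AliveA σ'.1 (seg w j (f M)) → ∃ a',
        tr (P.bstep G) w σ' j (f (i₀ + 1)) = (of3 α L H π 0, upd G β a', id) := by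
  have := P.pos
  have h1 := P.f_cnt hf i₀ (M - i₀) (by omega)
  rw [Nat.add_sub_cancel' (by omega)] at h1
  obtain ⟨Ω, i, hi'⟩ := P.chanK hG hℓ (ty := fun b => b.2.2.getLeft?) c2 sidon half
    (att := fun Ω i => (i, β, .inl Ω)) (fun _ a b e => congrArg Prod.fst e) (w := w) (s := f i₀)
    (e := f M) (by omega)
  have h2 := hf i₀ (by omega)
  have := h2.le
  obtain ⟨o, ho, a1⟩ : ∃ o, H * (3 * code (i, β, .inl Ω)) + L * (bif Ω then 12 else 0) = o ∧
      o ≤ 13 * L := ⟨_, rfl, by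
    have : H * (3 * code (i, β, .inl Ω)) < L :=
      P.hL ▸ Nat.mul_lt_mul_of_pos_left (by have := c2 (i, β, .inl Ω); omega) P.posH
    cases Ω <;> simp only [cond] <;> omega⟩
  rw [ho] at hi'
  have a2 : tr P.cstep w (of3 α L H π 0) (f i₀) (f i₀ + o) = of3 α L H π o := by
    rw [P.tr_fst _ 0, P.tr_free 0 (by omega) fun τ a b => by omega, W_none (by omega),
      Nat.add_sub_cancel_left]
    rfl
  refine ⟨f i₀ + o, by omega, by omega, ?_, ?_⟩
  · rw [← tr_trans (Nat.zero_le (f i₀)) (by omega), h, h2.tr_in P G (by omega) (by omega), a2]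
    exact ⟨(i, β, .inl Ω), congrArg (of3 α L H π) ho.symm, rfl, fun _ e => by cases e⟩
  · rintro ⟨c, _, al⟩ ⟨b, b1, rfl, -⟩ hb
    obtain rfl := hi' b c b1 hb
    obtain rfl : c = tr P.cstep w (of3 α L H π 0) (f i₀) (f i₀ + o) := by rw [a2, ← ho]; exact b1
    exact ⟨_, h2.tr_out P G (by omega) (by omega) β al⟩

theorem cutP (hi : 19 * T + 40 ≤ M) {σ : C3 α L H π × BS V K × (V → V)}
    {β : BS V K} (h : tr (P.bstep G) w σ 0 (f 0) = (of3 α L H π 0, β, id))
    (hm : ∀ τ, f 0 + 18 * L ≤ τ → τ ≤ f 0 + 2 * (H * π) → ¬ P.M.Mk w τ)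
    (hp : ∀ n < H, ∀ x, tr P.pu w x (f 0) (f 0 + π * (n + 1)) = tr P.pu w x (f 0) (f 0 + π)) :
    ∃ j, f 0 ≤ j ∧ j ≤ f 0 + H * π ∧ j < f M ∧ Cut code (tr (P.bstep G) w σ 0 j) ∧
      ∀ σ', Cut code σ' → P.AliveA σ'.1 (seg w j (f M)) →
        tr (P.bstep G) w σ' j (f M) = tr (P.bstep G) w σ 0 (f M) := by
  have := P.pos; have := P.big
  have h1 := P.f_cnt hf 0 M (by omega)
  rw [zero_add] at h1
  obtain ⟨al, hal⟩ : ∃ al : V → V, al = fun x => tr P.pu w x (f 0) (f 0 + π) := ⟨_, rfl⟩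
  obtain ⟨i, hi'⟩ := P.chanP hG hℓ (ty := fun b => b.2.2.getLeft?) c2 sidon half
    (att := fun i => (i, β, .inr al)) (fun a b e => congrArg Prod.fst e) hm (e := f M) (by omega)
  have h2 := hf 0 (by omega)
  have h3 := P.f_le hf (show 0 + 1 ≤ M by omega) le_rfl
  obtain ⟨τ, t1, t2, t3⟩ := h2.2.2
  have t4 : ¬ τ ≤ f 0 + 2 * (H * π) := fun a => hm τ t1 a t3
  obtain ⟨n, hn, a1⟩ : ∃ n, 3 * code (i, β, .inr al) = n + 1 ∧ n + 1 < H :=
    ⟨3 * code (i, β, .inr al) - 1, by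
      have := half (i, β, .inr al) (i, β, .inr al) (i, β, .inr al)
      have := c2 (i, β, .inr al); omega⟩
  have a2 : π * (n + 1) + π ≤ H * π := by
    rw [← Nat.mul_succ, mul_comm H]; exact Nat.mul_le_mul_left _ a1
  have a3 : π ≤ π * (n + 1) := Nat.le_mul_of_pos_right _ (by omega)
  rw [hn] at hi'
  have a4 := fun x => P.tr_free (w := w) x (Nat.le_add_right (f 0) (π * (n + 1)))
    fun τ a b => hm τ a (by omega)
  have a5 : tr (P.bstep G) w σ 0 (f 0 + π * (n + 1)) =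
      ((cn H π (π * (n + 1)), W w L (f 0 + 13 * L) (f 0 + π * (n + 1)), 0), β, al) := by
    rw [← tr_trans (Nat.zero_le (f 0)) (by omega), h, h2.tr_in P G (by omega) (by omega),
      P.tr_fst _ 0, a4, Nat.add_sub_cancel_left, hal]
    congr 2; funext x; rw [AS, a4, hp n (by omega)]
  refine ⟨f 0 + π * (n + 1), by omega, by omega, by omega, ?_, ?_⟩
  · rw [a5]
    exact ⟨(i, β, .inr al), ⟨_, by rw [hn]⟩, rfl, fun _ e => Sum.inr.inj e⟩
  · rintro ⟨c, _, al'⟩ ⟨b, b1, rfl, b2⟩ hb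
    obtain ⟨-, rfl, b3⟩ : b.2.2.getLeft? = none ∧ b = (i, β, .inr al) ∧
        P.Calm w c (f 0 + π * (n + 1)) (5 * L) := by
      by_contra hn
      exact hi' b c (fun x y z => hn ⟨x, y, z⟩) b1 hb
    obtain ⟨Z, rfl⟩ := b1
    obtain rfl : al' = al := b2 _ rfl
    rw [hn] at b3 ⊢
    rw [← tr_trans (Nat.le_add_right _ (5 * L)) (by omega), P.calm_b G (by omega) b3,
      ← P.calm_b G (Z := W w L (f 0 + 13 * L) (f 0 + π * (n + 1))) (by omega) fun t ht => ?_,
      ← a5, tr_trans (by omega) (by omega), tr_trans (by omega) (by omega)]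
    rw [P.tr_fst _ 0, P.tr_search (by omega) 0 _ (by omega) fun τ a b c => hm τ (by omega)
      (by omega), P.tick_W (by omega)]
    exact fun h => hm _ (by omega) (by omega) h.2

end Par3

end Vale.Agent.P329
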