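import Vale.Agent.P329.Rand

/-! The random function of the outer level. -/

namespace Vale.Agent.P329

open Finset Function Filter
open scoped Classical

variable {V : Type} [AddCommGroup V] {L : ℕ}

/-- A chain of ticks at the times `m i`, with query `y` and label `x` before the tick, survives. -/
def AlA (Λ : ℕ) (F : ZMod L → V × ZMod L) (m : ℕ → ℕ) (μ : ℕ → ℕ → V → V) :
    ℕ → ℕ → ZMod L → V → Prop
  | 0, _, _, _ => True
  | t + 1, i, y, x => x + (F y).1 ≠ 0 ∧ ∃ d < 8,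
      IsLeast {d | m i + (F y).2.val + Λ ≤ m (i + d)} d ∧
      AlA Λ F m μ t (i + d) ((m (i + d) - m i : ℕ) - (F y).2) (μ i d (x + (F y).1))

noncomputable def dsel (Λ : ℕ) (get : ℕ → ℕ → ℕ × ZMod L × (V → V)) (i : ℕ) (ψ : ZMod L) : ℕ :=
  sInf {d | d < 8 ∧ ψ.val + Λ ≤ (get i d).1}

noncomputable def stA (Λ : ℕ) (get : ℕ → ℕ → ℕ × ZMod L × (V → V)) (c : ℕ × ZMod L × V)
    (a : V × ZMod L) : Option (ℕ × ZMod L × V) :=
  if c.2.2 + a.1 = 0 then none else
    some (c.1 + dsel Λ get c.1 a.2, (get c.1 (dsel Λ get c.1 a.2)).2.1 - a.2,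
      (get c.1 (dsel Λ get c.1 a.2)).2.2 (c.2.2 + a.1))

omit [AddCommGroup V] in
theorem dsel_lt (Λ : ℕ) (get : ℕ → ℕ → ℕ × ZMod L × (V → V)) (i : ℕ) (ψ : ZMod L) :
    dsel Λ get i ψ < 8 := by
  by_cases h : {d | d < 8 ∧ ψ.val + Λ ≤ (get i d).1}.Nonempty
  · exact (Nat.sInf_mem h).1
  · rw [dsel, Set.not_nonempty_iff_eq_empty.1 h, Nat.sInf_empty]; omega

theorem AlA.alive [NeZero L] {Λ B : ℕ} (h0 : 0 < Λ) (h1 : Λ ≤ 6 * L) {F : ZMod L → V × ZMod L}
    {m : ℕ → ℕ} {μ : ℕ → ℕ → V → V} {get : ℕ → ℕ → ℕ × ZMod L × (V → V)}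
    (hg : ∀ i ≤ B, ∀ d < 8, get i d =
      (min (m (i + d) - m i) (7 * L), ((m (i + d) - m i : ℕ) : ZMod L), μ i d)) :
    ∀ t i y x, i + 7 * t ≤ B → AlA Λ F m μ t i y x →
      alive (fun c => c.2.1) (stA Λ get) F t (i, y, x)
  | 0, _, _, _, _, _ => trivial
  | t + 1, i, y, x, hi, ⟨h2, d, hd, h3, h4⟩ => by
    have hψ := ZMod.val_lt (F y).2
    have e : dsel Λ get i (F y).2 = d := by
      refine IsLeast.csInf_eq ⟨⟨hd, ?_⟩, fun d' h5 => h3.2 ?_⟩
      · have : m i + (F y).2.val + Λ ≤ m (i + d) := h3.1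
        rw [hg i (by omega) d hd]; simp only; omega
      · have := h5.2
        rw [hg i (by omega) d' h5.1] at this
        simp only [Set.mem_ofPred_eq] at this ⊢; omega
    refine ⟨_, if_neg h2, ?_⟩
    simp only [e, hg i (by omega) d hd]
    exact AlA.alive h0 h1 hg t _ _ _ (by omega) h4

variable [Fintype V]

theorem stA_kill [NeZero L] (Λ : ℕ) (get : ℕ → ℕ → ℕ × ZMod L × (V → V)) (c : ℕ × ZMod L × V) :
    (#{a | stA Λ get c a ≠ none} : ℝ) ≤
      (1 - 1 / Fintype.card V) * Fintype.card (V × ZMod L) := by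
  have hV : (0 : ℝ) < Fintype.card V := by exact_mod_cast Fintype.card_pos
  have : #{a | stA Λ get c a ≠ none} ≤ #((univ.erase (-c.2.2)) ×ˢ (univ : Finset (ZMod L))) := by
    refine card_le_card fun a ha => ?_
    simp only [mem_filter, mem_univ, true_and, mem_product, mem_erase, and_true] at ha ⊢
    exact fun h => ha (if_pos (by simp [h]))
  refine (Nat.cast_le.2 this).trans (le_of_eq ?_)
  rw [card_product, card_erase_of_mem (mem_univ _), Fintype.card_prod, card_univ, card_univ,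
    Nat.cast_mul, Nat.cast_mul, Nat.cast_pred Fintype.card_pos]
  field_simp

theorem stA_spread [NeZero L] (Λ : ℕ) (get : ℕ → ℕ → ℕ × ZMod L × (V → V))
    (c : ℕ × ZMod L × V) (y : ZMod L) :
    (#{a | ∃ c', stA Λ get c a = some c' ∧ c'.2.1 = y} : ℝ) ≤
      8 / L * Fintype.card (V × ZMod L) := by
  have hL : (L : ℝ) ≠ 0 := by exact_mod_cast NeZero.ne L
  have : #{a | ∃ c', stA Λ get c a = some c' ∧ c'.2.1 = y} ≤
      #((univ : Finset V) ×ˢ ((range 8).image fun d => (get c.1 d).2.1 - y)) := by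
    refine card_le_card fun a ha => ?_
    simp only [mem_filter, mem_univ, true_and, mem_product, mem_image, mem_range] at ha ⊢
    obtain ⟨c', h1, rfl⟩ := ha
    unfold stA at h1
    split_ifs at h1
    obtain rfl := Option.some.inj h1
    exact ⟨_, dsel_lt Λ get c.1 a.2, by simp⟩
  rw [card_product] at this
  have h2 := this.trans (Nat.mul_le_mul_left _ card_image_le)
  refine (Nat.cast_le.2 h2).trans (le_of_eq ?_)
  simp only [card_univ, card_range, Fintype.card_prod, ZMod.card]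
  push_cast; field_simp

theorem numA (v N b : ℕ) (hv : 0 < v) : ∃ k ℓ T r : ℕ, 2 * ℓ ≤ 2 ^ k ∧ 3 * (2 * r * b) ^ 3 ≤ ℓ ∧
    0 < r ∧ T = v * k ∧ 2 ^ k * (((7 * 2 ^ k + 1) * (2 ^ k * N)) ^ 8) ^ (7 * T + 1) < 2 ^ r ∧
    4 * ℓ * v * (1 + 8 * T * (r * (T + 1))) ≤ 2 ^ k := by
  set c := 300 * v with hc
  set C := 4 * (3 * (2 * c * b) ^ 3) * v * (1 + 16 * v * v * c) + 1 with hC
  have h1 := (tendsto_pow_const_div_const_pow_of_one_lt 10 (one_lt_two (α := ℝ))).eventually_lt_const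
    (show (0 : ℝ) < 1 / C by positivity)
  obtain ⟨k, hk, hk3, hkN⟩ := (h1.and ((eventually_ge_atTop 3).and (eventually_ge_atTop N))).exists
  have h2 : C * k ^ 10 ≤ 2 ^ k := by
    rw [div_lt_div_iff₀ (by positivity) (by positivity), one_mul, mul_comm] at hk
    exact_mod_cast hk.le
  have h3 : 4 * (3 * (2 * (c * k ^ 2) * b) ^ 3) * v *
      (1 + 8 * (v * k) * (c * k ^ 2 * (v * k + 1))) ≤ 2 ^ k := by
    refine le_trans ?_ h2
    have a1 : v * k + 1 ≤ 2 * (v * k) := by have : 0 < v * k := by positivity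
                                            omega
    have a2 : 1 ≤ k ^ 4 := Nat.one_le_pow _ _ (by omega)
    calc _ ≤ 4 * (3 * (2 * (c * k ^ 2) * b) ^ 3) * v *
          (k ^ 4 + 8 * (v * k) * (c * k ^ 2 * (2 * (v * k)))) := by gcongr
      _ = 4 * (3 * (2 * c * b) ^ 3) * v * (1 + 16 * v * v * c) * k ^ 10 := by ring
      _ ≤ _ := by gcongr; omega
  refine ⟨k, _, v * k, c * k ^ 2, le_trans ?_ h3, le_rfl, by positivity, rfl, ?_, h3⟩
  · generalize 3 * (2 * (c * k ^ 2) * b) ^ 3 = l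
    calc 2 * l ≤ 4 * l * 1 * 1 := by omega
      _ ≤ _ := by gcongr <;> omega
  · have a1 : N ≤ 2 ^ k := hkN.trans Nat.lt_two_pow_self.le
    have a2 : 7 * 2 ^ k + 1 ≤ 2 ^ k * 2 ^ k := by
      have : 2 ^ 3 ≤ 2 ^ k := Nat.pow_le_pow_right (by omega) hk3
      nlinarith
    calc _ ≤ 2 ^ k * ((2 ^ k * 2 ^ k * (2 ^ k * 2 ^ k)) ^ 8) ^ (7 * (v * k) + 1) := by gcongr
      _ = 2 ^ (k + 32 * k * (7 * (v * k) + 1)) := by ring
      _ < _ := Nat.pow_lt_pow_right (by omega) (by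
          have : 0 < v * k := by positivity
          have : k ≤ v * k * k := by nlinarith
          rw [hc]; nlinarith)

theorem randA (V : Type) [AddCommGroup V] [Fintype V] (b : ℕ) :
    ∃ L ℓ T r : ℕ, 0 < L ∧ 2 * ℓ ≤ L ∧ 3 * (2 * r * b) ^ 3 ≤ ℓ ∧ 0 < r ∧
      ∃ F : ZMod L → V × ZMod L, ∀ (m : ℕ → ℕ) (μ : ℕ → ℕ → V → V) (y₀ : ZMod L) (s : Fin r → ℕ),
        Injective s → (∀ j, s j < 2 * ℓ) →
        ¬ ∀ j, ∃ x, AlA (ℓ + 5 * L) F m μ T 0 (y₀ + s j) x := by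
  obtain ⟨k, ℓ, T, r, h1, h2, h3, h4, h5, h6⟩ :=
    numA (Fintype.card V) (Fintype.card (V → V)) b Fintype.card_pos
  obtain ⟨L, hL⟩ : ∃ L, L = 2 ^ k := ⟨_, rfl⟩
  rw [← hL] at h1 h5 h6
  have L0 : 0 < L := by rw [hL]; positivity
  have : NeZero L := ⟨L0.ne'⟩
  refine ⟨L, ℓ, T, r, L0, h1, h2, h3, ?_⟩
  obtain ⟨v, hv⟩ : ∃ v : ℝ, v = Fintype.card V := ⟨_, rfl⟩
  have hv1 : 1 ≤ v := by rw [hv]; exact_mod_cast Fintype.card_pos
  have hρ0 : 0 ≤ 1 - 1 / v := sub_nonneg.2 ((div_le_one (by linarith)).2 hv1)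
  have LR : (0 : ℝ) < L := by exact_mod_cast L0
  have hρ : (1 - 1 / v) ^ T ≤ 1 / L := by
    have a1 : (1 - 1 / v) ^ Fintype.card V ≤ 1 / 2 := by
      have b1 : 1 - 1 / v ≤ Real.exp (-(1 / v)) := by
        have := Real.add_one_le_exp (-(1 / v)); linarith
      refine (pow_le_pow_left₀ hρ0 b1 _).trans ?_
      rw [← Real.exp_nat_mul, ← hv, show v * -(1 / v) = -1 by field_simp, Real.exp_neg, one_div]
      exact inv_anti₀ two_pos (by have := Real.add_one_le_exp (1 : ℝ); linarith)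
    rw [h4, pow_mul, hL]
    exact (pow_le_pow_left₀ (by positivity) a1 k).trans (le_of_eq (by simp))
  let X := ZMod L × (Fin (7 * T + 1) → Fin 8 → Fin (7 * L + 1) × ZMod L × (V → V)) ×
    (Fin r → Fin (2 * ℓ) × V)
  let get : X → ℕ → ℕ → ℕ × ZMod L × (V → V) := fun x i d =>
    if h : i < 7 * T + 1 ∧ d < 8 then
      ((x.2.1 ⟨i, h.1⟩ ⟨d, h.2⟩).1, (x.2.1 ⟨i, h.1⟩ ⟨d, h.2⟩).2) else (0, 0, id)
  let cs : X → List (ℕ × ZMod L × V) := fun x =>
    List.ofFn fun j => (0, x.1 + ((x.2.2 j).1 : ℕ), (x.2.2 j).2)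
  obtain ⟨F, hF⟩ := exists_good (X := X) (Ω := ZMod L → V × ZMod L)
    (fun x F => (Injective fun j => (x.2.2 j).1) ∧
      ∀ c ∈ cs x, alive (fun c => c.2.1) (stA (ℓ + 5 * L) (get x)) F T c)
    (b := ((1 - 1 / v) ^ T + T * (8 / L * (r * (T + 1) : ℕ))) ^ r) (fun x => by
      by_cases hx : Injective fun j => (x.2.2 j).1
      · have := alive_bound (q := fun c : ℕ × ZMod L × V => c.2.1) hρ0 (sub_le_self _ (by positivity))
          (by positivity) (hv ▸ stA_kill (ℓ + 5 * L) (get x)) (stA_spread _ _) T (cs x) (by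
            rw [List.map_ofFn, List.nodup_ofFn]
            intro i j e
            have := (ZMod.natCast_eq_natCast_iff' _ _ _).1 (add_left_cancel e)
            rw [Nat.mod_eq_of_lt (by omega), Nat.mod_eq_of_lt (by omega)] at this
            exact hx (Fin.ext this))
        rw [List.length_ofFn] at this
        exact le_trans (sum_le_sum fun F _ => ind_mono And.right) this
      · simp only [hx, false_and, ind, if_false, sum_const_zero]; positivity)
    (by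
      simp only [X, Fintype.card_prod, Fintype.card_fun (β := _ × _), Fintype.card_fun (α := Fin _),
        ZMod.card, Fintype.card_fin]
      have a1 : (2 * ℓ * v) * ((1 - 1 / v) ^ T + T * (8 / L * (r * (T + 1) : ℕ))) ≤ 1 / 2 := by
        have : (4 * ℓ * v * (1 + 8 * T * (r * (T + 1))) : ℝ) ≤ L := by
          rw [hv]; exact_mod_cast h6
        calc _ ≤ (2 * ℓ * v) * (1 / L + T * (8 / L * (r * (T + 1) : ℕ))) := by gcongr
          _ = (4 * ℓ * v * (1 + 8 * T * (r * (T + 1))) : ℝ) / L / 2 := by push_cast; field_simp; ring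
          _ ≤ _ := by gcongr; exact (div_le_one LR).2 this
      rw [← mul_assoc L, Nat.cast_mul, mul_assoc, Nat.cast_pow (2 * ℓ * _), ← mul_pow, Nat.cast_mul (2 * ℓ),
        ← hv, Nat.cast_mul 2 ℓ]
      refine (mul_le_mul_of_nonneg_left (pow_le_pow_left₀ (by positivity) a1 r)
        (by positivity)).trans_lt ?_
      rw [one_div, inv_pow, ← div_eq_mul_inv, div_lt_one (by positivity)]
      exact_mod_cast h5)
  refine ⟨F, fun m μ y₀ s hs hs' hn => ?_⟩
  choose z hz using hn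
  let x : X := (y₀, fun i d => (⟨min (m (i + d) - m i) (7 * L), by omega⟩,
    ((m (i + d) - m i : ℕ) : ZMod L), μ i d), fun j => (⟨s j, hs' j⟩, z j))
  refine hF x ⟨fun i j e => hs (congrArg Fin.val e), fun c hc => ?_⟩
  obtain ⟨j, rfl⟩ := List.mem_ofFn.1 hc
  exact AlA.alive (B := 7 * T) (by omega) (by omega)
    (fun i hi d hd => dif_pos ⟨by omega, hd⟩) T 0 _ _ (by omega) (hz j)

end Vale.Agent.P329
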