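import Vale.Agent.P329.DLem
import Vale.Agent.P329.RandA

/-! The chain of anchors and ticks, and the channel it provides. -/

namespace Vale.Agent.P329

open scoped Classical

variable {α S : Type}

/-- The state at time `t` of the run started in `σ` at time `a`. -/
def tr (δ : S → α → S) (w : ℕ → α) (σ : S) (a t : ℕ) : S := run δ σ (seg w a t)

section tr

variable {δ : S → α → S} {w : ℕ → α} {σ : S} {a b c : ℕ}

@[simp] theorem tr_self : tr δ w σ a a = σ := by simp [tr]

theorem tr_succ (h : a ≤ b) : tr δ w σ a (b + 1) = δ (tr δ w σ a b) (w b) := by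
  rw [tr, seg_succ w h, run_append]; rfl

theorem tr_trans (h1 : a ≤ b) (h2 : b ≤ c) : tr δ w (tr δ w σ a b) b c = tr δ w σ a c := by
  rw [tr, tr, tr, ← run_append, seg_append w h1 h2]

theorem avoid_seg {K : S → Prop} (h : a ≤ b) :
    Avoid δ K σ (seg w a b) ↔ ∀ t, a < t → t < b → ¬ K (tr δ w σ a t) := by
  constructor
  · intro H t h1 h2
    refine H _ _ (seg_append w h1.le h2.le).symm ?_ ?_ <;>
      (rw [← List.length_pos_iff, seg_length]; omega)
  · intro H u v e hu hv
    obtain ⟨h1, h2, h3⟩ := seg_split h e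
    have := List.length_pos_iff.2 hu
    have h4 := List.length_pos_iff.2 hv
    rw [h3, seg_length] at h4
    rw [h2]; exact H _ (by omega) (by omega)

end tr

variable {L : ℕ}

namespace Marker

variable {M : Marker α L} {w : ℕ → α}

theorem Mk.gap {a b : ℕ} (ha : M.Mk w a) (hb : M.Mk w b) (h : a < b) : a + L < b := by
  obtain ⟨s, rfl, h1⟩ := ha
  obtain ⟨s', rfl, h2⟩ := hb
  obtain ⟨d, rfl⟩ : ∃ d, s' = s + d := ⟨s' - s, by omega⟩
  by_contra hn
  exact M.gap w s d (by omega) (by omega) h1 h2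

theorem cnt_mono {a b c : ℕ} (h : b ≤ c) : M.cnt w a b ≤ M.cnt w a c :=
  Finset.card_le_card (Finset.filter_subset_filter _ (Finset.Ioc_subset_Ioc_right h))

theorem cnt_le (k : ℕ) : ∀ a b, b ≤ a + k * L → M.cnt w a b ≤ k := by
  induction k with
  | zero => intro a b h; rw [cnt_eq_zero.2 fun τ _ _ => by omega]
  | succ k ih =>
    intro a b h
    refine (cnt_mono h).trans ?_
    rw [Nat.succ_mul, ← cnt_add w (Nat.le_add_right a L) (by omega)]
    have h1 := ih (a + L) (a + (k * L + L)) (by omega)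
    have h2 : M.cnt w a (a + L) ≤ 1 := Finset.card_le_one.2 fun x hx y hy => by
      simp only [Finset.mem_filter, Finset.mem_Ioc] at hx hy
      rcases lt_trichotomy x y with h | h | h
      · have := hx.2.gap hy.2 h; omega
      · exact h
      · have := hy.2.gap hx.2 h; omega
    omega

theorem enum {R : ℕ → ℕ → Prop} {c e : ℕ}
    (h : ∀ a, c + 1 ≤ M.cnt w a e → ∃ b, R a b ∧ a ≤ b ∧ b ≤ e ∧ M.cnt w a b ≤ c) :
    ∀ B a, a ≤ e → c * B + 1 ≤ M.cnt w a e → ∃ m : ℕ → ℕ, m 0 = a ∧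
      (∀ i < B, R (m i) (m (i + 1))) ∧ m B ≤ e ∧ a ≤ m B ∧ M.cnt w a (m B) ≤ c * B := by
  intro B
  induction B with
  | zero =>
    exact fun a ha _ => ⟨fun _ => a, rfl, by simp, ha, le_rfl,
      (cnt_eq_zero.2 fun τ (h1 : a < τ) (h2 : τ ≤ a) => by omega).le⟩
  | succ B ih =>
    intro a _ hc
    rw [Nat.mul_succ] at hc ⊢
    obtain ⟨b, h1, h2, h3, h4⟩ := h a (by omega)
    have h5 := cnt_add (M := M) w h2 h3
    obtain ⟨m, rfl, h6, h7, h8, h9⟩ := ih b h3 (by omega)
    have h10 := cnt_add (M := M) w h2 h8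
    refine ⟨fun i => Nat.casesOn i a m, rfl, fun i hi => ?_, h7, h2.trans h8, ?_⟩
    · rcases i with _ | i
      exacts [h1, h6 i (by omega)]
    · change M.cnt w a (m B) ≤ _; omega

end Marker

theorem le_of_steps {m : ℕ → ℕ} {B c : ℕ} (h : ∀ i < B, m i + c ≤ m (i + 1)) (i : ℕ) :
    ∀ d, i + d ≤ B → m i + d * c ≤ m (i + d)
  | 0, _ => by simp
  | d + 1, hd => by
    have h1 := le_of_steps h i d (by omega)
    have h2 := h (i + d) (by omega)
    rw [Nat.succ_mul, ← add_assoc i]; omega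

/-- States of the chain: offset modulo `L`, window of recent letters, waiting time. -/
abbrev CS (α : Type) (L : ℕ) : Type := ZMod L × (Fin (5 * L) → Option α) × ZMod L

/-- The state at a small offset `o` after an anchor. -/
def off (α : Type) (L o : ℕ) : CS α L := (o, fun _ => none, 0)

/-- The data of the chain. -/
structure Par (α V : Type) [AddCommGroup V] (L : ℕ) where
  ℓ : ℕ
  M : Marker α L
  F : ZMod L → V × ZMod L
  pu : V → α → V
  pos : 0 < L
  le : 2 * ℓ ≤ L
  pu_add : ∀ x y a, pu (x + y) a = pu x a + pu y a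

namespace Par

variable {V : Type} [AddCommGroup V] (P : Par α V L)

noncomputable def shift (c : CS α L) (a : α) : Fin (5 * L) → Option α :=
  if c.2.1 = (fun _ => none) ∧ c.1.val < P.ℓ then fun _ => none
  else fun i => if h : i.val + 1 < 5 * L then c.2.1 ⟨i.val + 1, h⟩ else some a

def tick (c : CS α L) (a : α) : Prop :=
  c.2.2 = 0 ∧ ∃ z, P.M.Pat z ∧ ∀ i : Fin (5 * L), P.shift c a i = some (z i)

noncomputable def cstep (c : CS α L) (a : α) : CS α L :=
  if c.2.2 ≠ 0 then (0, fun _ => none, c.2.2 - 1)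
  else if P.tick c a then (0, fun _ => none, (P.F (c.1 + 1)).2) else (c.1 + 1, P.shift c a, 0)

noncomputable def act (c : CS α L) (a : α) (x : V) : V :=
  P.pu x a + if P.tick c a then (P.F (c.1 + 1)).1 else 0

/-- The machine of the outer level. -/
noncomputable def astep (σ : CS α L × V) (a : α) : CS α L × V := (P.cstep σ.1 a, P.act σ.1 a σ.2)

theorem run_astep_fst (u : List α) : ∀ σ, (run P.astep σ u).1 = run P.cstep σ.1 u := by
  induction u with
  | nil => exact fun _ => rfl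
  | cons a u ih => exact fun σ => ih _

theorem run_pu_zero (u : List α) : run P.pu 0 u = 0 := by
  induction u with
  | nil => rfl
  | cons a u ih =>
    have : P.pu 0 a = 0 := by simpa using P.pu_add 0 0 a
    change run P.pu (P.pu 0 a) u = 0
    rw [this, ih]

variable (w : ℕ → α)

/-- The window at time `t` if the last reset was at time `ρ`. -/
def W (L ρ t : ℕ) : Fin (5 * L) → Option α :=
  fun i => if ρ + 5 * L ≤ t + i then some (w (t + i - 5 * L)) else none

variable {w}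

theorem W_none {ρ t : ℕ} (h : t ≤ ρ) : W w L ρ t = fun _ => none :=
  funext fun i => if_neg (by omega)

theorem W_ne (hL : 0 < L) {ρ t : ℕ} (h : ρ < t) : W w L ρ t ≠ fun _ => none := fun e => by
  have := congrFun e ⟨5 * L - 1, by omega⟩
  rw [W, if_pos (by simp only; omega)] at this
  cases this

theorem shift_W {o j t : ℕ} (ho : o ≤ P.ℓ) (ht : j ≤ t) :
    P.shift (((o + (t - j) : ℕ) : ZMod L), W w L (j + (P.ℓ - o)) t, 0) (w t) =
      W w L (j + (P.ℓ - o)) (t + 1) := by
  have := P.pos; have := P.le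
  unfold shift
  by_cases h : t < j + (P.ℓ - o)
  · rw [if_pos ⟨W_none h.le, by rw [ZMod.val_natCast_of_lt (by omega)]; omega⟩, W_none h]
  · rw [if_neg]
    · funext i
      split_ifs with h1
      · simp only [W]; rw [show t + (i.val + 1) = t + 1 + i by omega]
      · rw [W, if_pos (by omega)]; congr 2; omega
    · rintro ⟨h1, h2⟩
      rcases (not_lt.1 h).eq_or_lt with h3 | h3
      · simp only at h2
        rw [ZMod.val_natCast_of_lt (by omega)] at h2; omega
      · exact W_ne P.pos h3 h1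

theorem tick_W {o j t : ℕ} (ho : o ≤ P.ℓ) (ht : j ≤ t) :
    P.tick (((o + (t - j) : ℕ) : ZMod L), W w L (j + (P.ℓ - o)) t, 0) (w t) ↔
      j + (P.ℓ - o) + 5 * L ≤ t + 1 ∧ P.M.Mk w (t + 1) := by
  have := P.pos
  rw [tick, P.shift_W ho ht]
  constructor
  · rintro ⟨-, z, h1, h2⟩
    have h3 : j + (P.ℓ - o) + 5 * L ≤ t + 1 := by
      by_contra hn
      have := h2 ⟨0, by omega⟩
      rw [W, if_neg (by simpa using hn)] at this
      cases this
    refine ⟨h3, t + 1 - 5 * L, by omega, P.M.loc _ _ (fun i hi => ?_) h1⟩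
    have := h2 ⟨i, hi⟩
    rw [W, if_pos (by simp only; omega)] at this
    rw [← Option.some.inj this]; congr 1; simp only; omega
  · rintro ⟨h1, s, h2, h3⟩
    refine ⟨rfl, _, h3, fun i => ?_⟩
    rw [W, if_pos (by omega)]; congr 2; omega

theorem tr_search {o j : ℕ} (ho : o ≤ P.ℓ) (x : V) (t : ℕ) (ht : j ≤ t)
    (h : ∀ τ, j + (P.ℓ - o) + 5 * L ≤ τ → τ ≤ t → ¬ P.M.Mk w τ) :
    tr P.astep w (off α L o, x) j t =
      ((((o + (t - j) : ℕ) : ZMod L), W w L (j + (P.ℓ - o)) t, 0), tr P.pu w x j t) := by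
  induction t, ht using Nat.le_induction with
  | base => simp [off, W_none]
  | succ t ht ih =>
    have hn := mt (P.tick_W ho ht).1 fun h' => h _ h'.1 le_rfl h'.2
    rw [tr_succ ht, tr_succ ht, ih fun τ a b => h τ a (by omega), astep, cstep, act,
      if_neg (by simp), if_neg hn, if_neg hn, P.shift_W ho ht, add_zero,
      show o + (t + 1 - j) = o + (t - j) + 1 by omega, Nat.cast_succ]

theorem tr_tick {o j τ : ℕ} (ho : o ≤ P.ℓ) (x : V) (h1 : j + (P.ℓ - o) + 5 * L ≤ τ)
    (h2 : P.M.Mk w τ) (h : ∀ t, j + (P.ℓ - o) + 5 * L ≤ t → t < τ → ¬ P.M.Mk w t) :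
    tr P.astep w (off α L o, x) j τ = ((0, fun _ => none, (P.F (o + (τ - j) : ℕ)).2),
      tr P.pu w x j τ + (P.F (o + (τ - j) : ℕ)).1) := by
  have := P.pos
  obtain ⟨t, rfl⟩ : ∃ t, τ = t + 1 := ⟨τ - 1, by omega⟩
  have ht : j ≤ t := by omega
  have hp := (P.tick_W ho ht).2 ⟨h1, h2⟩
  rw [tr_succ ht, tr_succ ht, P.tr_search ho x t ht fun τ a b => h τ a (by omega), astep, cstep,
    act, if_neg (by simp), if_pos hp, if_pos hp,
    show o + (t + 1 - j) = o + (t - j) + 1 by omega, Nat.cast_succ]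

theorem sub_ne (hL : 0 < L) {ψ : ZMod L} {d : ℕ} (h : d < ψ.val) : ψ - d ≠ 0 := fun e => by
  have : NeZero L := ⟨hL.ne'⟩
  have h1 := ZMod.val_lt ψ
  have h2 := h.trans h1
  rw [sub_eq_zero.1 e, ZMod.val_natCast_of_lt h2] at h
  omega

theorem tr_wait (ψ : ZMod L) (x : V) (τ : ℕ) : ∀ d ≤ ψ.val,
    tr P.astep w ((0, fun _ => none, ψ), x) τ (τ + d) =
      ((0, fun _ => none, ψ - d), tr P.pu w x τ (τ + d))
  | 0, _ => by simp
  | d + 1, h => by
    have h1 := sub_ne P.pos (show d < ψ.val by omega)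
    rw [← add_assoc, tr_succ (by omega), tr_succ (by omega), tr_wait ψ x τ d (by omega), astep,
      cstep, act, if_pos h1, if_neg fun h => h1 h.1, add_zero, Nat.cast_succ, sub_sub]

theorem tr_anchor (ψ : ZMod L) (x : V) (τ : ℕ) :
    tr P.astep w ((0, fun _ => none, ψ), x) τ (τ + ψ.val) =
      (off α L 0, tr P.pu w x τ (τ + ψ.val)) := by
  have : NeZero L := ⟨P.pos.ne'⟩
  rw [P.tr_wait ψ x τ _ le_rfl]; simp [off]

theorem tr_off {s c : ℕ} (h : c ≤ P.ℓ) : tr P.cstep w (off α L 0) s (s + c) = off α L c := by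
  have := P.pos
  have h1 := congrArg Prod.fst (P.tr_search (w := w) (Nat.zero_le _) 0 (s + c)
    (Nat.le_add_right s c) fun τ a b => by omega)
  rw [tr, P.run_astep_fst] at h1
  rw [tr, h1, W_none (by omega)]; simp [off]

variable (w) in
/-- `s'` is the anchor following the anchor `s`. -/
def Next (s s' : ℕ) : Prop :=
  s + P.ℓ < s' ∧ tr P.cstep w (off α L 0) s s' = off α L 0 ∧
    (∀ t, s < t → t < s' → tr P.cstep w (off α L 0) s t ≠ off α L 0) ∧ 1 ≤ P.M.cnt w s s'

theorem exists_next {e : ℕ} (s : ℕ) (h : 7 + 1 ≤ P.M.cnt w s e) :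
    ∃ s', P.Next w s s' ∧ s ≤ s' ∧ s' ≤ e ∧ P.M.cnt w s s' ≤ 7 := by
  have hL := P.pos; have := P.le
  have : NeZero L := ⟨hL.ne'⟩
  obtain ⟨θ, hθ⟩ : ∃ θ, θ + 1 = s + (P.ℓ - 0) + 5 * L := ⟨s + P.ℓ + 5 * L - 1, by omega⟩
  have h1 : P.M.cnt w s θ ≤ 6 := Marker.cnt_le 6 _ _ (by omega)
  have h2 : θ ≤ e := by
    by_contra hn
    have := Marker.cnt_mono (M := P.M) (w := w) (a := s) (not_le.1 hn).le; omega
  have h3 := Marker.cnt_add (M := P.M) w (show s ≤ θ by omega) h2
  obtain ⟨τ, a1, a2, a3, a4, a5⟩ := Marker.exists_first (show 0 < P.M.cnt w θ e by omega)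
  have h4 := Marker.cnt_add (M := P.M) w a1.le a2
  obtain ⟨τ', b1, b2, b3, -, -⟩ := Marker.exists_first (show 0 < P.M.cnt w τ e by omega)
  have h5 := a3.gap b3 b1
  have hT := P.tr_tick (w := w) (j := s) (Nat.zero_le _) 0 (by omega) a3
    fun t a b => a4 t (by omega) b
  generalize (P.F (0 + (τ - s) : ℕ)).2 = ψ at hT
  generalize tr P.pu w 0 s τ + _ = x at hT
  have hψ := ZMod.val_lt ψ
  have fst : ∀ t, tr P.cstep w (off α L 0) s t = (tr P.astep w (off α L 0, 0) s t).1 :=
    fun t => (P.run_astep_fst _ (off α L 0, 0)).symm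
  have h6 : P.M.cnt w τ (τ + ψ.val) = 0 :=
    Marker.cnt_eq_zero.2 fun t c1 c2 c3 => by have := a3.gap c3 c1; omega
  have h7 := Marker.cnt_add (M := P.M) w (show s ≤ θ by omega) a1.le
  have h8 := Marker.cnt_add (M := P.M) w (show s ≤ τ by omega) (Nat.le_add_right τ ψ.val)
  refine ⟨τ + ψ.val, ⟨by omega, ?_, fun t c1 c2 => ?_, by omega⟩, by omega, by omega, by omega⟩
  · rw [fst, ← tr_trans (show s ≤ τ by omega) (by omega), hT, tr_anchor]
  · rw [fst]
    by_cases c3 : t < τ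
    · rw [P.tr_search (Nat.zero_le _) 0 t c1.le fun t a b => a4 t (by omega) (by omega)]
      intro e
      obtain ⟨e1, e2⟩ := Prod.mk.inj e
      by_cases c4 : s + (P.ℓ - 0) < t
      · exact W_ne hL c4 (Prod.mk.inj e2).1
      · have := congrArg ZMod.val e1
        rw [ZMod.val_natCast_of_lt (by omega), ZMod.val_natCast_of_lt hL] at this
        omega
    · obtain ⟨d, rfl⟩ : ∃ d, t = τ + d := ⟨t - τ, by omega⟩
      rw [← tr_trans (show s ≤ τ by omega) (by omega), hT, P.tr_wait ψ x τ d (by omega)]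
      exact fun e => sub_ne hL (by omega) (Prod.mk.inj (Prod.mk.inj e).2).2

theorem alA_of_avoid {m : ℕ → ℕ} {B e : ℕ} (h0 : P.M.Mk w (m 0)) (hB : m B ≤ e)
    (hm : ∀ i < B, m i < m (i + 1) ∧ P.M.Mk w (m (i + 1)) ∧
      ∀ τ, m i < τ → τ < m (i + 1) → ¬ P.M.Mk w τ) :
    ∀ t i y x, i + 7 * t ≤ B → (∀ τ, m i ≤ τ → τ < e → tr P.astep w
      ((0, fun _ => none, (P.F y).2), x + (P.F y).1) (m i) τ ≠ (off α L 0, 0)) →
      AlA (P.ℓ + 5 * L) P.F m (fun i d x => tr P.pu w x (m i) (m (i + d))) t i y x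
  | 0, _, _, _, _, _ => trivial
  | t + 1, i, y, x, hi, H => by
    have hL := P.pos; have := P.le
    have : NeZero L := ⟨hL.ne'⟩
    have hψ := ZMod.val_lt (P.F y).2
    have mk : ∀ i ≤ B, P.M.Mk w (m i) := fun i hi => by
      rcases i with _ | i
      exacts [h0, (hm i hi).2.1]
    have st := le_of_steps (c := L) fun i (hi : i < B) =>
      ((mk i hi.le).gap (mk (i + 1) hi) (hm i hi).1).le
    have ex : ∃ d, m i + (P.F y).2.val + (P.ℓ + 5 * L) ≤ m (i + d) :=
      ⟨7, by have := st i 7 (by omega); omega⟩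
    have d7 : Nat.find ex ≤ 7 := Nat.find_min' ex (by have := st i 7 (by omega); omega)
    have d1 := Nat.find_spec ex
    have d2 := fun d => Nat.find_min ex (m := d)
    have d3 := fun d => Nat.find_min' ex (m := d)
    generalize Nat.find ex = d at *
    have d4 : m (i + d) ≤ e := by
      have := st (i + d) (B - (i + d)) (by omega)
      rw [show i + d + (B - (i + d)) = B by omega] at this; omega
    have hA := P.tr_anchor (w := w) (P.F y).2 (x + (P.F y).1) (m i)
    refine ⟨fun h => H (m i + (P.F y).2.val) (by omega) (by omega) ?_, d, by omega, ⟨d1, d3⟩, ?_⟩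
    · rw [hA, h, tr, P.run_pu_zero]
    · obtain ⟨d, rfl⟩ : ∃ d', d = d' + 1 := ⟨d - 1, by
        rcases d with _ | d
        · simp at d1; omega
        · rfl⟩
      have hT := P.tr_tick (w := w) (j := m i + (P.F y).2.val) (τ := m (i + (d + 1)))
        (Nat.zero_le _) (tr P.pu w (x + (P.F y).1) (m i) (m i + (P.F y).2.val)) (by omega)
        (mk _ (by omega)) fun τ a b =>
          (hm (i + d) (by omega)).2.2 τ (by have := d2 d (by omega); omega) b
      have e1 : ((0 + (m (i + (d + 1)) - (m i + (P.F y).2.val)) : ℕ) : ZMod L) =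
          (m (i + (d + 1)) - m i : ℕ) - (P.F y).2 := by
        rw [eq_sub_iff_add_eq]
        conv_lhs => rw [← ZMod.natCast_zmod_val (P.F y).2]
        rw [ZMod.val_natCast_of_lt hψ, ← Nat.cast_add]; congr 1; omega
      rw [← hA, tr_trans (by omega) (by omega), tr_trans (by omega) (by omega), e1] at hT
      refine alA_of_avoid h0 hB hm t _ _ _ (by omega) fun τ a b => ?_
      rw [← hT, tr_trans (by omega) a]
      exact H τ (by omega) b

/-- The property of the random function. -/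
def Good (T r : ℕ) : Prop :=
  ∀ (m : ℕ → ℕ) (μ : ℕ → ℕ → V → V) (y₀ : ZMod L) (s : Fin r → ℕ), Function.Injective s →
    (∀ j, s j < 2 * P.ℓ) → ¬ ∀ j, ∃ x, AlA (P.ℓ + 5 * L) P.F m μ T 0 (y₀ + s j) x

/-- Some label survives along the chain started in `c`. -/
def AliveA (c : CS α L) (u : List α) : Prop :=
  ∃ x, Avoid P.astep (· = (off α L 0, 0)) (c, x) u

theorem channel {T r : ℕ} (hG : P.Good T r) {ι : Type} {code : ι → ℕ}
    (c1 : ∀ a, 1 ≤ code a) (c2 : ∀ a, code a ≤ P.ℓ)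
    (sidon : ∀ a b c d, a ≠ b → code a + code d = code c + code b → a = c)
    {att : Fin (2 * r) → ι} (hatt : Function.Injective att) {s e : ℕ}
    (hc : 7 * T + 8 ≤ P.M.cnt w s e) :
    ∃ i, ∀ b ≠ att i, ¬ P.AliveA (off α L (code b)) (seg w (s + code (att i)) e) := by
  have hL := P.pos; have := P.le
  by_contra hn
  push Not at hn
  choose b hb x hx using hn
  have h1 : P.M.cnt w s (s + 5 * L) ≤ 5 := Marker.cnt_le 5 _ _ le_rfl
  have h2 : s + 5 * L ≤ e := by
    by_contra hn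
    have := Marker.cnt_mono (M := P.M) (w := w) (a := s) (not_le.1 hn).le; omega
  have h3 := Marker.cnt_add (M := P.M) w (Nat.le_add_right s _) h2
  obtain ⟨τ₁, a1, a2, a3, a4, a5⟩ := Marker.exists_first (show 0 < P.M.cnt w (s + 5 * L) e by omega)
  have h4 := Marker.cnt_add (M := P.M) w a1.le a2
  obtain ⟨τ₂, b1, b2, b3, b4, b5⟩ := Marker.exists_first (show 0 < P.M.cnt w τ₁ e by omega)
  have h5 := Marker.cnt_add (M := P.M) w b1.le b2
  have h6 := a3.gap b3 b1
  obtain ⟨β, hβ⟩ := Fintype.exists_le_card_fiber_of_mul_le_card (n := r)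
    (fun i => decide (s + code (att i) + (P.ℓ - code (b i)) + 5 * L ≤ τ₁)) (by simp)
  obtain ⟨I, hI, cI⟩ := Finset.exists_subset_card_eq hβ
  have hI' := fun j => (Finset.mem_filter.1 (hI (I.orderEmbOfFin_mem cI j))).2
  have inj := (I.orderEmbOfFin cI).injective
  generalize ⇑(I.orderEmbOfFin cI) = g at hI' inj
  obtain ⟨τ, t1, t2, t3, t4, t5⟩ : ∃ τ, s + 5 * L < τ ∧ τ ≤ e ∧ P.M.Mk w τ ∧
      7 * T + 1 ≤ P.M.cnt w τ e ∧ ∀ j,
        s + code (att (g j)) + (P.ℓ - code (b (g j))) + 5 * L ≤ τ ∧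
        ∀ t, s + code (att (g j)) + (P.ℓ - code (b (g j))) + 5 * L ≤ t → t < τ →
          ¬ P.M.Mk w t := by
    cases β
    · refine ⟨τ₂, by omega, b2, b3, by omega, fun j => ?_⟩
      have := of_decide_eq_false (hI' j)
      have := c2 (att (g j))
      exact ⟨by omega, fun t a => b4 t (by omega)⟩
    · refine ⟨τ₁, a1, a2, a3, by omega, fun j => ?_⟩
      have := c1 (att (g j))
      exact ⟨of_decide_eq_true (hI' j), fun t a => a4 t (by omega)⟩
  obtain ⟨m, rfl, m1, m2, -, -⟩ := Marker.enum (M := P.M) (w := w) (c := 1) (e := e)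
    (R := fun a b => a < b ∧ P.M.Mk w b ∧ ∀ τ, a < τ → τ < b → ¬ P.M.Mk w τ)
    (fun a ha => by
      obtain ⟨τ, a1, a2, a3, a4, a5⟩ := Marker.exists_first (show 0 < P.M.cnt w a e by omega)
      exact ⟨τ, ⟨a1, a3, a4⟩, a1.le, a2, a5.le⟩) (7 * T) τ t2 (by omega)
  refine hG m (fun i d x => tr P.pu w x (m i) (m (i + d))) (m 0 - s - P.ℓ : ℕ)
    (fun j => P.ℓ + code (b (g j)) - code (att (g j))) (fun i j e => inj (hatt ?_))
    (fun j => by have := c1 (att (g j)); have := c2 (b (g j)); have := c2 (att (g j)); omega)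
    fun j => ?_
  · have := c2 (att (g i)); have := c2 (att (g j))
    exact sidon _ _ _ (b (g j)) (hb _).symm (by simp only at e; omega)
  · have := c2 (att (g j)); have := c2 (b (g j))
    have hT := P.tr_tick (w := w) (c2 (b (g j))) (x (g j)) (t5 j).1 t3 (t5 j).2
    have := (t5 j).1
    refine ⟨tr P.pu w (x (g j)) (s + code (att (g j))) (m 0),
      P.alA_of_avoid t3 m2 m1 T 0 _ _ (by omega) fun τ a b' => ?_⟩
    rw [← Nat.cast_add, show m 0 - s - P.ℓ + (P.ℓ + code (b (g j)) - code (att (g j))) =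
      code (b (g j)) + (m 0 - (s + code (att (g j)))) by omega, ← hT, tr_trans (by omega) a]
    exact (avoid_seg (by omega)).1 (hx (g j)) τ (by omega) b'

end Par

end Vale.Agent.P329
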