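import Vale.Agent.P329.RandC

/-! Existence of the random function of the outer level. -/

namespace Vale.Agent.P329

open Finset Function Filter
open scoped Classical

theorem numC (v N b : ℕ) (hv : 0 < v) : ∃ k ℓ T r₀ r : ℕ, T = v * k ∧
    r₀ * ((19 * T + 1) ^ 4 + 1) ≤ r ∧ 3 * (80 * r * b + 1) ^ 3 ≤ ℓ ∧
    (2 ^ k * 2 ^ k) ^ (19 * T + 1) * ((((19 * (2 ^ k * 2 ^ k) + 1) * ((2 ^ k + 1) * (2 ^ k * N))) ^
      20) ^ (19 * T + 1) * (2 ^ k * 2 ^ k * (2 ^ k * (2 ^ k * 2)))) < 2 ^ r₀ ∧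
    2 * ((6 * ℓ + 3) * ((6 * ℓ + 3) * v)) *
      (1 + T * (19 * T + 1) ^ 2 * (r₀ * (T + ((19 * T + 1) ^ 2 + 1)))) ≤ 2 ^ k := by
  have h1 := (tendsto_pow_const_div_const_pow_of_one_lt 170 (one_lt_two (α := ℝ))).eventually_lt_const
    (show (0 : ℝ) < 1 by positivity)
  obtain ⟨k, hk, hk3⟩ := (h1.and (eventually_ge_atTop (200 + v + N + b))).exists
  have h2 : k ^ 170 ≤ 2 ^ k := by
    rw [div_lt_one (by positivity)] at hk
    exact_mod_cast hk.le
  have k1 : 1 ≤ k := by omega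
  have dbl : ∀ n, 2 * k ^ n ≤ k ^ (n + 1) := fun n => by
    rw [pow_succ']; exact Nat.mul_le_mul_right _ (by omega)
  have one : ∀ n, 1 ≤ k ^ n := fun n => Nat.one_le_pow _ _ k1
  have hT : v * k ≤ k ^ 2 := by rw [sq]; exact Nat.mul_le_mul_right _ (by omega)
  have hB : 19 * (v * k) + 1 ≤ k ^ 3 := by
    have := one 2
    calc _ ≤ 20 * k ^ 2 := by omega
      _ ≤ k * k ^ 2 := Nat.mul_le_mul_right _ (by omega)
      _ = _ := by ring
  refine ⟨k, k ^ 70, v * k, k ^ 6, k ^ 19, rfl, ?_, ?_, ?_, ?_⟩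
  · have := one 12
    calc _ ≤ k ^ 6 * ((k ^ 3) ^ 4 + k ^ 12) := by gcongr
      _ = 2 * k ^ 18 := by ring
      _ ≤ _ := dbl _
  · have := one 21
    calc _ ≤ k * (k * k ^ 19 * k + k ^ 21) ^ 3 := by gcongr <;> omega
      _ = k * (2 * k ^ 21) ^ 3 := by ring
      _ ≤ k * (k ^ 22) ^ 3 := by gcongr; exact dbl _
      _ = k ^ 67 := by ring
      _ ≤ _ := Nat.pow_le_pow_right k1 (by omega)
  · have a0 : k < 2 ^ k := Nat.lt_two_pow_self
    generalize 19 * (v * k) + 1 = B at *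
    obtain ⟨H, hH⟩ : ∃ H, H = 2 ^ k := ⟨_, rfl⟩
    rw [← hH] at a0 ⊢
    have a1 : 19 * (H * H) + 1 ≤ H * (H * H) := by
      have : 0 < H * H := Nat.mul_pos (by omega) (by omega)
      calc _ ≤ 20 * (H * H) := by omega
        _ ≤ _ := Nat.mul_le_mul_right _ (by omega)
    have a2 : H + 1 ≤ H * H := by nlinarith
    calc _ ≤ (H * H) ^ B * (((H * (H * H) * (H * H * (H * H))) ^ 20) ^ B *
          (H * H * (H * (H * H)))) := by gcongr <;> omega
      _ = 2 ^ (k * (142 * B + 5)) := by rw [pow_mul, ← hH]; ring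
      _ < _ := Nat.pow_lt_pow_right (by omega) (by
          have := one 3
          calc _ ≤ k * (147 * k ^ 3) := Nat.mul_le_mul_left _ (by omega)
            _ ≤ k * (k * k ^ 3) := by gcongr; omega
            _ = k ^ 5 := by ring
            _ < _ := Nat.pow_lt_pow_right (by omega) (by omega))
  · have a1 : 6 * k ^ 70 + 3 ≤ k ^ 71 := by
      have := one 70
      calc _ ≤ 9 * k ^ 70 := by omega
        _ ≤ k * k ^ 70 := Nat.mul_le_mul_right _ (by omega)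
        _ = _ := by ring
    have a2 : v * k + ((19 * (v * k) + 1) ^ 2 + 1) ≤ k ^ 8 := by
      have := one 6
      have : k ^ 2 ≤ k ^ 6 := Nat.pow_le_pow_right k1 (by omega)
      have : (19 * (v * k) + 1) ^ 2 ≤ k ^ 6 :=
        (Nat.pow_le_pow_left hB 2).trans (le_of_eq (by ring))
      have : 2 * k ^ 6 ≤ k ^ 7 := dbl 6
      have : 2 * k ^ 7 ≤ k ^ 8 := dbl 7
      omega
    have := one 22
    refine le_trans ?_ h2
    calc _ ≤ k * (k ^ 71 * (k ^ 71 * k)) * (k ^ 22 + k ^ 2 * (k ^ 3) ^ 2 * (k ^ 6 * k ^ 8)) := by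
          gcongr <;> omega
      _ = k ^ 144 * (2 * k ^ 22) := by ring
      _ ≤ k ^ 144 * k ^ 23 := by gcongr; exact dbl _
      _ = k ^ 167 := by ring
      _ ≤ _ := Nat.pow_le_pow_right k1 (by omega)

/-- Two starting states whose reserved points do not interfere. -/
def Sep {V : Type} {L H : ℕ} (B : ℕ) (p : ℕ → ZMod L) (c c' : ℕ × Cell L H × V) : Prop :=
  c.2.1 ≠ c'.2.1 ∧ Sum.map id Prod.fst c.2.1 ∉ resC B p c' ∧
    ∀ z ∈ insert (Sum.map id Prod.fst c'.2.1) (resC B p c'), z ∉ resC B p c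

/-- The starting point with the given coordinates. -/
def stP {L H : ℕ} (e : ZMod L × ZMod H × ZMod H × Bool) (s s' : ℕ) : Cell L H :=
  bif e.2.2.2 then .inl (e.1 + (H * s : ℕ)) else .inr (e.2.1 + s, e.2.2.1 + s')

theorem sep_bound {V : Type} [AddCommGroup V] [Fintype V] {L H : ℕ} (hL : L = H * H) [NeZero H]
    [NeZero L] (B T : ℕ) (pos : ℕ → ZMod L) (get : ℕ → ℕ → ℕ × ℕ × ZMod H × (V → V))
    (cs : List (ℕ × Cell L H × V)) :
    ∑ F : Cell L H → V × ZMod H, ind (cs.Pairwise (Sep B pos) ∧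
      ∀ c ∈ cs, alive (fun c => c.2.1) (stC B pos get) F T c) ≤
      ((1 - 1 / (Fintype.card V : ℝ)) ^ T +
        T * ((B + 1) ^ 2 / H * (cs.length * (T + ((B + 1) ^ 2 + 1)) : ℕ))) ^ cs.length *
        Fintype.card (Cell L H → V × ZMod H) := by
  have hv1 : (1 : ℝ) ≤ Fintype.card V := by exact_mod_cast Fintype.card_pos
  have hρ0 : 0 ≤ 1 - 1 / (Fintype.card V : ℝ) := sub_nonneg.2 ((div_le_one (by linarith)).2 hv1)
  by_cases hx : cs.Pairwise (Sep B pos)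
  · exact le_trans (sum_le_sum fun F _ => ind_mono And.right)
      (alive_bound3 (q := fun c : ℕ × Cell L H × V => c.2.1) hρ0
        (sub_le_self _ (by positivity)) (by positivity) resC_key resC_card
        (stC_kill (B := B) (pos := pos) (get := get)) (stC_spread hL) T cs hx)
  · exact (sum_eq_zero fun F _ => if_neg fun h => hx h.1).trans_le (by positivity)

theorem probC (V : Type) [AddCommGroup V] [Fintype V] {L H k l T B r₀ : ℕ} (hH : H = 2 ^ k)
    (hL : L = H * H) (hB : B = 19 * T) (h4 : T = Fintype.card V * k)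
    (h5 : L ^ (B + 1) * ((((19 * L + 1) * ((H + 1) * (H * Fintype.card (V → V)))) ^ 20) ^ (B + 1) *
      (L * (H * (H * 2)))) < 2 ^ r₀)
    (h6 : 2 * (l * (l * Fintype.card V)) *
      (1 + T * (B + 1) ^ 2 * (r₀ * (T + ((B + 1) ^ 2 + 1)))) ≤ H) :
    ∃ F : Cell L H → V × ZMod H, ∀ π, 20 * L ≤ π → ∀ (m : ℕ → ℕ) (μ : ℕ → ℕ → V → V)
      (e : ZMod L × ZMod H × ZMod H × Bool) (s : Fin r₀ → Fin l × Fin l × V),
      (List.ofFn fun j => (0, stP e (s j).1 (s j).2.1, (s j).2.2)).Pairwise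
        (Sep B fun i => if i < B + 1 then (m i : ZMod L) else 0) →
      ¬ ∀ j, AlC π F m μ T 0 (stP e (s j).1 (s j).2.1) (s j).2.2 := by
  have H0 : 0 < H := by rw [hH]; positivity
  have : NeZero H := ⟨H0.ne'⟩
  have := neZero_sq hL
  obtain ⟨v, hv⟩ : ∃ v : ℝ, v = Fintype.card V := ⟨_, rfl⟩
  have hv1 : 1 ≤ v := by rw [hv]; exact_mod_cast Fintype.card_pos
  have hρ0 : 0 ≤ 1 - 1 / v := sub_nonneg.2 ((div_le_one (by linarith)).2 hv1)
  have HR : (0 : ℝ) < H := by exact_mod_cast H0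
  have hρ : (1 - 1 / v) ^ T ≤ 1 / H := by
    have a1 : (1 - 1 / v) ^ Fintype.card V ≤ 1 / 2 := by
      have b1 : 1 - 1 / v ≤ Real.exp (-(1 / v)) := by
        have := Real.add_one_le_exp (-(1 / v)); linarith
      refine (pow_le_pow_left₀ hρ0 b1 _).trans ?_
      rw [← Real.exp_nat_mul, ← hv, show v * -(1 / v) = -1 by field_simp, Real.exp_neg, one_div]
      exact inv_anti₀ two_pos (by have := Real.add_one_le_exp (1 : ℝ); linarith)
    rw [h4, pow_mul, hH]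
    exact (pow_le_pow_left₀ (by positivity) a1 k).trans (le_of_eq (by simp))
  let X := (Fin (B + 1) → ZMod L) ×
    (Fin (B + 1) → Fin 20 → Fin (19 * L + 1) × Fin (H + 1) × ZMod H × (V → V)) ×
    (ZMod L × ZMod H × ZMod H × Bool) × (Fin r₀ → Fin l × Fin l × V)
  let pos : X → ℕ → ZMod L := fun x i => if h : i < B + 1 then x.1 ⟨i, h⟩ else 0
  let get : X → ℕ → ℕ → ℕ × ℕ × ZMod H × (V → V) := fun x i d =>
    if h : i < B + 1 ∧ d < 20 then ((x.2.1 ⟨i, h.1⟩ ⟨d, h.2⟩).1, (x.2.1 ⟨i, h.1⟩ ⟨d, h.2⟩).2.1,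
      (x.2.1 ⟨i, h.1⟩ ⟨d, h.2⟩).2.2) else (0, 0, 0, id)
  let cs : X → List (ℕ × Cell L H × V) := fun x => List.ofFn fun j =>
    (0, stP x.2.2.1 (x.2.2.2 j).1 (x.2.2.2 j).2.1, (x.2.2.2 j).2.2)
  obtain ⟨F, hF⟩ := exists_good (X := X) (Ω := Cell L H → V × ZMod H)
    (fun x F => (cs x).Pairwise (Sep B (pos x)) ∧
      ∀ c ∈ cs x, alive (fun c => c.2.1) (stC B (pos x) (get x)) F T c)
    (b := ((1 - 1 / v) ^ T + T * ((B + 1) ^ 2 / H * (r₀ * (T + ((B + 1) ^ 2 + 1)) : ℕ))) ^ r₀)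
    (fun x => by
      have := sep_bound hL B T (pos x) (get x) (cs x)
      rwa [List.length_ofFn, ← hv] at this)
    (by
      simp only [X, Fintype.card_prod, Fintype.card_fun (β := _ × _), Fintype.card_fun (α := Fin _),
        ZMod.card, Fintype.card_fin, Fintype.card_bool]
      have a1 : (l * (l * v)) * ((1 - 1 / v) ^ T +
          T * ((B + 1) ^ 2 / H * (r₀ * (T + ((B + 1) ^ 2 + 1)) : ℕ))) ≤ 1 / 2 := by
        have : (2 * (l * (l * v)) *
            (1 + T * (B + 1) ^ 2 * (r₀ * (T + ((B + 1) ^ 2 + 1)))) : ℝ) ≤ H := by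
          rw [hv]; exact_mod_cast h6
        calc _ ≤ (l * (l * v)) * (1 / H +
              T * ((B + 1) ^ 2 / H * (r₀ * (T + ((B + 1) ^ 2 + 1)) : ℕ))) := by gcongr
          _ = (2 * (l * (l * v)) *
            (1 + T * (B + 1) ^ 2 * (r₀ * (T + ((B + 1) ^ 2 + 1)))) : ℝ) / H / 2 := by
              push_cast; field_simp
          _ ≤ _ := by gcongr; exact (div_le_one HR).2 this
      rw [← mul_assoc (_ ^ (B + 1)) _ (_ ^ r₀), ← mul_assoc (L ^ (B + 1)), Nat.cast_mul, mul_assoc,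
        Nat.cast_pow (l * _), ← mul_pow, Nat.cast_mul l, Nat.cast_mul l, ← hv]
      refine (mul_le_mul_of_nonneg_left (pow_le_pow_left₀ (by positivity) a1 r₀)
        (by positivity)).trans_lt ?_
      rw [one_div, inv_pow, ← div_eq_mul_inv, div_lt_one (by positivity)]
      exact_mod_cast h5)
  refine ⟨F, fun π hπ m μ e s hs hn => ?_⟩
  let x : X := (fun i => m i, fun i d => (⟨min ((m (i + d) - m i) % π) (19 * L), by omega⟩,
    ⟨min ((m (i + d) - m i) / π) H, by omega⟩, ((m (i + d) - m i) / π : ℕ), μ i d), e, s)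
  have e2 : pos x = fun i => if i < B + 1 then (m i : ZMod L) else 0 :=
    funext fun i => by simp only [pos]; split_ifs <;> rfl
  refine hF x ⟨e2 ▸ hs, fun c hc => ?_⟩
  obtain ⟨j, rfl⟩ := List.mem_ofFn.1 hc
  exact AlC.alive H0 hπ (fun i hi => dif_pos (by omega))
    (fun i hi d hd => dif_pos ⟨by omega, hd⟩) T 0 _ _ (by omega) (hn _)

theorem randC (V : Type) [AddCommGroup V] [Fintype V] (b : ℕ) :
    ∃ L H ℓ T r : ℕ, L = H * H ∧ 6 * ℓ + 3 ≤ H ∧ 3 * (80 * r * b + 1) ^ 3 ≤ ℓ ∧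
      ∃ F : Cell L H → V × ZMod H, ∀ π, 20 * L ≤ π → ∀ (m : ℕ → ℕ) (μ : ℕ → ℕ → V → V)
        (y : Fin r → Cell L H), Start (6 * ℓ + 3) y → ¬ ∀ j, ∃ x, AlC π F m μ T 0 (y j) x := by
  obtain ⟨k, ℓ, T, r₀, r, h4, h3, h2, h5, h6⟩ :=
    numC (Fintype.card V) (Fintype.card (V → V)) b Fintype.card_pos
  obtain ⟨H, hH⟩ : ∃ H, H = 2 ^ k := ⟨_, rfl⟩
  rw [← hH] at h5 h6
  obtain ⟨L, hL⟩ : ∃ L, L = H * H := ⟨_, rfl⟩
  rw [← hL] at h5
  obtain ⟨l, hl⟩ : ∃ l, l = 6 * ℓ + 3 := ⟨_, rfl⟩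
  obtain ⟨B, hB⟩ : ∃ B, B = 19 * T := ⟨_, rfl⟩
  rw [← hl, ← hB] at h6
  rw [← hB] at h5 h3
  have H0 : 0 < H := by rw [hH]; positivity
  have : NeZero H := ⟨H0.ne'⟩
  have h1 : l ≤ H := by
    refine le_trans ?_ h6
    have : 0 < Fintype.card V := Fintype.card_pos
    calc l ≤ 1 * (l * (1 * 1)) * 1 := by omega
      _ ≤ _ := by gcongr <;> omega
  refine ⟨L, H, ℓ, T, r, hL, hl ▸ h1, h2, ?_⟩
  rw [← hl]
  obtain ⟨F, hF⟩ := probC V hH hL hB h4 (by rw [hL] at h5 ⊢; simpa only [mul_assoc] using h5) h6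
  refine ⟨F, fun π hπ m μ y ⟨inj, hy⟩ hn => ?_⟩
  choose z hz using hn
  obtain ⟨p, hp⟩ : ∃ p : ℕ → ZMod L, p = fun i => if i < B + 1 then (m i : ZMod L) else 0 :=
    ⟨_, rfl⟩
  have fin : ∀ (g : Fin r₀ → Fin r) (e : ZMod L × ZMod H × ZMod H × Bool)
      (s : Fin r₀ → Fin l × Fin l), Injective g → (∀ j, y (g j) = stP e (s j).1 (s j).2) →
      (∀ i j, i ≠ j → Sum.map id Prod.fst (y (g i)) ∉ resC B p (0, y (g j), z (g j)) ∧
        ∀ u ∈ resC B p (0, y (g j), z (g j)), u ∉ resC B p (0, y (g i), z (g i))) → False := by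
    intro g e s hg he hd
    refine hF π hπ m μ e (fun j => ((s j).1, (s j).2, z (g j))) ?_ fun j => he j ▸ hz _
    simp only [← he, ← hp, List.pairwise_ofFn]
    refine fun i j hij => ⟨fun e => hij.ne (hg (inj e)), (hd i j hij.ne).1, fun u hu => ?_⟩
    rcases mem_insert.1 hu with rfl | hu
    exacts [(hd j i hij.ne').1, (hd i j hij.ne).2 u hu]
  rcases hy with ⟨y₀, hy⟩ | ⟨h₀, q₀, hy⟩
  · choose s hs hy using hy
    let G : ℕ × ℕ → ZMod H := fun a => high H (p a.1 - p 0 + y₀) - (a.2 : ℕ)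
    have hr : ∀ j u, u ∈ resC B p (0, y j, z j) →
        ∃ a ∈ range (B + 1) ×ˢ range (B + 1), u = .inr (G a + s j) := by
      intro j u hu
      rw [hy] at hu
      obtain ⟨a, ha, rfl⟩ := mem_image.1 hu
      exact ⟨a, ha, by rw [← add_assoc, high_add_mul hL]; simp only [G]; congr 1; ring⟩
    obtain ⟨I, -, cI, hI⟩ := exists_indep (Δ := (B + 1) ^ 4)
      (conf := fun a b => ∃ u ∈ resC B p (0, y a, z a), u ∈ resC B p (0, y b, z b))
      (fun a b ⟨u, h1, h2⟩ => ⟨u, h2, h1⟩) r₀ univ (by simpa using h3) fun a => by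
        refine (card_le_card_of_injOn (fun b => (s b : ZMod H))
          (t := ((range (B + 1) ×ˢ range (B + 1)) ×ˢ (range (B + 1) ×ˢ range (B + 1))).image
            fun c => G c.1 + s a - G c.2) (fun b hb => ?_) fun b _ b' _ e => inj ?_).trans
          (card_image_le.trans (le_of_eq (by simp only [card_product, card_range]; ring)))
        · obtain ⟨u, h1, h2⟩ := (mem_filter.1 hb).2
          obtain ⟨c, hc, rfl⟩ := hr _ _ h1
          obtain ⟨c', hc', e⟩ := hr _ _ h2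
          exact mem_image.2 ⟨(c, c'), mem_product.2 ⟨hc, hc'⟩, by rw [Sum.inr.inj e]; simp⟩
        · have := (ZMod.natCast_eq_natCast_iff' _ _ _).1 e
          rw [Nat.mod_eq_of_lt ((hs b).trans_le h1), Nat.mod_eq_of_lt ((hs b').trans_le h1)] at this
          rw [hy, hy, this]
    have inj' := (I.orderEmbOfFin cI).injective
    have mem := I.orderEmbOfFin_mem cI
    generalize ⇑(I.orderEmbOfFin cI) = g at inj' mem
    refine fin g (y₀, 0, 0, true) (fun j => (⟨_, hs (g j)⟩, ⟨_, hs (g j)⟩)) inj' (fun j => hy _)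
      fun i j hij => ⟨fun h => ?_, fun u h1 h2 =>
        hI _ (mem i) _ (mem j) (fun e => hij (inj' e)) ⟨u, h2, h1⟩⟩
    obtain ⟨a, -, e⟩ := hr _ _ h
    rw [hy] at e
    cases e
  · choose s hs s' hs' hy using hy
    have : r₀ ≤ r := le_trans (Nat.le_mul_of_pos_right _ (by omega)) h3
    exact fin (Fin.castLE this) (0, h₀, q₀, false) (fun j => (⟨_, hs _⟩, ⟨_, hs' _⟩))
      (Fin.castLE_injective _) (fun j => hy _) fun i j _ => by simp [hy, resC]

end Vale.Agent.P329
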