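import Vale.Agent.P329.Levels
import Vale.Agent.P329.RandD

/-! The chain of anchors and ticks with a long counter. -/

namespace Vale.Agent.P329

open scoped Classical
open Par (W W_none W_ne sub_ne)

variable {α : Type} {L H π : ℕ}

/-- A bounded counter that is exact below `A` and remembers the residue modulo `A` afterwards. -/
def nrm (A o : ℕ) : ℕ := if o < A then o else A + o % A

theorem nrm_lt {A : ℕ} (h : 0 < A) (o : ℕ) : nrm A o < 2 * A := by
  have := Nat.mod_lt o h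
  unfold nrm; split_ifs <;> omega

theorem nrm_succ {A : ℕ} (o : ℕ) : nrm A (nrm A o + 1) = nrm A (o + 1) := by
  by_cases h : o < A
  · rw [show nrm A o = o from if_pos h]
  · rw [show nrm A o = A + o % A from if_neg h, nrm, nrm, if_neg (by omega), if_neg (by omega),
      add_assoc, Nat.add_mod_left, Nat.mod_add_mod]

theorem nrm_lt_iff {A c : ℕ} (h : c ≤ A) (o : ℕ) : nrm A o < c ↔ o < c := by
  unfold nrm; split_ifs <;> omega

theorem cell_nrm (hπ : 0 < π) (hd : L ∣ π) (o : ℕ) :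
    cell L H π (nrm (H * π) o) = cell L H π o := by
  unfold nrm
  split_ifs with h
  · rfl
  have h1 : H * π + o % (H * π) ≡ o [MOD H * π] := by
    unfold Nat.ModEq; rw [Nat.add_mod_left, Nat.mod_mod]
  have h2 : H ≤ o / π := (Nat.le_div_iff_mul_le hπ).2 (by omega)
  have h3 : H ≤ (H * π + o % (H * π)) / π := (Nat.le_div_iff_mul_le hπ).2 (by omega)
  generalize H * π + o % (H * π) = o' at *
  rw [cell, cell, if_neg (by unfold IsS; omega), if_neg (by unfold IsS; omega),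
    (ZMod.natCast_eq_natCast_iff _ _ _).2 (h1.of_dvd (hd.mul_left H)),
    (ZMod.natCast_eq_natCast_iff' (o' / π) (o / π) H).2 (by
      rw [← Nat.mod_mul_right_div_self, ← Nat.mod_mul_right_div_self, mul_comm, h1])]

/-- States of the chain: counter, window of recent letters, waiting time. -/
abbrev C3 (α : Type) (L H π : ℕ) : Type :=
  ZMod (2 * (H * π)) × (Fin (5 * L) → Option α) × ZMod L

/-- The counter at offset `o`. -/
def cn (H π o : ℕ) : ZMod (2 * (H * π)) := (nrm (H * π) o : ℕ)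

/-- The state at a small offset `o` after an anchor. -/
def of3 (α : Type) (L H π o : ℕ) : C3 α L H π := (cn H π o, fun _ => none, 0)

/-- The data of the chain. -/
structure Par3 (α V : Type) [AddCommGroup V] (L H π : ℕ) where
  M : Marker α L
  F : Cell L H → V × ZMod H
  pu : V → α → V
  hL : L = H * H
  pos : 0 < L
  dvd : L ∣ π
  big : 40 * L ≤ π
  pu_add : ∀ x y a, pu (x + y) a = pu x a + pu y a

namespace Par3

variable {V : Type} [AddCommGroup V] (P : Par3 α V L H π)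

include P in
theorem posH : 0 < H := Nat.pos_of_ne_zero fun h => by
  have := P.pos; rw [P.hL, h] at this; omega

include P in
theorem le_A : π ≤ H * π := Nat.le_mul_of_pos_left _ P.posH

include P in
theorem cn_val (o : ℕ) : (cn H π o).val = nrm (H * π) o := by
  have := P.pos; have := P.big; have := P.le_A
  exact ZMod.val_natCast_of_lt (nrm_lt (by omega) o)

include P in
theorem cn_ne {o : ℕ} (h : 0 < o) : cn H π o ≠ cn H π 0 := fun e => by
  have := P.pos; have := P.big; have := P.le_A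
  have h1 := congrArg ZMod.val e
  rw [P.cn_val, P.cn_val] at h1
  have h2 := nrm_lt_iff (show 1 ≤ H * π by omega)
  have := h2 o; have := h2 0
  omega

/-- The window after reading a letter. -/
def shift (c : C3 α L H π) (a : α) : Fin (5 * L) → Option α :=
  if c.1.val < 13 * L then fun _ => none
  else fun i => if h : i.val + 1 < 5 * L then c.2.1 ⟨i.val + 1, h⟩ else some a

def tick (c : C3 α L H π) (a : α) : Prop :=
  c.2.2 = 0 ∧ ∃ z, P.M.Pat z ∧ ∀ i : Fin (5 * L), shift c a i = some (z i)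

/-- The state just after a tick that queried `y`. -/
def tk (y : Cell L H) : C3 α L H π := (cn H π 0, fun _ => none, wt y (P.F y).2)

noncomputable def cstep (c : C3 α L H π) (a : α) : C3 α L H π :=
  if c.2.2 ≠ 0 then (cn H π 0, fun _ => none, c.2.2 - 1)
  else if P.tick c a then P.tk (cell L H π (c.1.val + 1))
  else (cn H π (c.1.val + 1), shift c a, 0)

noncomputable def act (c : C3 α L H π) (a : α) (x : V) : V :=
  P.pu x a + if P.tick c a then (P.F (cell L H π (c.1.val + 1))).1 else 0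

/-- The machine of the outer level. -/
noncomputable def astep (σ : C3 α L H π × V) (a : α) : C3 α L H π × V :=
  (P.cstep σ.1 a, P.act σ.1 a σ.2)

theorem run_astep_fst (u : List α) : ∀ σ, (run P.astep σ u).1 = run P.cstep σ.1 u := by
  induction u with
  | nil => exact fun _ => rfl
  | cons a u ih => exact fun σ => ih _

theorem run_pu_zero (u : List α) : run P.pu 0 u = 0 := by
  induction u with
  | nil => rfl
  | cons a u ih =>
    have : P.pu 0 a = 0 := by simpa using P.pu_add 0 0 a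
    change run P.pu (P.pu 0 a) u = 0
    rw [this, ih]

theorem step_no {o : ℕ} {Z : Fin (5 * L) → Option α} {a : α} (x : V)
    (h : ¬ P.tick (cn H π o, Z, 0) a) : P.astep ((cn H π o, Z, 0), x) a =
      ((cn H π (o + 1), shift (cn H π o, Z, 0) a, 0), P.pu x a) := by
  rw [astep, cstep, act, if_neg (by simp), if_neg h, if_neg h, add_zero, P.cn_val, cn, nrm_succ]
  rfl

theorem step_tick {o : ℕ} {Z : Fin (5 * L) → Option α} {a : α} (x : V)
    (h : P.tick (cn H π o, Z, 0) a) : P.astep ((cn H π o, Z, 0), x) a =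
      (P.tk (cell L H π (o + 1)), P.pu x a + (P.F (cell L H π (o + 1))).1) := by
  have := P.pos; have := P.big
  rw [astep, cstep, act, if_neg (by simp), if_pos h, if_pos h, P.cn_val,
    ← cell_nrm (by omega) P.dvd, nrm_succ, cell_nrm (by omega) P.dvd]

variable {w : ℕ → α}

include P in
theorem shift_W {o ρ t : ℕ} (h : o < 13 * L ↔ t < ρ) :
    shift (cn H π o, W w L ρ t, 0) (w t) = W w L ρ (t + 1) := by
  have := P.big; have := P.le_A
  unfold shift
  rw [P.cn_val]
  by_cases h1 : t < ρ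
  · rw [if_pos ((nrm_lt_iff (by omega) o).2 (h.2 h1)), W_none h1]
  · rw [if_neg fun h2 => h1 (h.1 ((nrm_lt_iff (by omega) o).1 h2))]
    funext i
    split_ifs with h1
    · simp only [W]; rw [show t + (i.val + 1) = t + 1 + i by omega]
    · rw [W, if_pos (by omega)]; congr 2; omega

theorem tick_W {o ρ t : ℕ} (h : o < 13 * L ↔ t < ρ) :
    P.tick (cn H π o, W w L ρ t, 0) (w t) ↔ ρ + 5 * L ≤ t + 1 ∧ P.M.Mk w (t + 1) := by
  have := P.pos
  rw [tick, P.shift_W h]
  constructor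
  · rintro ⟨-, z, h1, h2⟩
    have h3 : ρ + 5 * L ≤ t + 1 := by
      by_contra hn
      have := h2 ⟨0, by omega⟩
      rw [W, if_neg (by simpa using hn)] at this
      cases this
    refine ⟨h3, t + 1 - 5 * L, by omega, P.M.loc _ _ (fun i hi => ?_) h1⟩
    have := h2 ⟨i, hi⟩
    rw [W, if_pos (by simp only; omega)] at this
    rw [← Option.some.inj this]; congr 1; simp only; omega
  · rintro ⟨h1, s, h2, h3⟩
    refine ⟨rfl, _, h3, fun i => ?_⟩
    rw [W, if_pos (by omega)]; congr 2; omega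

theorem tr_search {o ρ j : ℕ} (ho : o + ρ = j + 13 * L ∨ 13 * L ≤ o ∧ ρ ≤ j) (x : V) (t : ℕ)
    (ht : j ≤ t) (h : ∀ τ, ρ + 5 * L ≤ τ → j < τ → τ ≤ t → ¬ P.M.Mk w τ) :
    tr P.astep w ((cn H π o, W w L ρ j, 0), x) j t =
      ((cn H π (o + (t - j)), W w L ρ t, 0), tr P.pu w x j t) := by
  induction t, ht using Nat.le_induction with
  | base => simp
  | succ t ht ih =>
    have h0 : o + (t - j) < 13 * L ↔ t < ρ := by omega
    rw [tr_succ ht, tr_succ ht, ih fun τ a b c => h τ a b (by omega),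
      P.step_no _ (mt (P.tick_W h0).1 fun h' => h _ h'.1 (by omega) le_rfl h'.2), P.shift_W h0,
      show o + (t + 1 - j) = o + (t - j) + 1 by omega]

theorem tr_tick {o ρ j τ : ℕ} (ho : o + ρ = j + 13 * L ∨ 13 * L ≤ o ∧ ρ ≤ j) (x : V)
    (h0 : j < τ) (h1 : ρ + 5 * L ≤ τ) (h2 : P.M.Mk w τ)
    (h : ∀ t, ρ + 5 * L ≤ t → j < t → t < τ → ¬ P.M.Mk w t) :
    tr P.astep w ((cn H π o, W w L ρ j, 0), x) j τ = (P.tk (cell L H π (o + (τ - j))),
      tr P.pu w x j τ + (P.F (cell L H π (o + (τ - j)))).1) := by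
  obtain ⟨t, rfl⟩ : ∃ t, τ = t + 1 := ⟨τ - 1, by omega⟩
  have ht : j ≤ t := by omega
  rw [tr_succ ht, tr_succ ht, P.tr_search ho x t ht fun τ a b c => h τ a b (by omega),
    P.step_tick _ ((P.tick_W (by omega)).2 ⟨h1, h2⟩),
    show o + (t + 1 - j) = o + (t - j) + 1 by omega]

theorem of3_eq (w : ℕ → α) (o : ℕ) {ρ j : ℕ} (h : j ≤ ρ) :
    of3 α L H π o = (cn H π o, W w L ρ j, 0) := by rw [W_none h]; rfl

theorem tr_wait (ψ : ZMod L) (x : V) (τ : ℕ) : ∀ d ≤ ψ.val,
    tr P.astep w ((cn H π 0, fun _ => none, ψ), x) τ (τ + d) =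
      ((cn H π 0, fun _ => none, ψ - d), tr P.pu w x τ (τ + d))
  | 0, _ => by simp
  | d + 1, h => by
    have h1 := sub_ne P.pos (show d < ψ.val by omega)
    rw [← add_assoc, tr_succ (by omega), tr_succ (by omega), tr_wait ψ x τ d (by omega), astep,
      cstep, act, if_pos h1, if_neg fun h => h1 h.1, add_zero, Nat.cast_succ, sub_sub]

theorem tr_anchor (y : Cell L H) (x : V) (τ : ℕ) :
    tr P.astep w (P.tk y, x) τ (τ + (wt y (P.F y).2).val) =
      (of3 α L H π 0, tr P.pu w x τ (τ + (wt y (P.F y).2).val)) := by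
  have : NeZero L := ⟨P.pos.ne'⟩
  rw [tk, P.tr_wait _ x τ _ le_rfl]; simp [of3]

theorem tr_fst (c : C3 α L H π) (x : V) (s t : ℕ) :
    tr P.cstep w c s t = (tr P.astep w (c, x) s t).1 := (P.run_astep_fst _ (c, x)).symm

/-- The run from an anchor before the next tick. -/
theorem tr_free (x : V) {s t : ℕ} (ht : s ≤ t) (h : ∀ τ, s + 18 * L ≤ τ → τ ≤ t → ¬ P.M.Mk w τ) :
    tr P.astep w (of3 α L H π 0, x) s t =
      ((cn H π (t - s), W w L (s + 13 * L) t, 0), tr P.pu w x s t) := by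
  rw [of3_eq w 0 (Nat.le_add_right s (13 * L)), P.tr_search (by omega) x t ht
    fun τ a _ c => h τ (by omega) c, zero_add]

theorem tr_next (x : V) {s τ : ℕ} (h1 : s + 18 * L ≤ τ) (h2 : P.M.Mk w τ)
    (h : ∀ t, s + 18 * L ≤ t → t < τ → ¬ P.M.Mk w t) :
    tr P.astep w (of3 α L H π 0, x) s τ = (P.tk (cell L H π (τ - s)),
      tr P.pu w x s τ + (P.F (cell L H π (τ - s))).1) := by
  have := P.pos
  rw [of3_eq w 0 (Nat.le_add_right s (13 * L)), P.tr_tick (by omega) x (by omega) (by omega) h2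
    fun τ a _ c => h τ (by omega) c, zero_add]

variable (w) in
/-- `s'` is the anchor following the anchor `s`. -/
def Next (s s' : ℕ) : Prop :=
  tr P.cstep w (of3 α L H π 0) s s' = of3 α L H π 0 ∧
    (∀ t, s < t → t < s' → tr P.cstep w (of3 α L H π 0) s t ≠ of3 α L H π 0) ∧
    ∃ τ, s + 18 * L ≤ τ ∧ τ ≤ s' ∧ P.M.Mk w τ

theorem next_of {s τ : ℕ} (h1 : s + 18 * L ≤ τ) (h2 : P.M.Mk w τ)
    (h : ∀ t, s + 18 * L ≤ t → t < τ → ¬ P.M.Mk w t) :
    ∃ s', P.Next w s s' ∧ τ ≤ s' ∧ s' < τ + L := by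
  have hL := P.pos
  have : NeZero L := ⟨hL.ne'⟩
  have hT := P.tr_next 0 h1 h2 h
  generalize cell L H π (τ - s) = y at hT
  generalize tr P.pu w 0 s τ + _ = x at hT
  have hψ := ZMod.val_lt (wt y (P.F y).2)
  refine ⟨τ + (wt y (P.F y).2).val, ⟨?_, fun t c1 c2 => ?_, τ, h1, by omega, h2⟩, by omega,
    by omega⟩
  · rw [P.tr_fst _ 0, ← tr_trans (show s ≤ τ by omega) (by omega), hT, tr_anchor]
  · rw [P.tr_fst _ 0]
    by_cases c3 : t < τ
    · rw [P.tr_free 0 c1.le fun t a b => h t a (by omega)]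
      exact fun e => P.cn_ne (by omega) (Prod.mk.inj e).1
    · obtain ⟨d, rfl⟩ : ∃ d, t = τ + d := ⟨t - τ, by omega⟩
      rw [← tr_trans (show s ≤ τ by omega) (by omega), hT, tk, P.tr_wait _ x τ d (by omega)]
      exact fun e => sub_ne hL (by omega) (Prod.mk.inj (Prod.mk.inj e).2).2

theorem exists_next {e : ℕ} (s : ℕ) (h : 19 + 1 ≤ P.M.cnt w s e) :
    ∃ s', P.Next w s s' ∧ s ≤ s' ∧ s' ≤ e ∧ P.M.cnt w s s' ≤ 19 := by
  have hL := P.pos
  obtain ⟨θ, hθ⟩ : ∃ θ, θ + 1 = s + 18 * L := ⟨s + 18 * L - 1, by omega⟩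
  have h1 : P.M.cnt w s θ ≤ 18 := Marker.cnt_le 18 _ _ (by omega)
  have h2 : θ ≤ e := by
    by_contra hn
    have := Marker.cnt_mono (M := P.M) (w := w) (a := s) (not_le.1 hn).le; omega
  have h3 := Marker.cnt_add (M := P.M) w (show s ≤ θ by omega) h2
  obtain ⟨τ, a1, a2, a3, a4, a5⟩ := Marker.exists_first (show 0 < P.M.cnt w θ e by omega)
  have h4 := Marker.cnt_add (M := P.M) w a1.le a2
  obtain ⟨τ', b1, b2, b3, -, -⟩ := Marker.exists_first (show 0 < P.M.cnt w τ e by omega)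
  have h5 := a3.gap b3 b1
  obtain ⟨s', c1, d4, c2⟩ := P.next_of (s := s) (by omega) a3 fun t a b => a4 t (by omega) b
  have h6 : P.M.cnt w τ s' = 0 :=
    Marker.cnt_eq_zero.2 fun t c1 c2 c3 => by have := a3.gap c3 c1; omega
  have h7 := Marker.cnt_add (M := P.M) w (show s ≤ θ by omega) a1.le
  have h8 := Marker.cnt_add (M := P.M) w (show s ≤ τ by omega) d4
  exact ⟨s', c1, by omega, by omega, by omega⟩

theorem alC_of_avoid {m : ℕ → ℕ} {B e : ℕ} (h0 : P.M.Mk w (m 0)) (hB : m B ≤ e)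
    (hm : ∀ i < B, m i < m (i + 1) ∧ P.M.Mk w (m (i + 1)) ∧
      ∀ τ, m i < τ → τ < m (i + 1) → ¬ P.M.Mk w τ) :
    ∀ t i y x, i + 19 * t ≤ B → (∀ τ, m i ≤ τ → τ < e →
      tr P.astep w (P.tk y, x + (P.F y).1) (m i) τ ≠ (of3 α L H π 0, 0)) →
      AlC π P.F m (fun i d x => tr P.pu w x (m i) (m (i + d))) t i y x
  | 0, _, _, _, _, _ => trivial
  | t + 1, i, y, x, hi, hH => by
    have hL := P.pos
    have : NeZero L := ⟨hL.ne'⟩
    have hψ := ZMod.val_lt (wt y (P.F y).2)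
    have mk : ∀ i ≤ B, P.M.Mk w (m i) := fun i hi => by
      rcases i with _ | i
      exacts [h0, (hm i hi).2.1]
    have st := le_of_steps (c := L) fun i (hi : i < B) =>
      ((mk i hi.le).gap (mk (i + 1) hi) (hm i hi).1).le
    have hA := P.tr_anchor (w := w) y (x + (P.F y).1) (m i)
    rw [AlC]
    generalize (wt y (P.F y).2).val = ψ at hψ hA ⊢
    have ex : ∃ d, m i + ψ + 18 * L ≤ m (i + d) := ⟨19, by have := st i 19 (by omega); omega⟩
    have d7 : Nat.find ex ≤ 19 := Nat.find_min' ex (by have := st i 19 (by omega); omega)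
    have d1 := Nat.find_spec ex
    have d2 := fun d => Nat.find_min ex (m := d)
    have d3 := fun d => Nat.find_min' ex (m := d)
    generalize Nat.find ex = d at *
    have d4 : m (i + d) ≤ e := by
      have := st (i + d) (B - (i + d)) (by omega)
      rw [show i + d + (B - (i + d)) = B by omega] at this; omega
    refine ⟨fun h => hH (m i + ψ) (by omega) (by omega) ?_, d, by omega, ⟨d1, d3⟩, ?_⟩
    · rw [hA, h, tr, P.run_pu_zero]
    · obtain ⟨d, rfl⟩ : ∃ d', d = d' + 1 := ⟨d - 1, by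
        rcases d with _ | d
        · simp at d1; omega
        · rfl⟩
      have hT := P.tr_next (w := w) (s := m i + ψ) (τ := m (i + (d + 1)))
        (tr P.pu w (x + (P.F y).1) (m i) (m i + ψ)) d1 (mk _ (by omega)) fun τ a b =>
          (hm (i + d) (by omega)).2.2 τ (by have := d2 d (by omega); omega) b
      rw [← hA, tr_trans (by omega) (by omega), tr_trans (by omega) (by omega),
        ← Nat.sub_sub] at hT
      refine alC_of_avoid h0 hB hm t _ _ _ (by omega) fun τ a b => ?_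
      rw [← hT, tr_trans (by omega) a]
      exact hH τ (by omega) b

/-- Some label survives along the chain started in `c`. -/
def AliveA (c : C3 α L H π) (u : List α) : Prop :=
  ∃ x, Avoid P.astep (· = (of3 α L H π 0, 0)) (c, x) u

/-- The property of the random function. -/
def Good (ℓ T r : ℕ) : Prop :=
  ∀ (m : ℕ → ℕ) (μ : ℕ → ℕ → V → V) (y : Fin r → Cell L H), Start (6 * ℓ + 3) y →
    ¬ ∀ j, ∃ x, AlC π P.F m μ T 0 (y j) x

variable (w) in
/-- `τ` is the first mark from `θ` on. -/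
def Fst (θ τ : ℕ) : Prop := θ ≤ τ ∧ P.M.Mk w τ ∧ ∀ t, θ ≤ t → t < τ → ¬ P.M.Mk w t

theorem core {ℓ T r : ℕ} (hG : P.Good ℓ T r) {s e : ℕ} (hc : 19 * T + 40 ≤ P.M.cnt w s e)
    {c : Fin (80 * r) → C3 α L H π} {j θ : Fin (80 * r) → ℕ} {O : Fin (80 * r) → ℕ → ℕ}
    (h1 : ∀ i, j i < θ i ∧ s < θ i ∧ P.M.cnt w s (θ i - 1) ≤ 38)
    (h2 : ∀ i x τ, P.Fst w (θ i) τ → ∃ x', tr P.astep w (c i, x) (j i) τ =
      (P.tk (cell L H π (O i τ)), x' + (P.F (cell L H π (O i τ))).1))
    (h3 : ∀ i, P.AliveA (c i) (seg w (j i) e)) :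
    ∃ τ, ∃ g : Fin r → Fin (80 * r), Function.Injective g ∧ (∀ k, P.Fst w (θ (g k)) τ) ∧
      (∀ k k', IsS L H (O (g k) τ / π) (O (g k) τ % π) → IsS L H (O (g k') τ / π) (O (g k') τ % π)) ∧
      ¬ Start (6 * ℓ + 3) fun k => cell L H π (O (g k) τ) := by
  have h4 : ∀ i, ∃ τ, P.Fst w (θ i) τ ∧ τ ≤ e ∧ P.M.cnt w s τ < 40 := by
    intro i
    obtain ⟨a1, a2, a3⟩ := h1 i
    have a4 : θ i - 1 ≤ e := by
      by_contra hn
      have := Marker.cnt_mono (M := P.M) (w := w) (a := s) (not_le.1 hn).le; omega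
    have a5 := Marker.cnt_add (M := P.M) w (show s ≤ θ i - 1 by omega) a4
    obtain ⟨τ, b1, b2, b3, b4, b5⟩ :=
      Marker.exists_first (show 0 < P.M.cnt w (θ i - 1) e by omega)
    have := Marker.cnt_add (M := P.M) w (show s ≤ θ i - 1 by omega) b1.le
    exact ⟨τ, ⟨by omega, b3, fun t a => b4 t (by omega)⟩, b2, by omega⟩
  choose τ t1 t2 t3 using h4
  obtain ⟨β, hβ⟩ := Fintype.exists_le_card_fiber_of_mul_le_card (n := r)
    (fun i => ((⟨_, t3 i⟩, decide (IsS L H (O i (τ i) / π) (O i (τ i) % π))) : Fin 40 × Bool))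
    (by simp)
  obtain ⟨I, hI, cI⟩ := Finset.exists_subset_card_eq hβ
  have hI' := fun j => (Finset.mem_filter.1 (hI (I.orderEmbOfFin_mem cI j))).2
  have inj := (I.orderEmbOfFin cI).injective
  generalize ⇑(I.orderEmbOfFin cI) = g at hI' inj
  rcases Nat.eq_zero_or_pos r with rfl | hr
  · exact (hG (fun _ => 0) (fun _ _ => id) Fin.elim0
      ⟨fun a => a.elim0, Or.inl ⟨0, fun a => a.elim0⟩⟩ fun a => a.elim0).elim
  have eq : ∀ k k', τ (g k) = τ (g k') := by
    have lt : ∀ k k', ¬ τ (g k) < τ (g k') := fun k k' h => by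
      have a1 := congrArg (·.1.val) ((hI' k).trans (hI' k').symm)
      have a2 := Marker.cnt_add (M := P.M) w (show s ≤ τ (g k) by
        have := (t1 (g k)).1; have := (h1 (g k)).2.1; omega) h.le
      exact Marker.cnt_eq_zero.1 (show P.M.cnt w (τ (g k)) (τ (g k')) = 0 by
        simp only at a1; omega) _ h le_rfl (t1 (g k')).2.1
    exact fun k k' => le_antisymm (not_lt.1 (lt k' k)) (not_lt.1 (lt k k'))
  obtain ⟨τ₀, hτ⟩ : ∃ τ₀, ∀ k, τ (g k) = τ₀ := ⟨_, fun k => eq k ⟨0, hr⟩⟩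
  have a1 := t1 (g ⟨0, hr⟩); have a2 := t2 (g ⟨0, hr⟩); have a3 := t3 (g ⟨0, hr⟩)
  have a4 := (h1 (g ⟨0, hr⟩)).2.1
  rw [hτ] at a1 a2 a3
  have a5 := Marker.cnt_add (M := P.M) w (show s ≤ τ₀ by have := a1.1; omega) a2
  refine ⟨τ₀, g, inj, fun k => hτ k ▸ t1 (g k), fun k k' h => ?_, fun hS => ?_⟩
  · have := congrArg (·.2) ((hI' k).trans (hI' k').symm)
    simp only [hτ, decide_eq_decide] at this
    exact this.1 h
  obtain ⟨m, rfl, m1, m2, -, -⟩ := Marker.enum (M := P.M) (w := w) (c := 1) (e := e)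
    (R := fun a b => a < b ∧ P.M.Mk w b ∧ ∀ τ, a < τ → τ < b → ¬ P.M.Mk w τ)
    (fun a ha => by
      obtain ⟨τ, a1, a2, a3, a4, a5⟩ := Marker.exists_first (show 0 < P.M.cnt w a e by omega)
      exact ⟨τ, ⟨a1, a3, a4⟩, a1.le, a2, a5.le⟩) (19 * T) τ₀ a2 (by omega)
  refine hG m (fun i d x => tr P.pu w x (m i) (m (i + d))) _ hS fun k => ?_
  obtain ⟨x, hx⟩ := h3 (g k)
  have b1 := hτ k ▸ t1 (g k)
  obtain ⟨x', hT⟩ := h2 (g k) x _ b1
  have := b1.1; have := (h1 (g k)).1
  refine ⟨x', P.alC_of_avoid a1.2.1 m2 m1 T 0 _ _ (by omega) fun τ a b' => ?_⟩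
  rw [← hT, tr_trans (by omega) a]
  exact (avoid_seg (by omega)).1 hx τ (by omega) b'

end Par3

end Vale.Agent.P329
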