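import Vale.Agent.P329.Chain3

/-! The channel provided by the chain with a long counter. -/

namespace Vale.Agent.P329

open scoped Classical
open Par (W W_none)

variable {α : Type} {L H π : ℕ}

theorem div_near {π a b v v' e e' : ℕ} (h : a + π * v + e = b + π * v' + e') (he : e < π)
    (he' : e' < π) : ∃ ε ≤ 2, a / π + v + 1 = b / π + v' + ε := by
  have h0 : 0 < π := by omega
  have h1 : (a + π * v + e) / π = (b + π * v' + e') / π := by rw [h]
  rw [add_right_comm, Nat.add_mul_div_left _ _ h0, add_right_comm b, Nat.add_mul_div_left _ _ h0,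
    Nat.add_div h0, Nat.add_div h0, Nat.div_eq_of_lt he, Nat.div_eq_of_lt he'] at h1
  refine ⟨a / π + v + 1 - (b / π + v'), ?_, ?_⟩ <;> split_ifs at h1 <;> omega

theorem start_of (hL : L = H * H) (hd : L ∣ π) (hπ : 40 * L ≤ π) {ℓ r D : ℕ} (hℓ : 6 * ℓ + 3 ≤ H)
    {O u u' v v' n n' δ : Fin r → ℕ}
    (h : ∀ k, O k + π * (3 * v k) + (H * (3 * u k) + L * n k + δ k) =
      D + π * (3 * v' k) + (H * (3 * u' k) + L * n' k))
    (hb : ∀ k, u k ≤ ℓ ∧ u' k ≤ ℓ ∧ v k ≤ ℓ ∧ v' k ≤ ℓ ∧ L * n k + δ k ≤ 18 * L ∧ n' k ≤ 12 ∧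
      δ k < H)
    (hS : ∀ k k', IsS L H (O k / π) (O k % π) → IsS L H (O k' / π) (O k' % π))
    (hδ : ∀ k, IsS L H (O k / π) (O k % π) → δ k = 0)
    (inj : ∀ k k', u' k + u k' = u' k' + u k →
      (¬ IsS L H (O k / π) (O k % π) → v' k + v k' = v' k' + v k) → k = k') :
    Start (6 * ℓ + 3) fun k => cell L H π (O k) := by
  have : NeZero H := ⟨by omega⟩
  have := neZero_sq hL
  have L0 := NeZero.pos L
  have cast : ∀ {a b : ℕ}, a < 6 * ℓ + 3 → b < 6 * ℓ + 3 → (a : ZMod H) = b → a = b := by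
    intro a b ha hb e
    have := (ZMod.natCast_eq_natCast_iff' _ _ _).1 e
    rwa [Nat.mod_eq_of_lt (by omega), Nat.mod_eq_of_lt (by omega)] at this
  obtain ⟨y₀, hy₀⟩ : ∃ y₀ : ZMod L, y₀ = D - (H * (3 * ℓ) : ℕ) := ⟨_, rfl⟩
  have h1 : ∀ k, (O k : ZMod L) + δ k = y₀ + (H * (3 * ℓ + 3 * u' k - 3 * u k) : ℕ) := by
    intro k
    have e := congrArg (Nat.cast : ℕ → ZMod L) (h k)
    have := (hb k).1
    simp only [Nat.cast_add, Nat.cast_mul π, Nat.cast_mul L, ZMod.natCast_self,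
      (ZMod.natCast_eq_zero_iff π L).2 hd, zero_mul, add_zero] at e
    rw [hy₀, Nat.mul_sub, Nat.cast_sub (Nat.mul_le_mul_left _ (by omega)), Nat.mul_add,
      Nat.cast_add]
    linear_combination e
  by_cases hs : ∃ k, IsS L H (O k / π) (O k % π)
  · obtain ⟨k₀, hk₀⟩ := hs
    have h2 : ∀ k, cell L H π (O k) = .inl (y₀ + (H * (3 * ℓ + 3 * u' k - 3 * u k) : ℕ)) :=
      fun k => by rw [cell, if_pos (hS _ k hk₀), ← h1, hδ k (hS _ k hk₀)]; simp
    refine ⟨fun k k' e => inj k k' ?_ fun h => (h (hS _ k hk₀)).elim,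
      Or.inl ⟨y₀, fun k => ⟨_, by have := hb k; omega, h2 k⟩⟩⟩
    simp only [h2, Sum.inl.injEq] at e
    have e2 := congrArg (high H) e
    rw [high_add_mul hL, high_add_mul hL, add_right_inj] at e2
    have := hb k; have := hb k'
    have := cast (by omega) (by omega) e2
    omega
  · push Not at hs
    have h2 : ∀ k, ∃ s s' : ℕ, 3 * ℓ + 3 * u' k ≤ s + 3 * u k ∧ s + 3 * u k ≤ 3 * ℓ + 3 * u' k + 1 ∧
        3 * ℓ + 3 * v' k ≤ s' + 3 * v k ∧ s' + 3 * v k ≤ 3 * ℓ + 3 * v' k + 2 ∧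
        cell L H π (O k) = .inr (high H y₀ - 1 + s, (D / π : ℕ) - (3 * ℓ + 1 : ℕ) + s') := by
      intro k
      obtain ⟨b1, b2, b3, b4, b5, b6, b7⟩ := hb k
      have a1 : ∀ x ≤ ℓ, H * (3 * x) < L := fun x hx =>
        hL ▸ Nat.mul_lt_mul_of_pos_left (by omega) (by omega)
      have a2 := a1 _ b1; have a3 := a1 _ b2
      have a4 : L * n' k ≤ L * 12 := Nat.mul_le_mul_left _ b6
      obtain ⟨ε, e1, e2⟩ := high_add_lt hL (O k : ZMod L) b7
      obtain ⟨ε', e3, e4⟩ := div_near (h k) (by omega) (by omega)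
      rw [h1, high_add_mul hL] at e2
      refine ⟨3 * ℓ + 3 * u' k - 3 * u k + 1 - ε, 3 * ℓ + 3 * v' k + ε' - 3 * v k, by omega,
        by omega, by omega, by omega, ?_⟩
      rw [cell, if_neg (hs k), Nat.cast_sub (by omega), Nat.cast_sub (m := 3 * v k) (by omega)]
      have e5 := congrArg (Nat.cast : ℕ → ZMod H) e4
      push_cast at e5 ⊢
      congr 2
      · linear_combination -e2
      · linear_combination e5
    choose s s' c1 c2 c3 c4 c5 using h2
    have bd : ∀ k, s k < 6 * ℓ + 3 ∧ s' k < 6 * ℓ + 3 := fun k => by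
      have := hb k; have := c2 k; have := c4 k; omega
    refine ⟨fun k k' e => ?_, Or.inr ⟨_, _, fun k => ⟨_, (bd k).1, _, (bd k).2, c5 k⟩⟩⟩
    simp only [c5, Sum.inr.injEq, Prod.mk.injEq, add_right_inj] at e
    have := cast (bd k).1 (bd k').1 e.1
    have := cast (bd k).2 (bd k').2 e.2
    have := c1 k; have := c2 k; have := c3 k; have := c4 k
    have := c1 k'; have := c2 k'; have := c3 k'; have := c4 k'
    exact inj k k' (by omega) fun _ => by omega

/-- The chain states at which cuts are made. -/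
def CutC (ty : Option Bool) (n : ℕ) (c : C3 α L H π) : Prop :=
  ty.elim (∃ Z, c = (cn H π (π * (3 * n)), Z, 0))
    fun Ω => c = of3 α L H π (H * (3 * n) + L * bif Ω then 12 else 0)

namespace Par3

variable {V : Type} [AddCommGroup V] (P : Par3 α V L H π) {w : ℕ → α}

variable (w) in
/-- No tick happens during the `d` steps after time `j`. -/
def Calm (c : C3 α L H π) (j d : ℕ) : Prop :=
  ∀ t < d, ¬ P.tick (tr P.cstep w c j (j + t)) (w (j + t))

theorem notick {o j : ℕ} (ho : 13 * L ≤ o) (Z : Fin (5 * L) → Option α) : ∀ d,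
    P.Calm w (cn H π o, Z, 0) j d → ∃ Z' : Fin (5 * L) → Option α,
      (∀ i : Fin (5 * L), 5 * L ≤ d + i → Z' i = some (w (j + d + i - 5 * L))) ∧
      ∀ x, tr P.astep w ((cn H π o, Z, 0), x) j (j + d) =
        ((cn H π (o + d), Z', 0), tr P.pu w x j (j + d))
  | 0, _ => ⟨Z, fun i hi => by omega, by simp⟩
  | d + 1, h => by
    have := P.big; have := P.le_A
    obtain ⟨Z', h1, h2⟩ := notick ho Z d fun t ht => h t (by omega)
    have h3 := h d (by omega)
    rw [P.tr_fst _ 0, h2] at h3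
    refine ⟨_, fun i hi => ?_, fun x => by
      rw [← add_assoc, tr_succ (by omega), tr_succ (by omega), h2, P.step_no _ h3, add_assoc o]⟩
    rw [shift, P.cn_val, if_neg fun h => by have := (nrm_lt_iff (by omega) _).1 h; omega]
    split_ifs with h4
    · exact (h1 ⟨_, h4⟩ (by simp only; omega)).trans (by congr 2; simp only; omega)
    · congr 2; omega

theorem calm_tr {o j : ℕ} (ho : 13 * L ≤ o) {Z : Fin (5 * L) → Option α}
    (h : P.Calm w (cn H π o, Z, 0) j (5 * L)) (x : V) :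
    tr P.astep w ((cn H π o, Z, 0), x) j (j + 5 * L) =
      ((cn H π (o + 5 * L), W w L j (j + 5 * L), 0), tr P.pu w x j (j + 5 * L)) := by
  obtain ⟨Z', h1, h2⟩ := P.notick ho Z _ h
  rw [h2, show Z' = W w L j (j + 5 * L) from funext fun i => by
    rw [h1 i (by omega), W, if_pos (by omega)]]

theorem partner {ℓ : ℕ} (hℓ : 6 * ℓ + 3 ≤ H) {ty : Option Bool} {n : ℕ} (h1 : 1 ≤ n) (h2 : n ≤ ℓ)
    {c : C3 α L H π} (hc : CutC ty n c) (j : ℕ) : ∃ (θ : ℕ) (O : ℕ → ℕ) (u v m m' δ : ℕ),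
    j + 5 * L < θ ∧ θ ≤ j + 24 * L ∧ L * m + δ ≤ 6 * L ∧ m' ≤ 12 ∧ δ < H ∧
    (∀ x τ, P.Fst w θ τ → ∃ x', tr P.astep w (c, x) j τ =
      (P.tk (cell L H π (O τ)), x' + (P.F (cell L H π (O τ))).1)) ∧
    (∀ τ, θ ≤ τ → O τ + j + (L * m + δ) = τ + π * (3 * v) + (H * (3 * u) + L * m')) ∧
    (ty ≠ none ∧ u = n ∧ v = 0 ∧ δ = 0 ∨ ty = none ∧ u = 0 ∧ v = n ∧ δ = 0 ∧ P.Calm w c j (5 * L) ∨
      ty = none ∧ u = 0 ∧ v = 0 ∧ m' = 0 ∧ θ = j + (L * m + δ) + 18 * L) := by
  have hL := P.pos; have := P.big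
  have : NeZero L := ⟨hL.ne'⟩
  have : NeZero H := ⟨P.posH.ne'⟩
  have a1 : H * (3 * n) < L := P.hL ▸ Nat.mul_lt_mul_of_pos_left (by omega) (by omega)
  rcases ty with _ | Ω
  · obtain ⟨Z, rfl⟩ := hc
    have a2 : π * 3 ≤ π * (3 * n) := Nat.mul_le_mul_left _ (by omega)
    by_cases hC : P.Calm w (cn H π (π * (3 * n)), Z, 0) j (5 * L)
    · refine ⟨j + 5 * L + 1, fun τ => π * (3 * n) + 5 * L + (τ - (j + 5 * L)), 0, n, 0, 0, 0,
        by omega, by omega, by omega, by omega, by omega, fun x τ hτ => ?_, fun τ _ => by dsimp only; omega,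
        Or.inr (Or.inl ⟨rfl, rfl, rfl, rfl, hC⟩)⟩
      have := hτ.1
      rw [← tr_trans (Nat.le_add_right j (5 * L)) (by omega), P.calm_tr (by omega) hC]
      exact ⟨_, P.tr_tick (by omega) _ (by omega) (by omega) hτ.2.1
        fun t _ a => hτ.2.2 t (by omega)⟩
    · have ex : ∃ t, t < 5 * L ∧
          P.tick (tr P.cstep w (cn H π (π * (3 * n)), Z, 0) j (j + t)) (w (j + t)) := by
        simpa [Calm] using hC
      obtain ⟨b1, b2⟩ := Nat.find_spec ex
      obtain ⟨Z', -, b3⟩ := P.notick (w := w) (j := j) (show 13 * L ≤ π * (3 * n) by omega) Z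
        (Nat.find ex) fun t ht h => Nat.find_min ex ht ⟨by omega, h⟩
      generalize Nat.find ex = d at *
      rw [P.tr_fst _ 0, b3] at b2
      have b4 : cell L H π (π * (3 * n) + d + 1) = .inl (d + 1 : ℕ) := by
        obtain ⟨e1, e2⟩ := (Nat.div_mod_unique (a := π * (3 * n) + d + 1) (c := d + 1)
          (d := 3 * n) (show 0 < π by omega)).2 ⟨by omega, by omega⟩
        rw [cell, e1, e2, if_pos (by unfold IsS; omega), add_assoc, Nat.cast_add, Nat.cast_mul,
          (ZMod.natCast_eq_zero_iff π L).2 P.dvd, zero_mul, zero_add]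
      obtain ⟨y, hy⟩ : ∃ y : Cell L H, y = .inl (d + 1 : ℕ) := ⟨_, rfl⟩
      have b5 := ZMod.val_lt (wt y (P.F y).2)
      have b6 := ZMod.val_lt (P.F y).2
      have b7 : (d + 1 + (wt y (P.F y).2).val) % L = (P.F y).2.val := by
        rw [← ZMod.val_natCast, Nat.cast_add, ZMod.natCast_zmod_val]
        conv_lhs => enter [1, 2, 1]; rw [hy]
        rw [wt, add_sub_cancel, ZMod.val_natCast_of_lt (b6.trans_le (P.hL ▸ Nat.le_mul_self H))]
      have b8 := Nat.div_add_mod (d + 1 + (wt y (P.F y).2).val) L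
      rw [b7] at b8
      refine ⟨_, fun τ => τ - (j + d + 1 + (wt y (P.F y).2).val), 0, 0,
        (d + 1 + (wt y (P.F y).2).val) / L, 0, (P.F y).2.val, by omega, by omega, by omega,
        by omega, b6, fun x τ hτ => ?_, fun τ _ => by dsimp only; omega,
        Or.inr (Or.inr ⟨rfl, rfl, rfl, rfl, rfl⟩)⟩
      have := hτ.1
      rw [← tr_trans (show j ≤ j + d + 1 + (wt y (P.F y).2).val by omega) (by omega),
        ← tr_trans (show j ≤ j + d + 1 by omega) (by omega), tr_succ (by omega), b3,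
        P.step_tick _ b2, b4, ← hy, P.tr_anchor]
      exact ⟨_, P.tr_next _ (by omega) hτ.2.1 fun t a => hτ.2.2 t (by omega)⟩
  · obtain ⟨m', e, a2⟩ : ∃ m', m' = (bif Ω then 12 else 0) ∧ m' ≤ 12 :=
      ⟨_, rfl, by cases Ω <;> simp⟩
    obtain rfl : c = of3 α L H π (H * (3 * n) + L * m') := e ▸ hc
    have a3 : L * m' ≤ L * 12 := Nat.mul_le_mul_left _ a2
    refine ⟨j + 13 * L - (H * (3 * n) + L * m') + 5 * L,
      fun τ => H * (3 * n) + L * m' + (τ - j), n, 0, 0, m', 0, by omega, by omega, by omega,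
      a2, by omega, fun x τ hτ => ?_, fun τ _ => by dsimp only; omega, Or.inl ⟨by simp, rfl, rfl, rfl⟩⟩
    have := hτ.1
    rw [of3_eq w _ (show j ≤ j + 13 * L - (H * (3 * n) + L * m') by omega)]
    exact ⟨_, P.tr_tick (by omega) _ (by omega) hτ.1 hτ.2.1 fun t a _ => hτ.2.2 t a⟩

theorem Fst.unique {θ τ τ' : ℕ} (h : P.Fst w θ τ) (h' : P.Fst w θ τ') : τ = τ' :=
  le_antisymm (not_lt.1 fun a => h.2.2 _ h'.1 a h'.2.1) (not_lt.1 fun a => h'.2.2 _ h.1 a h.2.1)

variable {ℓ T r : ℕ} (hG : P.Good ℓ T r) (hℓ : 6 * ℓ + 3 ≤ H) {ι : Type} {ty : ι → Option Bool}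
  {code : ι → ℕ} (c2 : ∀ a, code a ≤ ℓ)
  (sidon : ∀ a b c d, a ≠ b → code a + code d = code c + code b → a = c)
  (half : ∀ a b c, code a < code b + code c)

include sidon half in
omit [AddCommGroup V] in
theorem sid0 {a a' : ι} {u u' : ℕ} (h : u = 0 ∨ ∃ b ≠ a, u = code b) (h' : u' = 0 ∨ ∃ b, u' = code b)
    (e : u + code a' = u' + code a) : a = a' := by
  rcases h with rfl | ⟨b, hb, rfl⟩ <;> rcases h' with rfl | ⟨b', rfl⟩
  · by_contra hn; exact hn (sidon a a' a' a' hn (by omega))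
  · have := half a' b' a; omega
  · have := half a b a'; omega
  · exact sidon a b a' b' hb.symm (by omega)

include hG hℓ c2 sidon half

theorem chanK {att : Bool → Fin (80 * r) → ι} (hatt : ∀ Ω, Function.Injective (att Ω)) {s e : ℕ}
    (hc : 19 * T + 40 ≤ P.M.cnt w s e) : ∃ Ω i, ∀ b c, CutC (ty b) (code b) c → P.AliveA c
      (seg w (s + (H * (3 * code (att Ω i)) + L * bif Ω then 12 else 0)) e) → b = att Ω i := by
  have hL := P.pos; have := P.big
  have c1 : ∀ a, 1 ≤ code a := fun a => by have := half a a a; omega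
  have a1 : ∀ a, H * (3 * code a) < L := fun a =>
    P.hL ▸ Nat.mul_lt_mul_of_pos_left (by have := c2 a; omega) P.posH
  obtain ⟨Ω, hΩ⟩ : ∃ Ω : Bool, Ω = true ↔
    ∃ τ, P.Fst w (s + 37 * L) τ ∧ 0 < (τ - s) % π ∧ (τ - s) % π ≤ 12 * L := ⟨_, decide_eq_true_iff⟩
  refine ⟨Ω, ?_⟩
  obtain ⟨n₀, e0, a2⟩ : ∃ n₀, (bif Ω then 12 else 0) = n₀ ∧
      (Ω = true ∧ L * n₀ = 12 * L ∨ ¬ Ω = true ∧ L * n₀ = 0) :=
    ⟨_, rfl, by cases Ω <;> simp [mul_comm]⟩
  rw [e0]
  by_contra hn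
  push Not at hn
  choose b c hb hal hne using hn
  choose θ O u v m m' δ p1 p2 p3 p4 p5 p6 p7 p8 using fun i =>
    P.partner (w := w) hℓ (c1 _) (c2 _) (hb i) (s + (H * (3 * code (att Ω i)) + L * n₀))
  obtain ⟨τ, g, inj, t1, t2, t3⟩ := P.core hG hc (fun i => by
    have := p1 i; have := p2 i; have := a1 (att Ω i)
    exact ⟨by omega, by omega, Marker.cnt_le 38 _ _ (by omega)⟩) p6 hal
  have q : ∀ i, u i = 0 ∨ ∃ b ≠ att Ω i, u i = code b := fun i => by
    rcases p8 i with h | h | h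
    exacts [Or.inr ⟨_, hne i, h.2.1⟩, Or.inl h.2.1, Or.inl h.2.1]
  refine t3 (start_of (D := τ - s) (u := fun k => code (att Ω (g k))) (u' := fun k => u (g k))
    (v := fun _ => 0) (v' := fun k => v (g k)) (n := fun k => n₀ + m (g k))
    (n' := fun k => m' (g k)) (δ := fun k => δ (g k)) P.hL P.dvd P.big hℓ (fun k => ?_)
    (fun k => ?_) t2 (fun k hk => ?_) fun k k' e _ => inj (hatt Ω (sid0 sidon half (q _)
      ((q _).imp_right fun ⟨b, _, h⟩ => ⟨b, h⟩) e)))
  · have := p7 _ τ (t1 k).1; have := p1 (g k); have := (t1 k).1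
    simp only [Nat.mul_add]; omega
  · have := c2 (b (g k)); have := p8 (g k); have := p3 (g k)
    exact ⟨c2 _, by omega, Nat.zero_le _, by omega, by simp only [Nat.mul_add]; omega, p4 _, p5 _⟩
  · rcases p8 (g k) with h | h | ⟨-, h1, h2, h3, -⟩
    · exact h.2.2.2
    · exact h.2.2.2.1
    exfalso
    have b1 := p7 _ τ (t1 k).1
    rw [h1, h2, h3] at b1
    obtain ⟨b2, -, b3, b4⟩ := hk
    have b5 := (Nat.le_div_iff_mul_le (show 0 < π by omega)).1 b2
    have := p2 (g k); have := p3 (g k); have := a1 (att Ω (g k))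
    have b6 : (τ - s) % π = O (g k) τ % π +
        (H * (3 * code (att Ω (g k))) + L * n₀ + (L * m (g k) + δ (g k))) := by
      rw [show τ - s = O (g k) τ + (H * (3 * code (att Ω (g k))) + L * n₀ +
        (L * m (g k) + δ (g k))) by omega, ← Nat.mod_add_mod, Nat.mod_eq_of_lt (by omega)]
    have b7 : P.Fst w (s + 37 * L) τ :=
      ⟨by omega, (t1 k).2.1, fun t a => (t1 k).2.2 t (by omega)⟩
    rcases a2 with ⟨a2, a3⟩ | ⟨a2, a3⟩
    · obtain ⟨τ', d1, -, d2⟩ := hΩ.1 a2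
      rw [d1.unique P b7] at d2
      omega
    · exact a2 (hΩ.2 ⟨τ, b7, by omega, by omega⟩)

theorem chanP {att : Fin (80 * r) → ι} (hatt : Function.Injective att) {s e : ℕ}
    (hm : ∀ τ, s + 18 * L ≤ τ → τ ≤ s + 2 * (H * π) → ¬ P.M.Mk w τ)
    (hc : 19 * T + 40 ≤ P.M.cnt w s e) : ∃ i, ∀ b c, (ty b = none → b = att i →
      ¬ P.Calm w c (s + π * (3 * code (att i))) (5 * L)) → CutC (ty b) (code b) c →
      ¬ P.AliveA c (seg w (s + π * (3 * code (att i))) e) := by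
  have hL := P.pos; have := P.big
  have c1 : ∀ a, 1 ≤ code a := fun a => by have := half a a a; omega
  have a1 : ∀ a, π * 3 ≤ π * (3 * code a) ∧ π * (3 * code a) + π ≤ H * π := fun a =>
    ⟨Nat.mul_le_mul_left _ (by have := c1 a; omega), by
      rw [← Nat.mul_succ, mul_comm H]; exact Nat.mul_le_mul_left _ (by have := c2 a; omega)⟩
  by_contra hn
  push Not at hn
  choose b c hne hb hal using hn
  choose θ O u v m m' δ p1 p2 p3 p4 p5 p6 p7 p8 using fun i =>
    P.partner (w := w) hℓ (c1 _) (c2 _) (hb i) (s + π * (3 * code (att i)))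
  obtain ⟨τ, g, inj, t1, t2, t3⟩ := P.core hG hc (fun i => by
    have := p1 i; have := p2 i; have := a1 (att i)
    have := Marker.cnt_add (M := P.M) w (Nat.le_add_right s (18 * L))
      (show s + 18 * L ≤ θ i - 1 by omega)
    have := Marker.cnt_le (M := P.M) (w := w) 18 s _ le_rfl
    have := (Marker.cnt_eq_zero (M := P.M) (w := w) (a := s + 18 * L) (b := θ i - 1)).2
      fun τ a b => hm τ a.le (by omega)
    exact ⟨by omega, by omega, by omega⟩) p6 hal
  have q : ∀ i, v i = 0 ∨ ∃ b ≠ att i, v i = code b := fun i => by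
    rcases p8 i with h | h | h
    exacts [Or.inl h.2.2.1, Or.inr ⟨_, fun e => hne i h.1 e h.2.2.2.2, h.2.2.1⟩, Or.inl h.2.2.1]
  have nS : ∀ k, ¬ IsS L H (O (g k) τ / π) (O (g k) τ % π) := fun k h => by
    have := p7 _ τ (t1 k).1; have := p1 (g k); have := p3 (g k); have := (t1 k).1
    have := a1 (att (g k))
    have : ¬ τ ≤ s + 2 * (H * π) := fun a => hm τ (by omega) a (t1 k).2.1
    exact h.2.1.not_ge ((Nat.le_div_iff_mul_le (by omega)).2 (by omega))
  refine t3 (start_of (D := τ - s) (u := fun _ => 0) (u' := fun k => u (g k))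
    (v := fun k => code (att (g k))) (v' := fun k => v (g k)) (n := fun k => m (g k))
    (n' := fun k => m' (g k)) (δ := fun k => δ (g k)) P.hL P.dvd P.big hℓ (fun k => ?_)
    (fun k => ?_) t2 (fun k hk => (nS k hk).elim) fun k k' _ e => inj (hatt (sid0 sidon half (q _)
      ((q _).imp_right fun ⟨b, _, h⟩ => ⟨b, h⟩) (e (nS k)))))
  · have := p7 _ τ (t1 k).1; have := p1 (g k); have := (t1 k).1
    omega
  · have := c2 (b (g k)); have := p8 (g k); have := p3 (g k)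
    exact ⟨Nat.zero_le _, by omega, c2 _, by omega, by omega, p4 _, p5 _⟩

end Par3

end Vale.Agent.P329
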