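import Mathlib

/-! Segments of infinite words and markers. -/

namespace Vale.Agent.P329

variable {α : Type}

/-- The word `w a, …, w (b - 1)`. -/
def seg (w : ℕ → α) (a b : ℕ) : List α := (List.range' a (b - a)).map w

@[simp] theorem seg_length (w : ℕ → α) (a b : ℕ) : (seg w a b).length = b - a := by simp [seg]

@[simp] theorem seg_self (w : ℕ → α) (a : ℕ) : seg w a a = [] := by simp [seg]

theorem seg_append (w : ℕ → α) {a b c : ℕ} (h1 : a ≤ b) (h2 : b ≤ c) :
    seg w a b ++ seg w b c = seg w a c := by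
  obtain ⟨x, rfl⟩ := Nat.exists_eq_add_of_le h1
  obtain ⟨y, rfl⟩ := Nat.exists_eq_add_of_le h2
  have e : a + x + y - a = x + y := by omega
  simp only [seg, Nat.add_sub_cancel_left, e, ← List.map_append]
  rw [List.range'_append_1]

theorem seg_one (w : ℕ → α) (a : ℕ) : seg w a (a + 1) = [w a] := by simp [seg]

theorem seg_succ (w : ℕ → α) {a b : ℕ} (h : a ≤ b) : seg w a (b + 1) = seg w a b ++ [w b] := by
  rw [← seg_one, seg_append w h (Nat.le_succ b)]

theorem seg_getElem (w : ℕ → α) (a b i : ℕ) (h : i < (seg w a b).length) :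
    (seg w a b)[i] = w (a + i) := by simp [seg]

theorem seg_ext {w w' : ℕ → α} {a a' n : ℕ} :
    seg w a (a + n) = seg w' a' (a' + n) ↔ ∀ i < n, w (a + i) = w' (a' + i) := by
  constructor
  · intro h i hi
    rw [← seg_getElem w a (a + n) i (by simpa using hi),
      ← seg_getElem w' a' (a' + n) i (by simpa using hi)]
    simp only [h]
  · intro h
    refine List.ext_getElem (by simp) fun i h1 h2 => ?_
    rw [seg_getElem, seg_getElem, h i (by simpa using h1)]

theorem eq_seg [Inhabited α] (u : List α) : u = seg (fun i => u.getD i default) 0 u.length := by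
  refine List.ext_getElem (by simp) fun i h1 h2 => ?_
  rw [seg_getElem]; simp [h1]

theorem seg_split {w : ℕ → α} {a b : ℕ} {u v : List α} (hab : a ≤ b) (h : seg w a b = u ++ v) :
    a + u.length ≤ b ∧ u = seg w a (a + u.length) ∧ v = seg w (a + u.length) b := by
  have h1 := congrArg List.length h
  simp at h1
  have h2 : a + u.length ≤ b := by omega
  rw [← seg_append w (Nat.le_add_right a _) h2] at h
  obtain ⟨h3, h4⟩ := List.append_inj h (by simp)
  exact ⟨h2, h3.symm, h4.symm⟩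

/-- A family of patterns of length `5 L` whose occurrences are more than `L` apart, and such that
words without occurrence are periodic up to bounded ends. -/
structure Marker (α : Type) (L : ℕ) where
  Pat : (ℕ → α) → Prop
  loc : ∀ z z', (∀ i < 5 * L, z i = z' i) → Pat z → Pat z'
  gap : ∀ (w : ℕ → α) (s d : ℕ), 0 < d → d ≤ L → Pat (fun i => w (s + i)) →
    ¬ Pat (fun i => w (s + d + i))
  X : ℕ
  per : ∀ (w : ℕ → α) (N : ℕ), (∀ s, s + 5 * L ≤ N → ¬ Pat (fun i => w (s + i))) →
    ∃ a p k, a ≤ X ∧ p ≤ X ∧ a + k * p ≤ N ∧ N ≤ a + k * p + X ∧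
      ∀ t, a ≤ t → t + p < a + k * p → w (t + p) = w t

namespace MkC

variable (enc : List α → ℕ) (L : ℕ)

def ID (w : ℕ → α) (t : ℕ) : ℕ := enc (seg w t (t + 2 * L))

def WM (w : ℕ → α) (t : ℕ) : Prop :=
  ∀ t', t ≤ t' + L → t' ≤ t + L → ID enc L w t ≤ ID enc L w t'

variable {enc L}

theorem ID_congr {w w' : ℕ → α} {t t' : ℕ} (h : ∀ i < 2 * L, w (t + i) = w' (t' + i)) :
    ID enc L w t = ID enc L w' t' := congrArg enc (seg_ext.2 h)

theorem WM_shift (w : ℕ → α) (s : ℕ) {t : ℕ} (ht : L ≤ t) :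
    WM enc L (fun i => w (s + i)) t ↔ WM enc L w (s + t) := by
  have e : ∀ t, ID enc L (fun i => w (s + i)) t = ID enc L w (s + t) :=
    fun t => ID_congr fun i _ => by simp [add_assoc]
  simp only [WM, e]
  constructor
  · intro h t' h1 h2
    obtain ⟨x, rfl⟩ : ∃ x, t' = s + x := ⟨t' - s, by omega⟩
    exact h x (by omega) (by omega)
  · exact fun h t' h1 h2 => h _ (by omega) (by omega)

theorem WM_loc {z z' : ℕ → α} (h : ∀ i < 5 * L, z i = z' i) {t : ℕ} (ht : t ≤ 2 * L) :
    WM enc L z t ↔ WM enc L z' t := by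
  have e : ∀ t ≤ 3 * L, ID enc L z t = ID enc L z' t :=
    fun t ht => ID_congr fun i hi => h _ (by omega)
  refine forall_congr' fun t' => forall_congr' fun _ => forall_congr' fun _ => ?_
  rw [e t (by omega), e t' (by omega)]

theorem descent (w : ℕ → α) (n : ℕ) : ∀ t₀, ID enc L w t₀ ≤ n →
    ∃ t, WM enc L w t ∧ t₀ ≤ t + L * n ∧ t ≤ t₀ + L * n := by
  induction n with
  | zero => exact fun t₀ h => ⟨t₀, fun _ _ _ => by omega, by omega, by omega⟩
  | succ n ih =>
    intro t₀ h
    by_cases hw : WM enc L w t₀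
    · exact ⟨t₀, hw, by omega, by omega⟩
    · simp only [WM, not_forall, not_le] at hw
      obtain ⟨t', h1, h2, h3⟩ := hw
      obtain ⟨t, h4, h5, h6⟩ := ih t' (by omega)
      exact ⟨t, h4, by rw [Nat.mul_succ]; omega, by rw [Nat.mul_succ]; omega⟩

end MkC

open MkC in
theorem exists_marker (α : Type) [Finite α] {L : ℕ} (hL : 0 < L) : Nonempty (Marker α L) := by
  obtain ⟨enc, henc⟩ := exists_injective_nat (List α)
  obtain ⟨Y, hY⟩ := ((List.finite_length_eq α (2 * L)).image enc).bddAbove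
  have hID : ∀ w t, ID enc L w t ≤ Y := fun w t => hY ⟨_, by simp, rfl⟩
  refine ⟨⟨fun z => WM enc L z (2 * L) ∧ ∀ t, L ≤ t → t < 2 * L → ¬ WM enc L z t, ?_, ?_,
    5 * L + 2 * (L * Y), ?_⟩⟩
  · rintro z z' h ⟨h1, h2⟩
    exact ⟨(WM_loc h le_rfl).1 h1, fun t h3 h4 h5 => h2 t h3 h4 ((WM_loc h h4.le).2 h5)⟩
  · rintro w s d h0 hd ⟨h1, -⟩ ⟨-, h2⟩
    refine h2 (2 * L - d) (by omega) (by omega) ((WM_shift w _ (by omega)).2 ?_)
    rw [WM_shift w s (by omega)] at h1
    convert h1 using 1; omega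
  · intro w N H
    by_cases hN : N ≤ 5 * L + 2 * (L * Y)
    · exact ⟨0, 0, 0, by omega, by omega, by omega, by omega, fun t _ h => by omega⟩
    have prev : ∀ t, 2 * L ≤ t → t + 3 * L ≤ N → WM enc L w t →
        ∃ t', WM enc L w t' ∧ ID enc L w t' = ID enc L w t ∧ t' < t ∧ t ≤ t' + L := by
      intro t h1 h2 h3
      obtain ⟨s, rfl⟩ : ∃ s, t = s + 2 * L := ⟨t - 2 * L, by omega⟩
      have := H s (by omega)
      rw [not_and, WM_shift w s (by omega)] at this
      have := this h3
      push Not at this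
      obtain ⟨x, h4, h5, h6⟩ := this
      rw [WM_shift w s h4] at h6
      exact ⟨s + x, h6, le_antisymm (h6 _ (by omega) (by omega)) (h3 _ (by omega) (by omega)),
        by omega, by omega⟩
    obtain ⟨t₁, w1, h1, h2⟩ := descent (enc := enc) (L := L) w Y (N - 3 * L - L * Y) (hID _ _)
    have cover : ∀ x u, u + x = t₁ → 2 * L ≤ u → ∃ t, WM enc L w t ∧
        ID enc L w t = ID enc L w t₁ ∧ t ≤ u ∧ u < t + L := by
      intro x
      induction x with
      | zero => exact fun u h _ => ⟨t₁, w1, rfl, by omega, by omega⟩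
      | succ x ih =>
        intro u h hu
        obtain ⟨t, a1, a2, a3, a4⟩ := ih (u + 1) (by omega) (by omega)
        by_cases ht : t ≤ u
        · exact ⟨t, a1, a2, ht, by omega⟩
        · obtain ⟨t', b1, b2, b3, b4⟩ := prev t (by omega) (by omega) a1
          exact ⟨t', b1, b2.trans a2, by omega, by omega⟩
    obtain ⟨t₂, -, e2, h3, h4⟩ := prev t₁ (by omega) (by omega) w1
    obtain ⟨p, rfl⟩ : ∃ p, t₁ = t₂ + p := ⟨t₁ - t₂, by omega⟩
    have hp : 0 < p := by omega
    have d1 := Nat.div_add_mod (t₂ + p - 2 * L) p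
    have d2 := Nat.mod_lt (t₂ + p - 2 * L) hp
    rw [mul_comm] at d1
    refine ⟨2 * L, p, (t₂ + p - 2 * L) / p, by omega, by omega, by omega, by omega, ?_⟩
    intro u hu hu'
    obtain ⟨t, -, e, a3, a4⟩ := cover (t₂ + p - u) u (by omega) hu
    obtain ⟨x, rfl⟩ : ∃ x, u = t + x := ⟨u - t, by omega⟩
    have z1 := seg_ext.1 (henc e)
    have z2 := seg_ext.1 (henc e2)
    rw [add_assoc t, z1 _ (by omega), z1 _ (by omega), ← z2 (x + p) (by omega)]
    congr 1; omega

end Vale.Agent.P329
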