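import Vale.Agent.P329.SH
import Vale.Agent.P329.Marker

/-! Finite automata are simulated in height one on words with boundedly many markers. -/

namespace Vale.Agent.P329

theorem exists_period (S : Type) [Finite S] :
    ∃ E, 0 < E ∧ ∀ (f : S → S) (m k : ℕ), E ≤ m → f^[m + E * k] = f^[m] := by
  classical
  have := Fintype.ofFinite (S → S)
  have H : ∀ f : S → S, ∃ a d, 0 < d ∧ f^[a + d] = f^[a] := by
    intro f
    obtain ⟨x, y, hne, h⟩ := Finite.exists_ne_map_eq_of_infinite (fun n : ℕ => f^[n])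
    rcases lt_or_gt_of_ne hne with h1 | h1
    · exact ⟨x, y - x, by omega, by rw [Nat.add_sub_cancel' h1.le]; exact h.symm⟩
    · exact ⟨y, x - y, by omega, by rw [Nat.add_sub_cancel' h1.le]; exact h⟩
  choose a d hd h using H
  refine ⟨(∑ f, (a f + d f)).factorial, Nat.factorial_pos _, fun f m k hm => ?_⟩
  have h1 : a f + d f ≤ ∑ f, (a f + d f) :=
    Finset.single_le_sum (f := fun f => a f + d f) (fun _ _ => Nat.zero_le _) (Finset.mem_univ f)
  have h2 := Nat.self_le_factorial (∑ f, (a f + d f))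
  obtain ⟨c, hc⟩ := Nat.dvd_factorial (hd f) (show d f ≤ ∑ f, (a f + d f) by omega)
  obtain ⟨x, rfl⟩ : ∃ x, m = x + a f := ⟨m - a f, by omega⟩
  rw [hc, mul_assoc]
  generalize c * k = n
  induction n with
  | zero => rfl
  | succ n ih =>
    rw [show x + a f + d f * (n + 1) = x + d f * n + (a f + d f) by ring, Function.iterate_add,
      h, ← Function.iterate_add, ← ih]
    congr 1; ring

variable {α : Type} {L : ℕ}

/-- The `k`-th power of a word. -/
def pw (p : List α) (k : ℕ) : List α := (List.replicate k p).flatten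

theorem pw_succ (p : List α) (k : ℕ) : pw p (k + 1) = p ++ pw p k := by
  simp [pw, List.replicate_succ]

theorem pw_add (p : List α) (k l : ℕ) : pw p (k + l) = pw p k ++ pw p l := by
  rw [pw, List.replicate_add, List.flatten_append]; rfl

theorem pw_mul (p : List α) (k l : ℕ) : pw (pw p k) l = pw p (k * l) := by
  induction l with
  | zero => rfl
  | succ l ih => rw [pw_succ, ih, Nat.mul_succ, add_comm, pw_add]

theorem pw_length (p : List α) (k : ℕ) : (pw p k).length = k * p.length := by simp [pw]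

theorem str_pw {q u : List α} : Str (· = q) u ↔ ∃ k, u = pw q k := by
  constructor
  · rintro ⟨l, rfl, h⟩
    exact ⟨l.length, congrArg List.flatten (List.eq_replicate_iff.2 ⟨rfl, h⟩)⟩
  · rintro ⟨k, rfl⟩
    exact ⟨_, rfl, fun y hy => (List.mem_replicate.1 hy).2⟩

theorem run_pw {S : Type} (δ : S → α → S) (p : List α) (k : ℕ) (σ : S) :
    run δ σ (pw p k) = (fun σ => run δ σ p)^[k] σ := by
  induction k generalizing σ with
  | zero => rfl
  | succ k ih => rw [pw_succ, run_append, ih, Function.iterate_succ_apply]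

theorem seg_pw (w : ℕ → α) (p k : ℕ) : ∀ a, (∀ t, a ≤ t → t + p < a + k * p → w (t + p) = w t) →
    seg w a (a + k * p) = pw (seg w a (a + p)) k := by
  induction k with
  | zero => intro a _; simp [pw]
  | succ k ih =>
    intro a h
    have e : a + (k + 1) * p = a + p + k * p := by ring
    rw [pw_succ, e, ← seg_append w (Nat.le_add_right a p) (Nat.le_add_right _ _),
      ih (a + p) fun t h1 h2 => h t (by omega) (by omega)]
    rcases k with _ | k
    · rfl
    · have : seg w (a + p) (a + p + p) = seg w a (a + p) :=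
        seg_ext.2 fun i hi => by
          rw [← h (a + i) (by omega) (by nlinarith)]; congr 1; omega
      rw [this]

namespace Marker

variable (M : Marker α L)

/-- An occurrence of a pattern ends at time `τ`. -/
def Mk (w : ℕ → α) (τ : ℕ) : Prop := ∃ s, τ = s + 5 * L ∧ M.Pat fun i => w (s + i)

open Classical in
/-- The number of marks in `(a, b]`. -/
noncomputable def cnt (w : ℕ → α) (a b : ℕ) : ℕ := ((Finset.Ioc a b).filter (M.Mk w)).card

variable [Inhabited α]

def PatL (z : List α) : Prop := z.length = 5 * L ∧ M.Pat fun i => z.getD i default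

def MF (u : List α) : Prop := ¬ Cat (fun _ => True) (Cat M.PatL fun _ => True) u

def D : ℕ → List α → Prop
  | 0 => M.MF
  | B + 1 => fun u => D B u ∨ Cat M.MF (Cat (fun z => ∃ a, z = [a]) (D B)) u

variable {M}

theorem patL_seg (w : ℕ → α) (s : ℕ) :
    M.PatL (seg w s (s + 5 * L)) ↔ M.Pat fun i => w (s + i) := by
  have e : ∀ i < 5 * L, (seg w s (s + 5 * L)).getD i default = w (s + i) := fun i hi => by
    rw [List.getD_eq_getElem _ _ (by simpa using hi), seg_getElem]
  exact ⟨fun h => M.loc _ _ e h.2, fun h => ⟨by simp, M.loc _ _ (fun i hi => (e i hi).symm) h⟩⟩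

theorem MF.left {u v : List α} (h : M.MF (u ++ v)) : M.MF u := by
  rintro ⟨a, _, rfl, -, b, c, rfl, hb, -⟩
  exact h ⟨a, b ++ (c ++ v), by simp, trivial, b, _, rfl, hb, trivial⟩

theorem D.of_MF {u : List α} (h : M.MF u) : ∀ B, M.D B u
  | 0 => h
  | B + 1 => Or.inl (D.of_MF h B)

theorem D.left : ∀ {B : ℕ} {u v : List α}, M.D B (u ++ v) → M.D B u
  | 0, _, _, h => MF.left h
  | B + 1, u, v, h => by
    rcases h with h | ⟨a, _, e, ha, _, c, rfl, ⟨x, rfl⟩, hc⟩
    · exact Or.inl (D.left h)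
    rcases List.append_eq_append_iff.1 e with ⟨y, rfl, -⟩ | ⟨y, rfl, e'⟩
    · exact D.of_MF ha.left _
    rcases y with _ | ⟨y, l⟩
    · exact D.of_MF (by simpa using ha) _
    · obtain ⟨rfl, rfl⟩ : x = y ∧ c = l ++ v := by simpa using e'
      exact Or.inr ⟨a, _, rfl, ha, [x], l, rfl, ⟨x, rfl⟩, D.left hc⟩

theorem MF_seg (hL : 0 < L) {w : ℕ → α} {a b : ℕ} (hab : a ≤ b)
    (h : ∀ τ, a < τ → τ ≤ b → ¬ M.Mk w τ) : M.MF (seg w a b) := by
  rintro ⟨x, _, e, -, z, y, rfl, hz, -⟩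
  obtain ⟨h1, -, h2⟩ := seg_split hab e
  obtain ⟨h3, h4, -⟩ := seg_split h1 h2.symm
  rw [hz.1] at h3 h4
  exact h _ (by omega) h3 ⟨_, rfl, (patL_seg w _).1 (h4 ▸ hz)⟩

omit [Inhabited α] in
theorem cnt_add (w : ℕ → α) {a b c : ℕ} (h1 : a ≤ b) (h2 : b ≤ c) :
    M.cnt w a b + M.cnt w b c = M.cnt w a c := by
  classical
  unfold cnt
  rw [← Finset.card_union_of_disjoint, ← Finset.filter_union, Finset.Ioc_union_Ioc_eq_Ioc h1 h2]
  exact Finset.disjoint_filter_filter (Finset.Ioc_disjoint_Ioc_of_le le_rfl)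

omit [Inhabited α] in
theorem cnt_eq_zero {w : ℕ → α} {a b : ℕ} :
    M.cnt w a b = 0 ↔ ∀ τ, a < τ → τ ≤ b → ¬ M.Mk w τ := by
  simp [cnt, Finset.filter_eq_empty_iff]

omit [Inhabited α] in
/-- The first mark after `a`. -/
theorem exists_first {w : ℕ → α} {a b : ℕ} (h : 0 < M.cnt w a b) :
    ∃ τ, a < τ ∧ τ ≤ b ∧ M.Mk w τ ∧ (∀ t, a < t → t < τ → ¬ M.Mk w t) ∧ M.cnt w a τ = 1 := by
  classical
  have H : ∃ τ, a < τ ∧ τ ≤ b ∧ M.Mk w τ := by
    by_contra hn
    push Not at hn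
    rw [cnt_eq_zero.2 hn] at h; omega
  obtain ⟨h1, h2, h3⟩ := Nat.find_spec H
  have h4 : ∀ t, a < t → t < Nat.find H → ¬ M.Mk w t :=
    fun t a1 a2 a3 => Nat.find_min H a2 ⟨a1, by omega, a3⟩
  refine ⟨_, h1, h2, h3, h4, Finset.card_eq_one.2 ⟨Nat.find H, ?_⟩⟩
  ext t
  simp only [Finset.mem_filter, Finset.mem_Ioc, Finset.mem_singleton]
  exact ⟨fun ⟨⟨a1, a2⟩, a3⟩ => by by_contra hn; exact h4 t a1 (by omega) a3,
    by rintro rfl; exact ⟨⟨h1, le_rfl⟩, h3⟩⟩

theorem D_seg (hL : 0 < L) (w : ℕ → α) (b : ℕ) : ∀ B a, a ≤ b → M.cnt w a b ≤ B →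
    M.D B (seg w a b)
  | 0, _, hab, h => MF_seg hL hab (cnt_eq_zero.1 (Nat.le_zero.1 h))
  | B + 1, a, hab, h => by
    by_cases h0 : M.cnt w a b ≤ B
    · exact Or.inl (D_seg hL w b B a hab h0)
    obtain ⟨τ, h1, h2, -, h4, h5⟩ := exists_first (show 0 < M.cnt w a b by omega)
    obtain ⟨t, rfl⟩ : ∃ t, τ = t + 1 := ⟨τ - 1, by omega⟩
    have := cnt_add (M := M) w h1.le h2
    refine Or.inr ⟨seg w a t, seg w t b, (seg_append w (by omega) (by omega)).symm,
      MF_seg hL (by omega) fun x a1 a2 => h4 x a1 (by omega), seg w t (t + 1), seg w (t + 1) b,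
      (seg_append w (by omega) h2).symm, ⟨_, seg_one w t⟩, D_seg hL w b B _ h2 (by omega)⟩

variable [Finite α]

theorem sh_MF : SH 0 M.MF := by
  have : SH 0 M.PatL := (SH.exSet (List.finite_length_eq α (5 * L))
    (R := fun z u => M.PatL z ∧ u = z) fun z _ => SH.guard fun _ => SH.word z).congr
    fun u => ⟨by rintro ⟨z, -, h, rfl⟩; exact h, fun h => ⟨u, h.1, h, rfl⟩⟩
  exact (SH.top.cat (this.cat SH.top)).not

variable {S : Type} [Finite S] (δ : S → α → S)

theorem sh_MF_run (σ τ : S) : SH 1 (fun u => M.MF u ∧ run δ σ u = τ) := by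
  obtain ⟨E, hE, hper⟩ := exists_period S
  have fin := List.finite_length_le α (M.X + 2 * E * M.X)
  refine ((sh_MF (M := M).mono zero_le_one).and (SH.exSet (fin.prod (fin.prod fin))
    (R := fun i u => (∀ k, run δ σ (i.1 ++ (pw i.2.1 k ++ i.2.2)) = τ) ∧
      Cat (· = i.1) (Cat (Str (· = i.2.1)) (· = i.2.2)) u) fun i _ => SH.guard fun _ =>
      (SH.word _).cat ((SH.word (h := 0) _).star.cat (SH.word _)))).congr fun u =>
      and_congr_right fun hu => ⟨?_, fun hτ => ?_⟩
  · rintro ⟨i, -, h, _, _, rfl, rfl, x, _, rfl, hx, rfl⟩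
    obtain ⟨k, rfl⟩ := str_pw.1 hx
    exact h k
  set w : ℕ → α := fun i => u.getD i default
  have hw : u = seg w 0 u.length := eq_seg u
  obtain ⟨a, p, k, h1, h2, h3, h4, h5⟩ := M.per w u.length fun s hs hp =>
    hu ⟨seg w 0 s, seg w s u.length, by rw [seg_append w (by omega) (by omega)]; exact hw,
      trivial, seg w s (s + 5 * L), _, (seg_append w (by omega) hs).symm, (patL_seg w s).2 hp,
      trivial⟩
  have e : u = seg w 0 a ++ (pw (seg w a (a + p)) k ++ seg w (a + k * p) u.length) := by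
    rw [← seg_pw w p k a h5, seg_append w (by omega) h3, seg_append w (by omega) (by omega)]
    exact hw
  generalize hq : seg w a (a + p) = q at e
  have lq : q.length ≤ M.X := by simp [← hq, h2]
  by_cases hk : k < E
  · refine ⟨(seg w 0 a ++ pw q k, [], seg w (a + k * p) u.length), ⟨?_, by simp, by simp; omega⟩,
      fun j => ?_, _, _, ?_, rfl, [], _, rfl, Str.nil, rfl⟩
    · simp only [Set.mem_ofPred_eq, List.length_append, pw_length, seg_length]
      have : k * q.length ≤ 2 * E * M.X := Nat.mul_le_mul (by omega) lq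
      omega
    · rw [← hτ]; congr 1; conv_rhs => rw [e]
      simp [pw]
    · conv_lhs => rw [e]
      simp
  · obtain ⟨c, j, hc, hc', rfl⟩ : ∃ c j, E ≤ c ∧ c ≤ 2 * E ∧ k = c + E * j :=
      ⟨E + (k - E) % E, (k - E) / E, by omega, by have := Nat.mod_lt (k - E) hE; omega,
        by have := Nat.mod_add_div (k - E) E; omega⟩
    refine ⟨(seg w 0 a ++ pw q c, pw q E, seg w (a + (c + E * j) * p) u.length),
      ⟨?_, ?_, by simp; omega⟩, fun i => ?_, _, _, ?_, rfl, pw (pw q E) j, _, rfl,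
      str_pw.2 ⟨j, rfl⟩, rfl⟩
    · simp only [Set.mem_ofPred_eq, List.length_append, pw_length, seg_length]
      have : c * q.length ≤ 2 * E * M.X := Nat.mul_le_mul hc' lq
      omega
    · simp only [Set.mem_ofPred_eq, pw_length]
      have : E * q.length ≤ 2 * E * M.X := Nat.mul_le_mul (by omega) lq
      omega
    · rw [← hτ]; conv_rhs => rw [e]
      simp only [List.append_assoc]
      rw [← List.append_assoc (pw q c), pw_mul, ← pw_add]
      simp only [run_append, run_pw, hper _ c _ hc]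
    · conv_lhs => rw [e]
      rw [pw_mul, pw_add]; simp

theorem sh_D_run : ∀ (B : ℕ) (σ τ : S), SH 1 (fun u => M.D B u ∧ run δ σ u = τ)
  | 0, σ, τ => sh_MF_run δ σ τ
  | B + 1, σ, τ => by
    refine ((sh_D_run B σ τ).or (SH.ex fun ρ => SH.ex fun a => (sh_MF_run (M := M) δ σ ρ).cat
      ((SH.word [a]).cat (sh_D_run B (δ ρ a) τ)))).congr fun u => ⟨?_, ?_⟩
    · rintro (⟨h1, h2⟩ | ⟨ρ, a, x, _, rfl, ⟨h1, rfl⟩, _, y, rfl, rfl, h2, rfl⟩)
      · exact ⟨Or.inl h1, h2⟩
      · exact ⟨Or.inr ⟨x, _, rfl, h1, _, y, rfl, ⟨a, rfl⟩, h2⟩, by rw [run_append]; rfl⟩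
    · rintro ⟨h1 | ⟨x, _, rfl, h1, _, y, rfl, ⟨a, rfl⟩, h2⟩, h3⟩
      · exact Or.inl ⟨h1, h3⟩
      · exact Or.inr ⟨_, a, x, _, rfl, ⟨h1, rfl⟩, _, y, rfl, rfl, h2,
          by rw [← h3, run_append]; rfl⟩

theorem sh_D (B : ℕ) : SH 1 (M.D B) :=
  (sh_D_run (M := M) (fun (_ : Unit) (_ : α) => ()) B () ()).congr fun _ => by simp

theorem sh_D_avoid (B : ℕ) (K : S → Prop) (σ : S) :
    SH 1 (fun u => M.D B u ∧ Avoid δ K σ u) := by
  have H := fun τ => Comp.ff (δ := δ) (h := 1) (A := M.D B) (K := K) (σ := σ)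
    (fun _ _ => D.left) (fun τ => ⟨_, sh_D_run (M := M) δ B σ τ, fun u hu => by simp [hu.1]⟩) τ
  choose P h1 h2 using H
  exact ((sh_D B).and (SH.ex h1)).congr fun u => and_congr_right fun hu => by simp [h2 _ u hu]

end Marker

end Vale.Agent.P329
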