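import Vale.Agent.P329.BLevel

/-! The four levels are assembled. -/

namespace Vale.Agent.P329

open Function
open scoped Classical

variable {α V : Type} {L K h : ℕ}

theorem Comp.pair {S S' : Type} [Finite S] {δ : S → α → S} {δ' : S' → α → S'}
    {A A' : List α → Prop} {R : S → S → S' → Prop}
    (step : ∀ σ₁ σ₂ τ a, R σ₁ σ₂ τ → R (δ σ₁ a) (δ σ₂ a) (δ' τ a))
    (func : ∀ σ₁ σ₂ τ τ', R σ₁ σ₂ τ → R σ₁ σ₂ τ' → τ = τ') {σ₁ σ₂ : S} {τ : S'}
    (h1 : Comp δ h A σ₁) (h2 : Comp δ h A σ₂) (h0 : R σ₁ σ₂ τ) (hA : ∀ u, A' u → A u) :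
    Comp δ' h A' τ := by
  have hR : ∀ (u : List α) σ₁ σ₂ τ, R σ₁ σ₂ τ → R (run δ σ₁ u) (run δ σ₂ u) (run δ' τ u) := by
    intro u
    induction u with
    | nil => exact fun _ _ _ h => h
    | cons a u ih => exact fun _ _ _ h => ih _ _ _ (step _ _ _ a h)
  choose L₁ a1 b1 using h1
  choose L₂ a2 b2 using h2
  intro τ'
  refine ⟨_, SH.ex fun ρ : S × S => SH.guard (p := R ρ.1 ρ.2 τ') fun _ => (a1 ρ.1).and (a2 ρ.2),
    fun u hu => ⟨?_, ?_⟩⟩
  · rintro ⟨ρ, c0, c1, c2⟩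
    have := hR u _ _ _ h0
    rw [(b1 _ u (hA u hu)).1 c1, (b2 _ u (hA u hu)).1 c2] at this
    exact func _ _ _ _ this c0
  · rintro rfl
    exact ⟨(_, _), hR u _ _ _ h0, (b1 _ u (hA u hu)).2 rfl, (b2 _ u (hA u hu)).2 rfl⟩

theorem split3 (w : ℕ → α) {j e N : ℕ} (h1 : j ≤ e) (h2 : e ≤ N) :
    seg w 0 N = seg w 0 j ++ (seg w j e ++ seg w e N) := by
  rw [seg_append w h1 h2, seg_append w (Nat.zero_le _) (h1.trans h2)]

theorem finite_finsupp (V : Type) [Finite V] : Finite (V →₀ ZMod 2) :=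
  Finite.of_injective _ DFunLike.coe_injective

attribute [local instance] finite_finsupp

variable [Inhabited α] [Finite α]

theorem sh_dec (M : Marker α L) {S : Type} [Finite S] (δ : S → α → S) (B : ℕ) (C : S → Prop)
    {A : S → List α → Prop} (hA : ∀ σ, SH 1 fun u => M.D B u ∧ A σ u) (ρ : S) :
    SH 1 fun u => M.D B u ∧ ∀ σ, C σ → A σ u → run δ σ u = ρ :=
  ((Marker.sh_D B).and (SH.all fun σ => (SH.guard (p := C σ) fun _ => hA σ).imp
    (Marker.sh_D_run (M := M) δ B σ ρ))).congr fun u => and_congr_right fun hu => by simp [hu]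

namespace Par

variable [AddCommGroup V] [Finite V] [NeZero L] (P : Par α V L)

theorem sh_alive (B : ℕ) (c : CS α L) : SH 1 fun u => P.M.D B u ∧ P.AliveA c u :=
  (SH.ex fun x => Marker.sh_D_avoid (M := P.M) P.astep B (· = (off α L 0, 0)) (c, x)).congr
    fun u => by simp [AliveA]

/-- The root states of the inner levels. -/
def KB (σ : CS α L × BS V K × (V → V)) : Prop :=
  σ.1 = off α L 0 ∧ σ.2.1.2.2.2 = false ∧ σ.2.1.1 = 0

/-- The states at anchors. -/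
def EB (σ : CS α L × BS V K × (V → V)) : Prop := σ.1 = off α L 0 ∧ σ.2.2 = id

variable {T r : ℕ} (hG : P.Good T r) {code : Fin (2 * r) × BS V K → ℕ}
  (c1 : ∀ a, 1 ≤ code a) (c2 : ∀ a, code a ≤ P.ℓ)
  (sidon : ∀ a b c d, a ≠ b → code a + code d = code c + code b → a = c)

include hG c1 c2 sidon

omit [Inhabited α] [Finite α] [Finite V] [NeZero L] in
theorem cut (G : ZMod K × (ZMod K → V → V) → V →₀ ZMod 2) {w : ℕ → α} {f : ℕ → ℕ} {M : ℕ}
    (hf : ∀ i < M, P.Next w (f i) (f (i + 1))) {i₀ : ℕ} (hi : i₀ + (7 * T + 8) ≤ M)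
    {σ : CS α L × BS V K × (V → V)} {β : BS V K}
    (h : tr (P.bstep G) w σ 0 (f i₀) = (off α L 0, β, id)) :
    ∃ i j al, 0 < j ∧ j < f (i₀ + 1) ∧
      tr (P.bstep G) w σ 0 j = (off α L (code (i, β)), β, al) ∧
      ∀ b al', P.AliveA (off α L (code b)) (seg w j (f M)) → ∃ a',
        tr (P.bstep G) w (off α L (code b), b.2, al') j (f (i₀ + 1)) =
          (off α L 0, upd G β a', id) := by
  have h1 := P.f_cnt hf i₀ (M - i₀) (by omega)
  rw [Nat.add_sub_cancel' (by omega)] at h1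
  obtain ⟨i, hi'⟩ := P.channel hG c1 c2 sidon (att := fun i => (i, β))
    (fun a b e => congrArg Prod.fst e) (w := w) (s := f i₀) (e := f M) (by omega)
  have h2 := hf i₀ (by omega)
  have := h2.1
  have := c1 (i, β); have := c2 (i, β)
  refine ⟨i, f i₀ + code (i, β), P.AS w (off α L 0) (f i₀) (f i₀ + code (i, β)), by omega,
    by omega, ?_, fun b al' hb => ?_⟩
  · rw [← tr_trans (Nat.zero_le (f i₀)) (by omega), h, h2.tr_off P G (c2 _)]
  · obtain rfl : b = (i, β) := by by_contra hn; exact hi' b hn hb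
    exact ⟨_, h2.tr_next P G (c2 _) β al'⟩

end Par

namespace Par

variable [AddCommGroup V] [Finite V] [NeZero L] (P : Par α V L)
  {T r TB : ℕ} [NeZero (2 * TB)] (hG : P.Good T r) {code : Fin (2 * r) × BS V (2 * TB) → ℕ}
  (c1 : ∀ a, 1 ≤ code a) (c2 : ∀ a, code a ≤ P.ℓ)
  (sidon : ∀ a b c d, a ≠ b → code a + code d = code c + code b → a = c)
  {G : ZMod (2 * TB) × (ZMod (2 * TB) → V → V) → V →₀ ZMod 2}

include hG c1 c2 sidon

theorem level2 (hB : GoodB TB G) (σ₀ : CS α L × BS V (2 * TB) × (V → V)) (h₀ : EB σ₀) :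
    Comp (P.bstep G) 2 (fun u => P.AliveA σ₀.1 u ∧ Avoid (P.bstep G) KB σ₀ u) σ₀ := by
  obtain ⟨M, hM⟩ : ∃ M, M = 4 * TB + 7 * T + 10 := ⟨_, rfl⟩
  refine decode (S := CS α L × BS V (2 * TB) × (V → V)) (δ := P.bstep G) (h := 1)
    (A := fun σ u => P.AliveA σ.1 u ∧ Avoid (P.bstep G) KB σ u) (E := EB)
    (C := fun σ => ∃ b, σ.1 = off α L (code b) ∧ σ.2.1 = b.2)
    (T := fun σ τ u => P.M.D (7 * M) u ∧ run (P.bstep G) σ u = τ)
    (fun _ _ _ h => ⟨AliveA.left P h.1, h.2.left⟩)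
    (fun _ _ _ h => ⟨AliveA.right P G h.1, h.2.right⟩)
    (fun σ _ τ => Marker.sh_D_run _ _ σ τ)
    (sh_dec P.M (P.bstep G) (7 * M) _ fun σ => ((P.sh_alive (7 * M) σ.1).and
      (Marker.sh_D_avoid (M := P.M) (P.bstep G) (7 * M) KB σ)).congr fun u => by tauto)
    (fun _ _ _ _ h _ => h.2) (fun _ σ _ h a b => h.2 σ a b) ?_ σ₀ h₀
  rintro ⟨_, β₀, _⟩ u ⟨rfl, rfl⟩ -
  obtain ⟨w, N, rfl⟩ : ∃ w N, u = seg w 0 N := ⟨_, _, eq_seg u⟩
  by_cases hc : P.M.cnt w 0 N ≤ 7 * M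
  · exact Or.inl ⟨Marker.D_seg P.pos w N _ 0 (Nat.zero_le _) hc, rfl⟩
  obtain ⟨f, f0, hf, f1, -, f2⟩ :=
    Marker.enum (w := w) (e := N) P.exists_next M 0 (Nat.zero_le _) (by omega)
  have S := P.f_seq G hf (off α L 0, β₀, id) (j := 0) (i₁ := 0) (Nat.zero_le _)
    (by rw [f0, tr_self])
  obtain ⟨i₀, a1, -, a2⟩ := partner_dies hB (M := M) (by omega)
    (β := fun i => (tr (P.bstep G) w (off α L 0, β₀, id) 0 (f i)).2.1)
    (A := fun i => P.AS w (off α L 0) (f i) (f (i + 1))) fun i hi => (S i (Nat.zero_le _)).2 hi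
  obtain ⟨i, j, al, b1, b2, b3, b4⟩ := P.cut hG c1 c2 sidon G hf (i₀ := i₀) (by omega)
    ((S i₀ (Nat.zero_le _)).1 (by omega))
  have b5 := P.f_le hf (show i₀ + 1 ≤ M by omega) le_rfl
  have b6 := Marker.cnt_add (M := P.M) w (Nat.zero_le j) (show j ≤ f M by omega)
  refine Or.inr ⟨_, _, _, split3 w (show j ≤ f M by omega) f1, ?_, ⟨Marker.D_seg P.pos w j _ 0
    (Nat.zero_le _) (by omega), rfl⟩, ⟨_, congrArg (·.1) b3, congrArg (·.2.1) b3⟩,
    ⟨Marker.D_seg P.pos w _ _ j (by omega) (by omega), ?_⟩, ?_⟩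
  · rw [← List.length_pos_iff]; simp; omega
  · rintro ⟨_, _, al'⟩ ⟨b, rfl, rfl⟩ ⟨d1, d2⟩
    obtain ⟨a', d3⟩ := b4 b al' d1
    rw [seg_append w (Nat.zero_le _) (by omega)]
    by_cases d4 : a' = P.AS w (off α L 0) (f i₀) (f (i₀ + 1))
    · change tr _ w _ j (f M) = tr _ w _ 0 (f M)
      rw [← tr_trans b2.le (show f (i₀ + 1) ≤ f M by omega), d3, d4,
        ← (S i₀ (Nat.zero_le _)).2 (by omega), ← (S (i₀ + 1) (Nat.zero_le _)).1 (by omega),
        tr_trans (Nat.zero_le _) (by omega)]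
    · have S' := P.f_seq G hf _ b2.le d3
      obtain ⟨k, k1, k2, k3, k4⟩ := a2 a' d4
        (fun k => (tr (P.bstep G) w (off α L (code b), b.2, al') j (f k)).2.1)
        (by simp only [d3]) fun k a b => (S' k a).2 b
      have := P.f_le hf (show i₀ + 1 ≤ k from k1) k2.le
      have := P.f_le hf k2.le le_rfl
      exact ((avoid_seg (by omega)).1 d2 (f k) (by omega) (by omega)
        ⟨congrArg (·.1) ((S' k k1).1 k2.le), k3, k4⟩).elim
  · rw [seg_append w (Nat.zero_le _) (by omega)]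
    have := (S M (Nat.zero_le _)).1 le_rfl
    exact ⟨congrArg (·.1) this, congrArg (·.2.2) this⟩

theorem level3 (hB : GoodB TB G) (σ₀ : CS α L × BS V (2 * TB) × (V → V)) (h₀ : EB σ₀) :
    Comp (P.bstep G) 3 (P.AliveA σ₀.1) σ₀ := by
  obtain ⟨M, hM⟩ : ∃ M, M = 7 * T + 8 := ⟨_, rfl⟩
  have H := fun σ τ (hσ : EB σ) => Comp.ff (A := P.AliveA σ.1) (K := KB)
    (fun _ _ => AliveA.left P) (P.level2 hG c1 c2 sidon hB σ hσ) τ
  choose N n1 n2 using H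
  refine decode (S := CS α L × BS V (2 * TB) × (V → V)) (δ := P.bstep G) (h := 2)
    (A := fun σ => P.AliveA σ.1) (E := EB)
    (C := fun σ => ∃ b, σ.1 = off α L (code b) ∧ σ.2.1 = b.2)
    (T := fun σ τ u => ∃ ρ, Cat (fun v => ∀ hσ, N σ ρ hσ v)
      (fun v => P.M.D (7 * M) v ∧ run (P.bstep G) ρ v = τ) u)
    (fun _ _ _ => AliveA.left P) (fun _ _ _ => AliveA.right P G)
    (fun σ hσ τ => SH.ex fun ρ => ((n1 σ ρ hσ).congr fun _ => ⟨fun h _ => h, fun h => h hσ⟩).cat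
      ((Marker.sh_D_run _ _ ρ τ).mono one_le_two))
    (fun ρ => (sh_dec P.M (P.bstep G) (7 * M) _ (fun σ => P.sh_alive (7 * M) σ.1) ρ).mono
      one_le_two) ?_ (fun _ σ _ h a b => h.2 σ a b) ?_ σ₀ h₀
  · rintro σ τ _ hσ ⟨ρ, v, w, rfl, h1, -, h2⟩ hA
    rw [run_append, ((n2 σ ρ hσ v (AliveA.left P hA)).1 (h1 hσ)).2, h2]
  intro σ u hσ hA
  by_cases hK : Avoid (P.bstep G) KB σ u
  · exact Or.inl ⟨_, u, [], by simp, fun hσ => (n2 σ _ hσ u hA).2 ⟨hK, rfl⟩, by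
      simpa using Marker.D_seg (M := P.M) P.pos (fun _ => default) 0 (7 * M) 0 le_rfl
        ((Marker.cnt_le 0 0 0 (by simp)).trans (Nat.zero_le _)), rfl⟩
  obtain ⟨v, u, rfl, hv, -, k1, k2⟩ := first_hit hK
  have k3 := fun hσ => (n2 σ _ hσ v (AliveA.left P hA)).2 ⟨k2, rfl⟩
  have k4 := P.run_bstep_id G hv σ k1.1
  simp only [run_append, ← List.append_assoc]
  obtain ⟨w, N, rfl⟩ : ∃ w N, u = seg w 0 N := ⟨_, _, eq_seg u⟩
  by_cases hc : P.M.cnt w 0 N ≤ 7 * M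
  · exact Or.inl ⟨_, v, _, rfl, k3, Marker.D_seg P.pos w N _ 0 (Nat.zero_le _) hc, rfl⟩
  obtain ⟨f, f0, hf, f1, -, f2⟩ :=
    Marker.enum (w := w) (e := N) P.exists_next M 0 (Nat.zero_le _) (by omega)
  obtain ⟨β, e, p1, p2⟩ : ∃ β : BS V (2 * TB), run (P.bstep G) σ v = (off α L 0, β, id) ∧
    β.2.2.2 = false ∧ β.1 = 0 := ⟨_, Prod.ext k1.1 (Prod.ext rfl k4), k1.2⟩
  have e0 : tr (P.bstep G) w (off α L 0, β, id) 0 (f 0) = (off α L 0, β, id) := by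
    rw [f0, tr_self]
  have S := P.f_seq G hf _ (Nat.zero_le _) e0
  obtain ⟨i, j, al, b1, b2, b3, b4⟩ := P.cut hG c1 c2 sidon G hf (i₀ := 0) (by omega) e0
  have b5 := P.f_le hf (show 0 + 1 ≤ M by omega) le_rfl
  have b6 := Marker.cnt_add (M := P.M) w (Nat.zero_le j) (show j ≤ f M by omega)
  have e1 : run (P.bstep G) (run (P.bstep G) (v ++ seg w 0 j |> run (P.bstep G) σ) [])
      (seg w j (f M)) = tr (P.bstep G) w (off α L 0, β, id) 0 (f M) := by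
    rw [run_nil, run_append, e]; exact tr_trans (Nat.zero_le _) (by omega)
  rw [run_nil] at e1
  refine Or.inr ⟨v ++ seg w 0 j, seg w j (f M), seg w (f M) N, ?_, by simp [hv],
    ⟨_, v, _, rfl, k3, Marker.D_seg P.pos w j _ 0 (Nat.zero_le _) (by omega),
      (run_append _ _ _ _).symm⟩, ?_, ⟨Marker.D_seg P.pos w _ _ j (by omega) (by omega), ?_⟩, ?_⟩
  · rw [split3 w (show j ≤ f M by omega) f1]; simp
  · rw [run_append, e]
    exact ⟨_, congrArg (·.1) b3, congrArg (·.2.1) b3⟩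
  · rintro ⟨_, _, al'⟩ ⟨b, rfl, rfl⟩ d1
    obtain ⟨a', d3⟩ := b4 b al' d1
    have d4 : ∀ a, upd G β a = upd G β a' := fun a => by simp [upd, p1, p2]
    have d5 := (S 0 le_rfl).2 (by omega)
    rw [e0, d4] at d5
    rw [e1]
    change tr _ w _ j (f M) = _
    rw [← tr_trans b2.le (show f (0 + 1) ≤ f M by omega), d3, ← d5,
      ← (S (0 + 1) (Nat.zero_le _)).1 (by omega), tr_trans (Nat.zero_le _) (by omega)]
  · rw [e1]
    have := (S M (Nat.zero_le _)).1 le_rfl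
    exact ⟨congrArg (·.1) this, congrArg (·.2.2) this⟩

theorem level4 (hB : GoodB TB G) (σ₀ : CS α L × V) (h₀ : σ₀.1 = off α L 0) :
    Comp P.astep 4 (fun _ => True) σ₀ := by
  refine fun τ => ⟨_, root (E := fun σ => σ.1 = off α L 0) (r := (off α L 0, 0)) rfl ?_ σ₀ h₀ τ,
    fun _ _ => Iff.rfl⟩
  rintro ⟨_, x⟩ rfl
  refine Comp.pair (R := fun σ₁ σ₂ τ => σ₁.1 = τ.1 ∧ σ₂.1 = τ.1 ∧ σ₁.2.1.2 = σ₂.2.1.2 ∧
      σ₁.2.2 = σ₂.2.2 ∧ ∃ z, σ₁.2.1.1 = σ₂.2.1.1 + Finsupp.single z 1 ∧ σ₁.2.2 z = τ.2) ?_ ?_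
    (P.level3 hG c1 c2 sidon hB (off α L 0, (Finsupp.single x 1, fun _ => id, 0, true), id)
      ⟨rfl, rfl⟩)
    (P.level3 hG c1 c2 sidon hB (off α L 0, (0, fun _ => id, 0, true), id) ⟨rfl, rfl⟩)
    ⟨rfl, rfl, rfl, rfl, x, by simp, rfl⟩ fun u hu => ⟨x, hu⟩
  · rintro ⟨_, ⟨_, ζ⟩, al⟩ ⟨_, ⟨y, _⟩, _⟩ ⟨c, _⟩ a h
    dsimp only at h
    obtain ⟨rfl, rfl, rfl, rfl, z, rfl, rfl⟩ := h
    simp only [bstep, astep]
    split_ifs with h
    · refine ⟨h.symm, h.symm, ?_, rfl, P.act _ a (al z), ?_, rfl⟩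
      · simp only [upd]; split_ifs <;> rfl
      · simp only [upd]
        split_ifs <;> simp [Finsupp.mapDomain_add, Finsupp.mapDomain_single, add_right_comm]
    · exact ⟨rfl, rfl, rfl, rfl, z, rfl, rfl⟩
  · rintro σ₁ σ₂ τ τ' ⟨a, -, -, -, z, a1, a2⟩ ⟨b, -, -, -, z', b1, b2⟩
    obtain rfl : z = z' := Finsupp.single_left_injective one_ne_zero
      (add_left_cancel (a1.symm.trans b1))
    exact Prod.ext (a.symm.trans b) (a2.symm.trans b2)

end Par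

theorem sh_run {Q : Type} [Finite Q] (δ : Q → α → Q) (q₀ q : Q) :
    SH 4 fun u => run δ q₀ u = q := by
  have := Fintype.ofFinite (Q →₀ ZMod 2)
  have := Fintype.ofFinite ((Q →₀ ZMod 2) →₀ ZMod 2)
  obtain ⟨TB, hT, G, hB⟩ := randB ((Q →₀ ZMod 2) →₀ ZMod 2) ((Q →₀ ZMod 2) → Q →₀ ZMod 2)
    fun a p => p.mapDomain a
  have : NeZero (2 * TB) := ⟨by omega⟩
  have := Fintype.ofFinite (BS (Q →₀ ZMod 2) (2 * TB))
  obtain ⟨L, ℓ, T, r, hL, h1, h2, -, F, hG⟩ :=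
    randA (Q →₀ ZMod 2) (Fintype.card (BS (Q →₀ ZMod 2) (2 * TB)))
  have : NeZero L := ⟨hL.ne'⟩
  obtain ⟨M⟩ := exists_marker α hL
  obtain ⟨code, c1, c2, sidon⟩ := exists_code (Fin (2 * r) × BS (Q →₀ ZMod 2) (2 * TB))
  let P : Par α (Q →₀ ZMod 2) L :=
    ⟨ℓ, M, F, fun x a => x.mapDomain (δ · a), hL, h1, fun _ _ _ => Finsupp.mapDomain_add⟩
  have H := P.level4 (T := T) hG c1 (fun a => (c2 a).trans (by simpa using h2)) sidon hB
  obtain ⟨R, r1, r2⟩ := Comp.pair (δ' := δ) (A' := fun _ => True)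
    (R := fun σ₁ σ₂ q => σ₁.1 = σ₂.1 ∧ σ₁.2 = σ₂.2 + Finsupp.single q 1)
    (by
      rintro ⟨_, _⟩ ⟨c, y⟩ q a h
      dsimp only at h
      obtain ⟨rfl, rfl⟩ := h
      refine ⟨rfl, ?_⟩
      simp [Par.astep, Par.act, P, Finsupp.mapDomain_add, Finsupp.mapDomain_single,
        add_right_comm])
    (by
      intro _ _ _ _ a b
      exact Finsupp.single_left_injective (one_ne_zero' (ZMod 2))
        (add_left_cancel (a.2.symm.trans b.2) :)) (τ := q₀)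
    (H (off α L 0, Finsupp.single q₀ 1) rfl) (H (off α L 0, 0) rfl) ⟨rfl, by simp⟩
    (fun _ h => h) q
  exact r1.congr fun u => r2 u trivial

omit [Inhabited α] in
theorem main (L : Language α) (hL : L.IsRegular) : ∃ P : GRE α, P.lang = L ∧ P.sh ≤ 4 := by
  suffices H : SH 4 (· ∈ L) by
    obtain ⟨P, h1, h2⟩ := H
    exact ⟨P, Language.ext h2, h1⟩
  rcases isEmpty_or_nonempty α with h | ⟨⟨a⟩⟩
  · exact (SH.guard (p := [] ∈ L) fun _ => SH.word []).congr fun u => by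
      obtain rfl : u = [] := List.eq_nil_iff_forall_not_mem.2 fun a => isEmptyElim a
      simp
  have : Inhabited α := ⟨a⟩
  obtain ⟨Q, _, A, rfl⟩ := hL
  exact (SH.ex fun q => SH.guard (p := q ∈ A.accept) fun _ => sh_run A.step A.start q).congr
    fun u => ⟨by rintro ⟨_, h, rfl⟩; exact h, fun h => ⟨_, h, rfl⟩⟩

end Vale.Agent.P329
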