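import Vale.Agent.P329.BLevel3

/-! The three levels are assembled. -/

namespace Vale.Agent.P329

open Function
open scoped Classical

variable {α V : Type} {L H π h : ℕ}

attribute [local instance] finite_finsupp

theorem sh_short [Finite α] (n : ℕ) (R : List α → Prop) : SH h fun u => u.length ≤ n ∧ R u :=
  (SH.exSet (List.finite_length_le α n) (R := fun z u => R z ∧ u = z)
    fun z _ => SH.guard fun _ => SH.word z).congr
    fun u => ⟨by rintro ⟨z, a, b, rfl⟩; exact ⟨a, b⟩, fun h => ⟨u, h.1, h.2, rfl⟩⟩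

variable [Inhabited α]

namespace Marker

variable (M : Marker α L) (Z : ℕ)

/-- There is no long factor without markers. -/
def NL (u : List α) : Prop :=
  ¬ Cat (fun _ => True) (Cat (fun z => z.length ≤ Z ∧ Z ≤ z.length ∧ M.MF z) fun _ => True) u

theorem sh_NL [Finite α] : SH h (M.NL Z) := (SH.top.cat ((sh_short Z _).cat SH.top)).not

variable {M Z}

theorem NL.left {u v : List α} (h : M.NL Z (u ++ v)) : M.NL Z u := by
  rintro ⟨a, _, rfl, -, b, c, rfl, hb, -⟩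
  exact h ⟨a, b ++ (c ++ v), by simp, trivial, b, _, rfl, hb, trivial⟩

theorem NL.right {u v : List α} (h : M.NL Z (u ++ v)) : M.NL Z v := by
  rintro ⟨a, _, rfl, -, hb⟩
  exact h ⟨u ++ a, _, by simp, trivial, hb⟩

theorem NL.cnt (hL : 0 < L) {w : ℕ → α} {N : ℕ} (h : M.NL Z (seg w 0 N)) :
    ∀ n, n * Z ≤ N → n ≤ M.cnt w 0 (n * Z)
  | 0, _ => Nat.zero_le _
  | n + 1, hn => by
    rw [Nat.succ_mul] at hn ⊢
    have h1 := NL.cnt hL h n (by omega)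
    have h2 := cnt_add (M := M) w (Nat.zero_le (n * Z)) (Nat.le_add_right _ Z)
    have : M.cnt w (n * Z) (n * Z + Z) ≠ 0 := fun e =>
      h ⟨_, _, split3 w (Nat.le_add_right _ Z) hn, trivial, _, _, rfl,
        ⟨by simp, by simp, MF_seg hL (by omega) (cnt_eq_zero.1 e)⟩, trivial⟩
    omega

theorem not_NL {w : ℕ → α} {N : ℕ} (h : ¬ M.NL Z (seg w 0 N)) :
    ∃ t, t + Z ≤ N ∧ ∀ τ, t + 5 * L ≤ τ → τ ≤ t + Z → ¬ M.Mk w τ := by
  obtain ⟨x, _, e, -, z, y, rfl, ⟨h1, h2, hz⟩, -⟩ := not_not.1 h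
  obtain ⟨a1, -, a2⟩ := seg_split (Nat.zero_le _) e
  obtain ⟨a3, a4, -⟩ := seg_split a1 a2.symm
  rw [le_antisymm h1 h2] at a3 a4
  refine ⟨_, a3, ?_⟩
  rintro _ b1 b2 ⟨s, rfl, hs⟩
  refine hz ⟨seg w (0 + x.length) s, seg w s (0 + x.length + Z), ?_, trivial, seg w s (s + 5 * L),
    _, (seg_append w (by omega) b2).symm, (patL_seg w s).2 hs, trivial⟩
  rw [seg_append w (by omega) (by omega)]; exact a4

end Marker

namespace Par3

variable [Finite α] [AddCommGroup V] [Finite V] [NeZero L] [NeZero (2 * (H * π))]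
  (P : Par3 α V L H π)

theorem sh_alive (B : ℕ) (c : C3 α L H π) : SH 1 fun u => P.M.D B u ∧ P.AliveA c u :=
  (SH.ex fun x => Marker.sh_D_avoid (M := P.M) P.astep B (· = (of3 α L H π 0, 0)) (c, x)).congr
    fun u => by simp [AliveA]

variable {ℓ T r TB : ℕ} [NeZero (2 * TB)] (hG : P.Good ℓ T r) (hℓ : 6 * ℓ + 3 ≤ H)
  {code : Fin (80 * r) × BS V (2 * TB) × (Bool ⊕ (V → V)) → ℕ} (c2 : ∀ a, code a ≤ ℓ)
  (sidon : ∀ a b c d, a ≠ b → code a + code d = code c + code b → a = c)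
  (half : ∀ a b c, code a < code b + code c)
  {G : ZMod (2 * TB) × (ZMod (2 * TB) → V → V) → V →₀ ZMod 2} (hB : GoodB TB G)

include hG hℓ c2 sidon half hB

theorem level1 (Z : ℕ) (σ₀ : C3 α L H π × BS V (2 * TB) × (V → V)) (h₀ : EB σ₀) :
    Comp (P.bstep G) 1 (fun u => (P.AliveA σ₀.1 u ∧ P.M.NL Z u) ∧ Avoid (P.bstep G) KB σ₀ u) σ₀ := by
  obtain ⟨M, hM⟩ : ∃ M, M = 4 * TB + 19 * T + 42 := ⟨_, rfl⟩
  refine decode (S := C3 α L H π × BS V (2 * TB) × (V → V)) (δ := P.bstep G) (h := 0)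
    (A := fun σ u => (P.AliveA σ.1 u ∧ P.M.NL Z u) ∧ Avoid (P.bstep G) KB σ u) (E := EB)
    (C := Cut code) (T := fun σ τ u => u.length ≤ (19 * M + 1) * Z ∧ run (P.bstep G) σ u = τ)
    (fun _ _ _ h => ⟨⟨AliveA.left P h.1.1, h.1.2.left⟩, h.2.left⟩)
    (fun _ _ _ h => ⟨⟨AliveA.right P G h.1.1, h.1.2.right⟩, h.2.right⟩)
    (fun σ _ τ => sh_short _ _)
    (fun ρ => sh_short ((19 * M + 1) * Z) fun u => ∀ σ, Cut code σ → (P.AliveA σ.1 u ∧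
      P.M.NL Z u) ∧ Avoid (P.bstep G) KB σ u → run (P.bstep G) σ u = ρ)
    (fun _ _ _ _ h _ => h.2) (fun _ σ _ h a b => h.2 σ a b) ?_ σ₀ h₀
  rintro ⟨_, β₀, _⟩ u ⟨rfl, rfl⟩ ⟨⟨-, hA⟩, -⟩
  obtain ⟨w, N, rfl⟩ : ∃ w N, u = seg w 0 N := ⟨_, _, eq_seg u⟩
  by_cases hc : N ≤ (19 * M + 1) * Z
  · exact Or.inl ⟨by simpa using hc, rfl⟩
  obtain ⟨f, f0, hf, f1, -, -⟩ := Marker.enum (w := w) P.exists_next M 0 (Nat.zero_le _)
    (hA.cnt P.pos (19 * M + 1) (by omega))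
  have S := P.f_seq G hf (of3 α L H π 0, β₀, id) (j := 0) (i₁ := 0) (Nat.zero_le _)
    (by rw [f0, tr_self])
  obtain ⟨i₀, a1, -, a2⟩ := partner_dies hB (M := M) (by omega)
    (β := fun i => (tr (P.bstep G) w (of3 α L H π 0, β₀, id) 0 (f i)).2.1)
    (A := fun i => P.AS w (of3 α L H π 0) (f i) (f (i + 1))) fun i hi => (S i (Nat.zero_le _)).2 hi
  obtain ⟨j, -, b2, b3, b4⟩ := P.cutK G hf hG hℓ c2 sidon half (i₀ := i₀) (by omega)
    ((S i₀ (Nat.zero_le _)).1 (by omega))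
  have b5 := P.f_le hf (show i₀ + 1 ≤ M by omega) le_rfl
  refine Or.inr ⟨_, _, _, split3 w (show j ≤ f M by omega) (by omega), ?_, ⟨by simp; omega, rfl⟩,
    b3, ⟨by simp; omega, ?_⟩, ?_⟩
  · rw [← List.length_pos_iff]; simp; omega
  · rintro σ' d0 ⟨⟨d1, -⟩, d2⟩
    obtain ⟨a', d3⟩ := b4 σ' d0 d1
    rw [seg_append w (Nat.zero_le _) (by omega)]
    by_cases d4 : a' = P.AS w (of3 α L H π 0) (f i₀) (f (i₀ + 1))
    · change tr _ w _ j (f M) = tr _ w _ 0 (f M)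
      rw [← tr_trans b2.le (show f (i₀ + 1) ≤ f M by omega), d3, d4,
        ← (S i₀ (Nat.zero_le _)).2 (by omega), ← (S (i₀ + 1) (Nat.zero_le _)).1 (by omega),
        tr_trans (Nat.zero_le _) (by omega)]
    · have S' := P.f_seq G hf _ b2.le d3
      obtain ⟨k, k1, k2, k3, k4⟩ := a2 a' d4 (fun k => (tr (P.bstep G) w σ' j (f k)).2.1)
        (by simp only [d3]) fun k a b => (S' k a).2 b
      have := P.f_le hf (show i₀ + 1 ≤ k from k1) k2.le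
      have := P.f_le hf k2.le le_rfl
      exact ((avoid_seg (by omega)).1 d2 (f k) (by omega) (by omega)
        ⟨congrArg (·.1) ((S' k k1).1 k2.le), k3, k4⟩).elim
  · rw [seg_append w (Nat.zero_le _) (by omega)]
    have := (S M (Nat.zero_le _)).1 le_rfl
    exact ⟨congrArg (·.1) this, congrArg (·.2.2) this⟩

variable (hp : ∀ (w : ℕ → α) (s : ℕ), (∀ τ, s + 18 * L ≤ τ → τ ≤ s + 2 * (H * π) → ¬ P.M.Mk w τ) →
  ∀ n < H, ∀ x, tr P.pu w x s (s + π * (n + 1)) = tr P.pu w x s (s + π))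

include hp

theorem level2 (σ₀ : C3 α L H π × BS V (2 * TB) × (V → V)) (h₀ : EB σ₀) :
    Comp (P.bstep G) 2 (P.AliveA σ₀.1) σ₀ := by
  have hL := P.pos
  obtain ⟨M, hM⟩ : ∃ M, M = 19 * T + 40 := ⟨_, rfl⟩
  obtain ⟨Z, hZ⟩ : ∃ Z, Z = 2 * (H * π) + 6 * L + 1 := ⟨_, rfl⟩
  have H1 := fun σ τ (hσ : EB σ) => Comp.ff (A := fun u => P.AliveA σ.1 u ∧ P.M.NL Z u) (K := KB)
    (fun _ _ h => ⟨AliveA.left P h.1, h.2.left⟩) (P.level1 hG hℓ c2 sidon half hB Z σ hσ) τ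
  choose N n1 n2 using H1
  refine decode (S := C3 α L H π × BS V (2 * TB) × (V → V)) (δ := P.bstep G) (h := 1)
    (A := fun σ => P.AliveA σ.1) (E := EB) (C := Cut code)
    (T := fun σ τ u => ∃ ρ, Cat (fun v => P.M.NL Z v ∧ ∀ hσ, N σ ρ hσ v)
      (fun v => P.M.D (19 * M) v ∧ run (P.bstep G) ρ v = τ) u)
    (fun _ _ _ => AliveA.left P) (fun _ _ _ => AliveA.right P G)
    (fun σ hσ τ => SH.ex fun ρ => ((P.M.sh_NL Z).and ((n1 σ ρ hσ).congr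
      fun _ => ⟨fun h _ => h, fun h => h hσ⟩)).cat (Marker.sh_D_run _ _ ρ τ))
    (fun ρ => sh_dec P.M (P.bstep G) (19 * M) _ (fun σ => P.sh_alive (19 * M) σ.1) ρ) ?_
    (fun _ σ _ h a b => h.2 σ a b) ?_ σ₀ h₀
  · rintro σ τ _ hσ ⟨ρ, v, w, rfl, h1, -, h2⟩ hA
    rw [run_append, ((n2 σ ρ hσ v ⟨AliveA.left P hA, h1.1⟩).1 (h1.2 hσ)).2, h2]
  rintro ⟨_, β₀, _⟩ u ⟨rfl, rfl⟩ hA
  obtain ⟨w, e, rfl⟩ : ∃ w N, u = seg w 0 N := ⟨_, _, eq_seg u⟩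
  obtain ⟨σ, hσ⟩ : ∃ σ : C3 α L H π × BS V (2 * TB) × (V → V), σ = (of3 α L H π 0, β₀, id) :=
    ⟨_, rfl⟩
  rw [← hσ] at hA ⊢
  let good : ℕ → Prop := fun t => P.M.NL Z (seg w 0 t) ∧ Avoid (P.bstep G) KB σ (seg w 0 t)
  obtain ⟨t₁, g1, g2, g3⟩ : ∃ t₁ ≤ e, good t₁ ∧ (t₁ < e → ¬ good (t₁ + 1)) :=
    ⟨Nat.findGreatest good e, Nat.findGreatest_le e,
      Nat.findGreatest_spec (Nat.zero_le e) ⟨fun h => by
        obtain ⟨t, h, -⟩ := Marker.not_NL (not_not.2 h); omega,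
        (avoid_seg le_rfl).2 fun t a b => by omega⟩,
      fun h => Nat.findGreatest_is_greatest (Nat.lt_succ_self _) h⟩
  have k3 : ∀ t ≤ t₁, ∀ t', t ≤ t' → P.M.cnt w t t' ≤ 19 * M → ∃ ρ, Cat
      (fun v => P.M.NL Z v ∧ ∀ hσ, N σ ρ hσ v) (fun v => P.M.D (19 * M) v ∧
        run (P.bstep G) ρ v = run (P.bstep G) σ (seg w 0 t')) (seg w 0 t') := by
    intro t ht t' h1 h2
    simp only [good] at g2
    rw [← seg_append w (Nat.zero_le t) ht] at g2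
    rw [← seg_append w (Nat.zero_le t) (ht.trans g1)] at hA
    rw [← seg_append w (Nat.zero_le t) h1]
    exact ⟨_, _, _, rfl, ⟨g2.1.left, fun hσ => (n2 σ _ hσ _ ⟨AliveA.left P hA, g2.1.left⟩).2
      ⟨g2.2.left, rfl⟩⟩, Marker.D_seg hL w _ _ _ h1 h2, (run_append _ _ _ _).symm⟩
  by_cases hc : P.M.cnt w t₁ e ≤ 19 * M
  · exact Or.inl (k3 t₁ le_rfl e g1 hc)
  have g4 : t₁ < e := g1.lt_of_ne (by
    rintro rfl; exact hc ((Marker.cnt_le 0 _ _ (by omega)).trans (Nat.zero_le _)))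
  suffices main : ∃ (f : ℕ → ℕ) (β : BS V (2 * TB)) (t j : ℕ),
      (∀ i < M, P.Next w (f i) (f (i + 1))) ∧ f M ≤ e ∧ P.M.cnt w (f 0) (f M) ≤ 19 * M ∧
      tr (P.bstep G) w σ 0 (f 0) = (of3 α L H π 0, β, id) ∧ f 0 ≤ t ∧ t ≤ t₁ ∧ t ≤ j ∧ j < f M ∧
      Cut code (tr (P.bstep G) w σ 0 j) ∧ ∀ σ', Cut code σ' → P.AliveA σ'.1 (seg w j (f M)) →
        tr (P.bstep G) w σ' j (f M) = tr (P.bstep G) w σ 0 (f M) by
    obtain ⟨f, β, t, j, hf, a1, a2, a3, a4, a5, a6, a7, a8, a9⟩ := main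
    have b1 := Marker.cnt_add (M := P.M) w a4 a6
    have b2 := Marker.cnt_add (M := P.M) w (a4.trans a6) a7.le
    refine Or.inr ⟨_, _, _, split3 w a7.le a1, ?_, k3 t a5 j a6 (by omega), a8,
      ⟨Marker.D_seg hL w _ _ j a7.le (by omega), ?_⟩, ?_⟩
    · rw [← List.length_pos_iff]; simp; omega
    · rw [seg_append w (Nat.zero_le _) a7.le]; exact a9
    · rw [seg_append w (Nat.zero_le _) a7.le]
      have := (P.f_seq G hf σ (Nat.zero_le _) a3 M (Nat.zero_le _)).1 le_rfl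
      exact ⟨congrArg (·.1) this, congrArg (·.2.2) this⟩
  by_cases hK : Avoid (P.bstep G) KB σ (seg w 0 (t₁ + 1))
  · obtain ⟨t, b1, b2⟩ := Marker.not_NL fun h => g3 g4 ⟨h, hK⟩
    obtain ⟨s, b3, β, b4, b5⟩ := P.last_anchor G (w := w) β₀ (t + 5 * L)
    have b6 := Marker.cnt_add (M := P.M) w (show s ≤ t₁ by omega) g1
    obtain ⟨f, rfl, hf, f1, -, f2⟩ :=
      Marker.enum (w := w) (e := e) P.exists_next M s (by omega) (by omega)
    have hm : ∀ τ, f 0 + 18 * L ≤ τ → τ ≤ f 0 + 2 * (H * π) → ¬ P.M.Mk w τ := fun τ a b =>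
      (le_total τ (t + 5 * L)).elim (b5 τ a) fun c => b2 τ c (by omega)
    rw [← hσ] at b4
    obtain ⟨j, c1, c3, c4, c5, c6⟩ :=
      P.cutP G hf hG hℓ c2 sidon half (by omega) b4 hm (hp w _ hm)
    exact ⟨f, β, j, j, hf, f1, f2, b4, c1, by omega, le_rfl, c4, c5, c6⟩
  · rw [avoid_seg (Nat.zero_le _)] at hK
    push Not at hK
    obtain ⟨t, b1, b2, k1⟩ := hK
    obtain rfl : t = t₁ := by
      by_contra hn
      exact (avoid_seg (Nat.zero_le _)).1 g2.2 t b1 (by omega) k1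
    obtain ⟨f, rfl, hf, f1, -, f2⟩ :=
      Marker.enum (w := w) (e := e) P.exists_next M t g1 (by omega)
    obtain ⟨β, e0, p1, p2⟩ : ∃ β : BS V (2 * TB),
        tr (P.bstep G) w σ 0 (f 0) = (of3 α L H π 0, β, id) ∧ β.2.2.2 = false ∧ β.1 = 0 :=
      ⟨_, Prod.ext k1.1 (Prod.ext rfl (P.tr_bstep_id G b1 k1.1)), k1.2⟩
    have S := P.f_seq G hf _ (Nat.zero_le _) e0
    obtain ⟨j, c1, c3, c4, c5⟩ := P.cutK G hf hG hℓ c2 sidon half (i₀ := 0) (by omega) e0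
    have b5 := P.f_le hf (show 0 + 1 ≤ M by omega) le_rfl
    refine ⟨f, β, _, j, hf, f1, f2, e0, le_rfl, le_rfl, c1, by omega, c4, fun σ' d0 d1 => ?_⟩
    obtain ⟨a', d3⟩ := c5 σ' d0 d1
    have d4 : ∀ a, upd G β a = upd G β a' := fun a => by simp [upd, p1, p2]
    have d5 := (S 0 le_rfl).2 (by omega)
    rw [e0, d4] at d5
    rw [← tr_trans c3.le (show f (0 + 1) ≤ f M by omega), d3, ← d5,
      ← (S (0 + 1) (Nat.zero_le _)).1 (by omega), tr_trans (Nat.zero_le _) (by omega)]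

theorem level3 (σ₀ : C3 α L H π × V) (h₀ : σ₀.1 = of3 α L H π 0) :
    Comp P.astep 3 (fun _ => True) σ₀ := by
  refine fun τ => ⟨_, root (E := fun σ => σ.1 = of3 α L H π 0) (r := (of3 α L H π 0, 0)) rfl ?_
    σ₀ h₀ τ, fun _ _ => Iff.rfl⟩
  rintro ⟨_, x⟩ rfl
  refine Comp.pair (R := fun σ₁ σ₂ τ => σ₁.1 = τ.1 ∧ σ₂.1 = τ.1 ∧ σ₁.2.1.2 = σ₂.2.1.2 ∧
      σ₁.2.2 = σ₂.2.2 ∧ ∃ z, σ₁.2.1.1 = σ₂.2.1.1 + Finsupp.single z 1 ∧ σ₁.2.2 z = τ.2) ?_ ?_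
    (P.level2 hG hℓ c2 sidon half hB hp
      (of3 α L H π 0, (Finsupp.single x 1, fun _ => id, 0, true), id) ⟨rfl, rfl⟩)
    (P.level2 hG hℓ c2 sidon half hB hp (of3 α L H π 0, (0, fun _ => id, 0, true), id) ⟨rfl, rfl⟩)
    ⟨rfl, rfl, rfl, rfl, x, by simp, rfl⟩ fun u hu => ⟨x, hu⟩
  · rintro ⟨_, ⟨_, ζ⟩, al⟩ ⟨_, ⟨y, _⟩, _⟩ ⟨c, _⟩ a h
    dsimp only at h
    obtain ⟨rfl, rfl, rfl, rfl, z, rfl, rfl⟩ := h
    simp only [bstep, astep]
    split_ifs with h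
    · refine ⟨h.symm, h.symm, ?_, rfl, P.act _ a (al z), ?_, rfl⟩
      · simp only [upd]; split_ifs <;> rfl
      · simp only [upd]
        split_ifs <;> simp [Finsupp.mapDomain_add, Finsupp.mapDomain_single, add_right_comm]
    · exact ⟨rfl, rfl, rfl, rfl, z, rfl, rfl⟩
  · rintro σ₁ σ₂ τ τ' ⟨a, -, -, -, z, a1, a2⟩ ⟨b, -, -, -, z', b1, b2⟩
    obtain rfl : z = z' := Finsupp.single_left_injective one_ne_zero
      (add_left_cancel (a1.symm.trans b1))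
    exact Prod.ext (a.symm.trans b) (a2.symm.trans b2)

end Par3

theorem sh_run3 [Finite α] {Q : Type} [Finite Q] (δ : Q → α → Q) (q₀ q : Q) :
    SH 3 fun u => run δ q₀ u = q := by
  have := Fintype.ofFinite (Q →₀ ZMod 2)
  have := Fintype.ofFinite ((Q →₀ ZMod 2) →₀ ZMod 2)
  obtain ⟨TB, hT, G, hB⟩ := randB ((Q →₀ ZMod 2) →₀ ZMod 2) ((Q →₀ ZMod 2) → Q →₀ ZMod 2)
    fun a p => p.mapDomain a
  have : NeZero (2 * TB) := ⟨by omega⟩
  have := Fintype.ofFinite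
    (BS (Q →₀ ZMod 2) (2 * TB) × (Bool ⊕ ((Q →₀ ZMod 2) → Q →₀ ZMod 2)))
  obtain ⟨L, H, ℓ, T, r, hL, h1, h2, F, hG⟩ := randC (Q →₀ ZMod 2) (2 * Fintype.card
    (BS (Q →₀ ZMod 2) (2 * TB) × (Bool ⊕ ((Q →₀ ZMod 2) → Q →₀ ZMod 2))))
  have H0 : 0 < H := by omega
  have L0 : 0 < L := hL ▸ Nat.mul_pos H0 H0
  have : NeZero L := ⟨L0.ne'⟩
  obtain ⟨M⟩ := exists_marker α L0
  obtain ⟨E, hE, hper⟩ := exists_period (Q →₀ ZMod 2)
  obtain ⟨π, p1, p2, p3⟩ : ∃ π, L ∣ π ∧ E * M.X.factorial ∣ π ∧ 40 * L + M.X + E * M.X ≤ π :=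
    ⟨L * (E * M.X.factorial) * (40 * L + M.X + E * M.X), (dvd_mul_right _ _).mul_right _,
      (dvd_mul_left _ _).mul_right _, Nat.le_mul_of_pos_left _ (by positivity)⟩
  have : NeZero (2 * (H * π)) := ⟨(Nat.mul_pos two_pos (Nat.mul_pos H0 (by omega))).ne'⟩
  obtain ⟨code, c1, c2, sidon⟩ := exists_code (Fin (80 * r) × BS (Q →₀ ZMod 2) (2 * TB) ×
    (Bool ⊕ ((Q →₀ ZMod 2) → Q →₀ ZMod 2)))
  rw [Fintype.card_prod, Fintype.card_fin] at c2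
  generalize Fintype.card (BS (Q →₀ ZMod 2) (2 * TB) ×
    (Bool ⊕ ((Q →₀ ZMod 2) → Q →₀ ZMod 2))) = b at h2 c2
  have h3 : 2 * (3 * (80 * r * b) ^ 3) ≤ ℓ := by
    refine le_trans ?_ (le_trans (Nat.mul_le_mul_left _ (Nat.pow_le_pow_left
      (Nat.le_succ _) 3)) h2)
    rw [show 3 * (80 * r * (2 * b)) ^ 3 = 8 * (3 * (80 * r * b) ^ 3) by ring]
    omega
  let P : Par3 α (Q →₀ ZMod 2) L H π := ⟨M, F, fun x a => x.mapDomain (δ · a), hL, L0, p1,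
    by omega, fun _ _ _ => Finsupp.mapDomain_add⟩
  have K := P.level3 (T := T) (hG π (by omega)) h1 (code := fun a => code a + 3 * (80 * r * b) ^ 3)
    (fun a => by have := c2 a; omega) (fun a b c d h e => sidon a b c d h (by omega))
    (fun a b c => by have := c2 a; have := c1 b; omega) hB fun w s hm =>
      per_const M H0 L0 hper (fun p a b => (Nat.mul_dvd_mul_left E (Nat.dvd_factorial a b)).trans p2)
        (by omega) _ hm
  obtain ⟨R, r1, r2⟩ := Comp.pair (δ' := δ) (A' := fun _ => True)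
    (R := fun σ₁ σ₂ q => σ₁.1 = σ₂.1 ∧ σ₁.2 = σ₂.2 + Finsupp.single q 1)
    (by
      rintro ⟨_, _⟩ ⟨c, y⟩ q a h
      dsimp only at h
      obtain ⟨rfl, rfl⟩ := h
      refine ⟨rfl, ?_⟩
      simp [Par3.astep, Par3.act, P, Finsupp.mapDomain_add, Finsupp.mapDomain_single,
        add_right_comm])
    (by
      intro _ _ _ _ a b
      exact Finsupp.single_left_injective (one_ne_zero' (ZMod 2))
        (add_left_cancel (a.2.symm.trans b.2) :)) (τ := q₀)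
    (K (of3 α L H π 0, Finsupp.single q₀ 1) rfl) (K (of3 α L H π 0, 0) rfl) ⟨rfl, by simp⟩
    (fun _ h => h) q
  exact r1.congr fun u => r2 u trivial

omit [Inhabited α] in
theorem main3 [Finite α] (L : Language α) (hL : L.IsRegular) :
    ∃ P : GRE α, P.lang = L ∧ P.sh ≤ 3 := by
  suffices H : SH 3 (· ∈ L) by
    obtain ⟨P, h1, h2⟩ := H
    exact ⟨P, Language.ext h2, h1⟩
  rcases isEmpty_or_nonempty α with h | ⟨⟨a⟩⟩
  · exact (SH.guard (p := [] ∈ L) fun _ => SH.word []).congr fun u => by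
      obtain rfl : u = [] := List.eq_nil_iff_forall_not_mem.2 fun a => isEmptyElim a
      simp
  have : Inhabited α := ⟨a⟩
  obtain ⟨Q, _, A, rfl⟩ := hL
  exact (SH.ex fun q => SH.guard (p := q ∈ A.accept) fun _ => sh_run3 A.step A.start q).congr
    fun u => ⟨by rintro ⟨_, h, rfl⟩; exact h, fun h => ⟨_, h, rfl⟩⟩

end Vale.Agent.P329
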