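import Mathlib

/-! Counting lemmas for random functions that are queried at fresh points. -/

namespace Vale.Agent.P329

open Finset Function
open scoped Classical

variable {Y A C : Type} [DecidableEq Y]

/-- The indicator of a proposition. -/
noncomputable def ind (p : Prop) : ℝ := if p then 1 else 0

theorem ind_nonneg (p : Prop) : 0 ≤ ind p := by unfold ind; positivity

theorem ind_mono {p q : Prop} (h : p → q) : ind p ≤ ind q := by
  unfold ind; split_ifs <;> simp_all

theorem sum_fresh [Fintype Y] [Fintype A] (y : Y) (f : A → (Y → A) → ℝ)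
    (hf : ∀ a F b, f a (update F y b) = f a F) :
    (Fintype.card A : ℝ) * ∑ F, f (F y) F = ∑ a, ∑ F, f a F := by
  have hi : Involutive fun p : A × (Y → A) => (p.2 y, update p.2 y p.1) := fun p => by simp
  rw [← Fintype.sum_prod_type', ← Equiv.sum_comp hi.toPerm]
  simp [hf, Fintype.sum_prod_type]

theorem exists_good {X Ω : Type} [Fintype X] [Fintype Ω] [Nonempty Ω] (Bad : X → Ω → Prop) {b : ℝ}
    (h : ∀ x, ∑ F, ind (Bad x F) ≤ b * Fintype.card Ω)
    (hb : Fintype.card X * b < 1) : ∃ F, ∀ x, ¬ Bad x F := by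
  by_contra hn
  push Not at hn
  have h1 : ∑ _F : Ω, (1 : ℝ) ≤ ∑ F, ∑ x, ind (Bad x F) :=
    sum_le_sum fun F _ => by
      obtain ⟨x, hx⟩ := hn F
      exact le_trans (by simp [hx, ind]) (single_le_sum (f := fun x => ind (Bad x F))
        (fun _ _ => ind_nonneg _) (mem_univ x))
  rw [sum_comm] at h1
  have h2 := h1.trans (sum_le_sum fun x _ => h x)
  have h3 : (0 : ℝ) < Fintype.card Ω := by exact_mod_cast Fintype.card_pos
  simp only [sum_const, card_univ, nsmul_eq_mul, mul_one] at h2
  nlinarith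

section adaptive

variable (q : C → Y) (st : C → A → Option C)

/-- The chain started at `c` survives `t` steps. -/
def alive (F : Y → A) : ℕ → C → Prop
  | 0, _ => True
  | t + 1, c => ∃ c', st c (F (q c)) = some c' ∧ alive F t c'

/-- Exploration of one chain; `U` is the set of used points, `G` the continuation. -/
noncomputable def Hc (R : Finset Y) (G : Finset Y → (Y → A) → ℝ) :
    ℕ → C → Finset Y → (Y → A) → ℝ
  | 0, _, U, F => G U F
  | t + 1, c, U, F => (st c (F (q c))).elim 0 fun c' =>
      if q c' ∈ insert (q c) U ∪ R then G (insert (q c) U) F else Hc R G t c' (insert (q c) U) F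

variable {q st} {R : Finset Y} {G : Finset Y → (Y → A) → ℝ} {ok : Finset Y → Prop}

theorem Hc_nonneg (h0 : ∀ U F, 0 ≤ G U F) : ∀ t c U F, 0 ≤ Hc q st R G t c U F
  | 0, _, U, F => h0 U F
  | t + 1, c, U, F => by
    rw [Hc]
    rcases st c (F (q c)) with _ | c'
    · exact le_rfl
    · simp only [Option.elim]; split_ifs
      exacts [h0 _ _, Hc_nonneg h0 t _ _ _]

theorem Hc_ge {F : Y → A} (h1 : ∀ U, 1 ≤ G U F) :
    ∀ t c U, alive q st F t c → 1 ≤ Hc q st R G t c U F
  | 0, _, U, _ => h1 U
  | t + 1, c, U, ⟨c', e, h⟩ => by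
    rw [Hc, e]
    simp only [Option.elim]; split_ifs
    exacts [h1 _, Hc_ge h1 t _ _ h]

theorem Hc_indep (down : ∀ y U, ok (insert y U) → ok U)
    (up : ∀ y U, ok U → y ∉ R → ok (insert y U))
    (hG : ∀ U y F b, ok U → y ∈ U → G U (update F y b) = G U F) (y : Y) (F : Y → A) (b : A) :
    ∀ t c U, ok (insert (q c) U) → q c ∉ U → y ∈ U →
      Hc q st R G t c U (update F y b) = Hc q st R G t c U F
  | 0, _, U, h, _, hy => hG U y F b (down _ _ h) hy
  | t + 1, c, U, h, hc, hy => by
    rw [Hc, Hc, update_of_ne (by rintro rfl; exact hc hy)]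
    rcases st c (F (q c)) with _ | c'
    · rfl
    · simp only [Option.elim]; split_ifs with h1
      · exact hG _ y F b h (mem_insert_of_mem hy)
      · rw [mem_union, not_or] at h1
        exact Hc_indep down up hG y F b t c' _ (up _ _ h h1.2) h1.1 (mem_insert_of_mem hy)

variable [Fintype Y] [Fintype A] [Nonempty A] {ρ η : ℝ}

theorem Hc_bound (hρ0 : 0 ≤ ρ) (hρ1 : ρ ≤ 1) (hη : 0 ≤ η)
    (kill : ∀ c, (#{a | st c a ≠ none} : ℝ) ≤ ρ * Fintype.card A)
    (spread : ∀ c y, (#{a | ∃ c', st c a = some c' ∧ q c' = y} : ℝ) ≤ η * Fintype.card A)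
    (down : ∀ y U, ok (insert y U) → ok U) (up : ∀ y U, ok U → y ∉ R → ok (insert y U))
    (hG : ∀ U y F b, ok U → y ∈ U → G U (update F y b) = G U F) {g : ℝ} (hg : 0 ≤ g) {n N : ℕ}
    (hn : n + #R ≤ N) (bG : ∀ U, ok U → #U ≤ n → ∑ F, G U F ≤ g) :
    ∀ t c U, ok (insert (q c) U) → q c ∉ U → #U + t ≤ n →
      ∑ F, Hc q st R G t c U F ≤ (ρ ^ t + t * (η * N)) * g
  | 0, _, U, h, _, hU => by simpa [Hc] using bG U (down _ _ h) hU
  | t + 1, c, U, h, hc, hU => by
    set U' := insert (q c) U with hU'
    have cU : #U' + t ≤ n := by rw [hU', card_insert_of_notMem hc]; omega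
    have hA : (0 : ℝ) < Fintype.card A := by exact_mod_cast Fintype.card_pos
    set ε := ρ ^ t + t * (η * N) with hε
    have hε0 : 0 ≤ ε := by positivity
    let f : A → (Y → A) → ℝ := fun a F => (st c a).elim 0 fun c' =>
      if q c' ∈ U' ∪ R then G U' F else Hc q st R G t c' U' F
    have key := sum_fresh (q c) f fun a F b => by
      simp only [f]
      rcases st c a with _ | c'
      · rfl
      · simp only [Option.elim]; split_ifs with h1
        · exact hG _ _ F b h (mem_insert_self _ _)
        · rw [mem_union, not_or] at h1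
          exact Hc_indep down up hG _ F b t c' _ (up _ _ h h1.2) h1.1 (mem_insert_self _ _)
    have h1 : ∀ a, ∑ F, f a F ≤ (if st c a ≠ none then ε * g else 0) +
        ∑ y ∈ U' ∪ R, if ∃ c', st c a = some c' ∧ q c' = y then g else 0 := by
      intro a
      have p2 : 0 ≤ ∑ y ∈ U' ∪ R, if ∃ c', st c a = some c' ∧ q c' = y then g else 0 :=
        sum_nonneg fun _ _ => by split_ifs; exacts [hg, le_rfl]
      simp only [f]
      rcases e : st c a with _ | c'
      · simp
      · rw [e] at p2
        simp only [Option.elim, ne_eq, reduceCtorEq, not_false_eq_true, if_true]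
        split_ifs with h1
        · refine (bG U' h (by omega)).trans (le_add_of_nonneg_of_le (by positivity) ?_)
          exact le_trans (by simp) (single_le_sum (f := fun y =>
            if ∃ c'', some c' = some c'' ∧ q c'' = y then g else 0)
            (fun _ _ => by split_ifs; exacts [hg, le_rfl]) h1)
        · rw [mem_union, not_or] at h1
          exact le_add_of_le_of_nonneg (Hc_bound hρ0 hρ1 hη kill spread down up hG hg hn bG t c' _
            (up _ _ h h1.2) h1.1 cU) p2
    have h2 := sum_le_sum fun a (_ : a ∈ univ) => h1 a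
    rw [← key, sum_add_distrib, sum_comm (s := univ)] at h2
    simp only [← sum_filter, sum_const, nsmul_eq_mul] at h2
    have h3 : ∑ y ∈ U' ∪ R, (#{a | ∃ c', st c a = some c' ∧ q c' = y} : ℝ) * g ≤
        N * (η * Fintype.card A * g) := by
      refine (sum_le_sum fun y _ => mul_le_mul_of_nonneg_right (spread c y) hg).trans ?_
      rw [sum_const, nsmul_eq_mul]
      have : (#(U' ∪ R) : ℝ) ≤ N := by
        have := card_union_le U' R
        exact_mod_cast (by omega : #(U' ∪ R) ≤ N)
      gcongr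
    have h4 := mul_le_mul_of_nonneg_right (kill c) (mul_nonneg hε0 hg)
    have h5 : ρ * ε ≤ ρ ^ (t + 1) + t * (η * N) := by
      rw [hε, mul_add, pow_succ']
      have : ρ * (t * (η * N)) ≤ 1 * (t * (η * N)) := by gcongr
      linarith
    refine le_of_mul_le_mul_left ?_ hA
    change (Fintype.card A : ℝ) * ∑ F, f (F (q c)) F ≤ _
    have h6 := mul_le_mul_of_nonneg_right h5 (mul_nonneg hA.le hg)
    push_cast
    nlinarith

variable (q st) in
/-- Exploration of a list of chains. -/
noncomputable def Tot (R : Finset Y) (T : ℕ) : List C → Finset Y → (Y → A) → ℝ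
  | [] => fun _ _ => 1
  | c :: cs => Hc q st R (Tot R T cs) T c

theorem alive_bound (hρ0 : 0 ≤ ρ) (hρ1 : ρ ≤ 1) (hη : 0 ≤ η)
    (kill : ∀ c, (#{a | st c a ≠ none} : ℝ) ≤ ρ * Fintype.card A)
    (spread : ∀ c y, (#{a | ∃ c', st c a = some c' ∧ q c' = y} : ℝ) ≤ η * Fintype.card A)
    (T : ℕ) (cs : List C) (hcs : (cs.map q).Nodup) :
    ∑ F, ind (∀ c ∈ cs, alive q st F T c) ≤
      (ρ ^ T + T * (η * (cs.length * (T + 1) : ℕ))) ^ cs.length * Fintype.card (Y → A) := by
  set R := (cs.map q).toFinset
  have cR : #R ≤ cs.length := (List.toFinset_card_le _).trans (by simp)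
  set ε := ρ ^ T + T * (η * (cs.length * (T + 1) : ℕ))
  have main : ∀ l : List C, (l.map q).Nodup → (∀ c ∈ l, q c ∈ R) →
      (∀ U F, 0 ≤ Tot q st R T l U F) ∧
      (∀ U F, (∀ c ∈ l, alive q st F T c) → 1 ≤ Tot q st R T l U F) ∧
      (∀ U y F b, (∀ c ∈ l, q c ∉ U) → y ∈ U →
        Tot q st R T l U (update F y b) = Tot q st R T l U F) ∧
      ∀ U, (∀ c ∈ l, q c ∉ U) → #U + l.length * T ≤ cs.length * T →
        ∑ F, Tot q st R T l U F ≤ ε ^ l.length * Fintype.card (Y → A) := by
    intro l
    induction l with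
    | nil => intro _ _; simp [Tot]
    | cons c l ih =>
      intro hl hR
      rw [List.map_cons, List.nodup_cons] at hl
      obtain ⟨i1, i2, i3, i4⟩ := ih hl.2 fun c hc => hR c (by simp [hc])
      have down : ∀ y (U : Finset Y), (∀ c ∈ l, q c ∉ insert y U) → ∀ c ∈ l, q c ∉ U :=
        fun y U h c hc h' => h c hc (mem_insert_of_mem h')
      have up : ∀ y (U : Finset Y), (∀ c ∈ l, q c ∉ U) → y ∉ R → ∀ c ∈ l, q c ∉ insert y U := by
        intro y U h hy c hc h'
        rcases mem_insert.1 h' with rfl | h'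
        exacts [hy (hR c (by simp [hc])), h c hc h']
      have st0 : ∀ U : Finset Y, (∀ c' ∈ c :: l, q c' ∉ U) → ∀ c' ∈ l, q c' ∉ insert (q c) U := by
        intro U h c' hc h'
        rcases mem_insert.1 h' with e | h'
        exacts [hl.1 (e ▸ List.mem_map_of_mem hc), h c' (by simp [hc]) h']
      refine ⟨Hc_nonneg i1 T c, fun U F h => Hc_ge (fun U => i2 U F fun c hc => h c (by simp [hc]))
        T c U (h c (by simp)), fun U y F b h hy =>
        Hc_indep down up i3 y F b T c U (st0 U h) (h c (by simp)) hy, fun U h hU => ?_⟩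
      rw [List.length_cons, Nat.succ_mul] at hU
      rw [List.length_cons, pow_succ', mul_assoc]
      exact Hc_bound hρ0 hρ1 hη kill spread down up i3 (by positivity)
        (n := cs.length * T - l.length * T) (by rw [Nat.mul_succ]; omega)
        (fun U h hU' => i4 U h (by omega)) T c U (st0 U h) (h c (by simp)) (by omega)
  obtain ⟨i1, i2, -, i4⟩ := main cs hcs fun c hc => List.mem_toFinset.2 (List.mem_map_of_mem hc)
  refine le_trans (sum_le_sum fun F _ => ?_) (i4 ∅ (by simp) (by simp))
  unfold ind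
  split_ifs with h
  exacts [i2 _ _ h, i1 _ _]

end adaptive

section fixed

variable {V : Type} [AddCommGroup V]

/-- A label that is moved by the maps `g` and shifted by the values of `F` stays nonzero. -/
def alB (Q : ℕ → Y) (g : ℕ → V → V) (F : Y → V) : ℕ → ℕ → V → Prop
  | 0, _, _ => True
  | t + 1, m, z => z + F (Q m) ≠ 0 ∧ alB Q g F t (m + 1) (g m (z + F (Q m)))

omit [DecidableEq Y] in
theorem alB_congr {Q Q' : ℕ → Y} {g g' : ℕ → V → V} {F F' : Y → V} : ∀ t m z,
    (∀ i, m ≤ i → i < m + t → F (Q i) = F' (Q' i) ∧ g i = g' i) →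
    (alB Q g F t m z ↔ alB Q' g' F' t m z)
  | 0, _, _, _ => Iff.rfl
  | t + 1, m, z, h => by
    obtain ⟨h1, h2⟩ := h m le_rfl (by omega)
    rw [alB, alB, h1, h2, alB_congr t _ _ fun i a b => h i (by omega) (by omega)]

variable [Fintype Y] [Fintype V]

theorem alB_one {Q : ℕ → Y} {g : ℕ → V → V} {G : (Y → V) → ℝ} (h0 : ∀ F, 0 ≤ G F) : ∀ t m z,
    (∀ i j, m ≤ i → i < j → j < m + t → Q i ≠ Q j) →
    (∀ i, m ≤ i → i < m + t → ∀ F b, G (update F (Q i) b) = G F) →
    ∑ F, (if alB Q g F t m z then G F else 0) ≤ (1 - 1 / Fintype.card V) ^ t * ∑ F, G F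
  | 0, _, _, _, _ => by simp [alB]
  | t + 1, m, z, h1, h2 => by
    have hV : (0 : ℝ) < Fintype.card V := by exact_mod_cast Fintype.card_pos
    let f : V → (Y → V) → ℝ := fun a F =>
      if z + a ≠ 0 ∧ alB Q g F t (m + 1) (g m (z + a)) then G F else 0
    have key := sum_fresh (Q m) f fun a F b => by
      simp only [f]
      rw [h2 m le_rfl (by omega), alB_congr (Q' := Q) (g' := g) (F' := F) t _ _ fun i a b =>
        ⟨update_of_ne (h1 m i le_rfl (by omega) (by omega)).symm _ _, rfl⟩]
    set B := (1 - 1 / Fintype.card V : ℝ) ^ t * ∑ F, G F with hB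
    have h3 : ∀ a, ∑ F, f a F ≤ if a ≠ -z then B else 0 := by
      intro a
      by_cases ha : a = -z
      · simp [f, ha]
      · have : z + a ≠ 0 := fun h => ha (eq_neg_of_add_eq_zero_right h)
        simpa [f, ha, this, hB] using alB_one (g := g) h0 t (m + 1) (g m (z + a))
          (fun i j a b c => h1 i j (by omega) b (by omega))
          fun i a b => h2 i (by omega) (by omega)
    have h4 := sum_le_sum fun a (_ : a ∈ univ) => h3 a
    rw [← sum_filter, ← key, sum_const, nsmul_eq_mul, filter_ne', card_erase_of_mem (mem_univ _),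
      card_univ, Nat.cast_pred Fintype.card_pos] at h4
    refine le_of_mul_le_mul_left (le_trans (le_of_eq ?_) (h4.trans (le_of_eq ?_))) hV
    · exact congrArg _ (sum_congr rfl fun F _ => if_congr Iff.rfl rfl rfl)
    · rw [pow_succ', mul_assoc, ← hB]; field_simp

theorem alB_bound (T : ℕ) (Q : ℕ → ℕ → Y) (g : ℕ → V → V) (z : ℕ → V) : ∀ W : ℕ,
    (∀ k i k' i', k < W → k' < W → k ≤ i → i < k + T → k' ≤ i' → i' < k' + T →
      Q k i = Q k' i' → k = k' ∧ i = i') →
    ∑ F, ind (∀ k < W, alB (Q k) g F T k (z k)) ≤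
      ((1 - 1 / Fintype.card V) ^ T) ^ W * Fintype.card (Y → V)
  | 0, _ => by simp [ind]
  | W + 1, h => by
    have hV : (1 : ℝ) ≤ Fintype.card V := by exact_mod_cast Fintype.card_pos
    have hρ : (0 : ℝ) ≤ 1 - 1 / Fintype.card V := sub_nonneg.2 ((div_le_one (by linarith)).2 hV)
    have ih := alB_bound T Q g z W fun k i k' i' a b => h k i k' i' (by omega) (by omega)
    have := alB_one (Q := Q W) (g := g)
      (G := fun F => ind (∀ k < W, alB (Q k) g F T k (z k)))
      (fun _ => ind_nonneg _) T W (z W)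
      (fun i j a b c e => by have := h W i W j (by omega) (by omega) a (by omega) (by omega) c e; omega)
      (fun i a b F c => by
        refine congrArg ind (propext (forall_congr' fun k => forall_congr' fun hk =>
          alB_congr _ _ _ fun j a' b' => ⟨update_of_ne (fun e => ?_) _ _, rfl⟩))
        have := h k j W i (by omega) (by omega) a' b' a b e; omega)
    rw [pow_succ', mul_assoc]
    refine le_trans (le_of_eq (sum_congr rfl fun F _ => ?_))
      (this.trans (mul_le_mul_of_nonneg_left ih (by positivity)))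
    rw [Nat.forall_lt_succ_right]
    by_cases h : alB (Q W) g F T W (z W) <;> simp [h, ind]

end fixed

end Vale.Agent.P329
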