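import Vale.Agent.P329.Rand

/-! The counting lemma for adaptive chains, with reserved points. -/

namespace Vale.Agent.P329

open Finset Function
open scoped Classical

variable {Y Z A C : Type} [DecidableEq Y] [DecidableEq Z] (q : C → Y) (key : Y → Z) (res : C → Finset Z)
  (st : C → A → Option C)

/-- The state `c` or one of its reserved points meets the used or forbidden points. -/
def Hit (R : Finset Z) (c : C) (U : Finset Y) : Prop :=
  ∃ z ∈ U.image key ∪ R, z ∈ insert (key (q c)) (res c)

/-- Exploration of one chain; `U` is the set of used points, `G` the continuation. -/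
noncomputable def Hr (R : Finset Z) (G : Finset Y → (Y → A) → ℝ) :
    ℕ → C → Finset Y → (Y → A) → ℝ
  | 0, _, U, F => G U F
  | t + 1, c, U, F => (st c (F (q c))).elim 0 fun c' =>
      if Hit q key res R c' (insert (q c) U) then G (insert (q c) U) F
      else Hr R G t c' (insert (q c) U) F

variable {q key res st} {R : Finset Z} {G : Finset Y → (Y → A) → ℝ} {ok : Finset Y → Prop}

omit [DecidableEq Y] in
theorem not_hit {c : C} {U : Finset Y} (h : ¬ Hit q key res R c U) :
    q c ∉ U ∧ key (q c) ∉ R ∧ ∀ z ∈ U.image key ∪ R, z ∉ res c :=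
  ⟨fun h1 => h ⟨_, mem_union_left _ (mem_image_of_mem _ h1), mem_insert_self _ _⟩,
    fun h1 => h ⟨_, mem_union_right _ h1, mem_insert_self _ _⟩,
    fun z h1 h2 => h ⟨z, h1, mem_insert_of_mem h2⟩⟩

theorem Hr_nonneg (h0 : ∀ U F, 0 ≤ G U F) : ∀ t c U F, 0 ≤ Hr q key res st R G t c U F
  | 0, _, U, F => h0 U F
  | t + 1, c, U, F => by
    rw [Hr]
    rcases st c (F (q c)) with _ | c'
    · exact le_rfl
    · simp only [Option.elim]; split_ifs
      exacts [h0 _ _, Hr_nonneg h0 t _ _ _]

theorem Hr_ge {F : Y → A} (h1 : ∀ U, 1 ≤ G U F) :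
    ∀ t c U, alive q st F t c → 1 ≤ Hr q key res st R G t c U F
  | 0, _, U, _ => h1 U
  | t + 1, c, U, ⟨c', e, h⟩ => by
    rw [Hr, e]
    simp only [Option.elim]; split_ifs
    exacts [h1 _, Hr_ge h1 t _ _ h]

theorem Hr_indep (down : ∀ y U, ok (insert y U) → ok U)
    (up : ∀ y U, ok U → key y ∉ R → ok (insert y U))
    (hG : ∀ U y F b, ok U → y ∈ U → G U (update F y b) = G U F) (y : Y) (F : Y → A) (b : A) :
    ∀ t c U, ok (insert (q c) U) → q c ∉ U → y ∈ U →
      Hr q key res st R G t c U (update F y b) = Hr q key res st R G t c U F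
  | 0, _, U, h, _, hy => hG U y F b (down _ _ h) hy
  | t + 1, c, U, h, hc, hy => by
    rw [Hr, Hr, update_of_ne (by rintro rfl; exact hc hy)]
    rcases st c (F (q c)) with _ | c'
    · rfl
    · simp only [Option.elim]; split_ifs with h1
      · exact hG _ y F b h (mem_insert_of_mem hy)
      · exact Hr_indep down up hG y F b t c' _ (up _ _ h (not_hit h1).2.1) (not_hit h1).1
          (mem_insert_of_mem hy)

variable [Fintype Y] [Fintype A] [Nonempty A] {ρ η : ℝ}

theorem Hr_bound (hρ0 : 0 ≤ ρ) (hρ1 : ρ ≤ 1) (hη : 0 ≤ η) (hkey : ∀ c, key (q c) ∉ res c)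
    (kill : ∀ c, (#{a | st c a ≠ none} : ℝ) ≤ ρ * Fintype.card A)
    (spread : ∀ c z, z ∉ res c → (#{a | ∃ c', st c a = some c' ∧
      z ∈ insert (key (q c')) (res c')} : ℝ) ≤ η * Fintype.card A)
    (down : ∀ y U, ok (insert y U) → ok U) (up : ∀ y U, ok U → key y ∉ R → ok (insert y U))
    (hG : ∀ U y F b, ok U → y ∈ U → G U (update F y b) = G U F) {g : ℝ} (hg : 0 ≤ g) {n N : ℕ}
    (hn : n + #R ≤ N) (bG : ∀ U, ok U → #U ≤ n → ∑ F, G U F ≤ g) :
    ∀ t c U, ok (insert (q c) U) → q c ∉ U → (∀ z ∈ U.image key ∪ R, z ∉ res c) → #U + t ≤ n →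
      ∑ F, Hr q key res st R G t c U F ≤ (ρ ^ t + t * (η * N)) * g
  | 0, _, U, h, _, _, hU => by simpa [Hr] using bG U (down _ _ h) hU
  | t + 1, c, U, h, hc, hr, hU => by
    set U' := insert (q c) U with hU'
    have cU : #U' + t ≤ n := by rw [hU', card_insert_of_notMem hc]; omega
    have hr' : ∀ z ∈ U'.image key ∪ R, z ∉ res c := by
      intro z hz
      rw [hU', image_insert, insert_union, mem_insert] at hz
      rcases hz with rfl | hz
      exacts [hkey c, hr z hz]
    have hA : (0 : ℝ) < Fintype.card A := by exact_mod_cast Fintype.card_pos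
    set ε := ρ ^ t + t * (η * N) with hε
    have hε0 : 0 ≤ ε := by positivity
    let f : A → (Y → A) → ℝ := fun a F => (st c a).elim 0 fun c' =>
      if Hit q key res R c' U' then G U' F else Hr q key res st R G t c' U' F
    have key' := sum_fresh (q c) f fun a F b => by
      simp only [f]
      rcases st c a with _ | c'
      · rfl
      · simp only [Option.elim]; split_ifs with h1
        · exact hG _ _ F b h (mem_insert_self _ _)
        · exact Hr_indep down up hG _ F b t c' _ (up _ _ h (not_hit h1).2.1) (not_hit h1).1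
            (mem_insert_self _ _)
    have h1 : ∀ a, ∑ F, f a F ≤ (if st c a ≠ none then ε * g else 0) +
        ∑ z ∈ U'.image key ∪ R,
          if ∃ c', st c a = some c' ∧ z ∈ insert (key (q c')) (res c') then g else 0 := by
      intro a
      have p2 : 0 ≤ ∑ z ∈ U'.image key ∪ R,
          if ∃ c', st c a = some c' ∧ z ∈ insert (key (q c')) (res c') then g else 0 :=
        sum_nonneg fun _ _ => by split_ifs; exacts [hg, le_rfl]
      simp only [f]
      rcases e : st c a with _ | c'
      · simp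
      · rw [e] at p2
        simp only [Option.elim, ne_eq, reduceCtorEq, not_false_eq_true, if_true]
        split_ifs with h1
        · obtain ⟨z, h1, h2⟩ := h1
          refine (bG U' h (by omega)).trans (le_add_of_nonneg_of_le (by positivity) ?_)
          exact le_trans (if_pos ⟨c', rfl, h2⟩).ge (single_le_sum (f := fun z =>
            if ∃ c'', some c' = some c'' ∧ z ∈ insert (key (q c'')) (res c'') then g else 0)
            (fun _ _ => by split_ifs; exacts [hg, le_rfl]) h1)
        · exact le_add_of_le_of_nonneg (Hr_bound hρ0 hρ1 hη hkey kill spread down up hG hg hn bG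
            t c' _ (up _ _ h (not_hit h1).2.1) (not_hit h1).1 (not_hit h1).2.2 cU) p2
    have h2 := sum_le_sum fun a (_ : a ∈ univ) => h1 a
    rw [← key', sum_add_distrib, sum_comm (s := univ)] at h2
    simp only [← sum_filter, sum_const, nsmul_eq_mul] at h2
    have h3 : ∑ z ∈ U'.image key ∪ R, (#{a | ∃ c', st c a = some c' ∧
        z ∈ insert (key (q c')) (res c')} : ℝ) * g ≤ N * (η * Fintype.card A * g) := by
      refine (sum_le_sum fun z hz => mul_le_mul_of_nonneg_right (spread c z (hr' z hz)) hg).trans ?_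
      rw [sum_const, nsmul_eq_mul]
      have : (#(U'.image key ∪ R) : ℝ) ≤ N := by
        have := card_union_le (U'.image key) R
        have := card_image_le (s := U') (f := key)
        exact_mod_cast (by omega : #(U'.image key ∪ R) ≤ N)
      gcongr
    have h4 := mul_le_mul_of_nonneg_right (kill c) (mul_nonneg hε0 hg)
    have h5 : ρ * ε ≤ ρ ^ (t + 1) + t * (η * N) := by
      rw [hε, mul_add, pow_succ']
      have : ρ * (t * (η * N)) ≤ 1 * (t * (η * N)) := by gcongr
      linarith
    refine le_of_mul_le_mul_left ?_ hA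
    change (Fintype.card A : ℝ) * ∑ F, f (F (q c)) F ≤ _
    have h6 := mul_le_mul_of_nonneg_right h5 (mul_nonneg hA.le hg)
    push_cast
    nlinarith

variable (q key res) in
/-- The points kept free for a list of chains. -/
noncomputable def Rl : List C → Finset Z
  | [] => ∅
  | c :: cs => insert (key (q c)) (res c) ∪ Rl cs

omit [DecidableEq Y] [Fintype Y] in
theorem mem_Rl {z : Z} : ∀ {l : List C},
    z ∈ Rl q key res l ↔ ∃ c ∈ l, z ∈ insert (key (q c)) (res c)
  | [] => by simp [Rl]
  | c :: l => by rw [Rl, mem_union, mem_Rl, List.exists_mem_cons_iff]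

omit [DecidableEq Y] [Fintype Y] in
theorem card_Rl {w : ℕ} (hw : ∀ c, #(res c) ≤ w) :
    ∀ l : List C, #(Rl q key res l) ≤ l.length * (w + 1)
  | [] => by simp [Rl]
  | c :: l => by
    have h1 := card_Rl hw l
    have h2 := card_insert_le (key (q c)) (res c)
    have := hw c
    rw [Rl, List.length_cons, Nat.succ_mul]
    exact (card_union_le _ _).trans (by omega)

variable (q key res st) in
/-- Exploration of a list of chains. -/
noncomputable def Tr (T : ℕ) : List C → Finset Y → (Y → A) → ℝ
  | [] => fun _ _ => 1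
  | c :: cs => Hr q key res st (Rl q key res cs) (Tr T cs) T c

theorem alive_bound3 (hρ0 : 0 ≤ ρ) (hρ1 : ρ ≤ 1) (hη : 0 ≤ η) (hkey : ∀ c, key (q c) ∉ res c)
    {w : ℕ} (hw : ∀ c, #(res c) ≤ w)
    (kill : ∀ c, (#{a | st c a ≠ none} : ℝ) ≤ ρ * Fintype.card A)
    (spread : ∀ c z, z ∉ res c → (#{a | ∃ c', st c a = some c' ∧
      z ∈ insert (key (q c')) (res c')} : ℝ) ≤ η * Fintype.card A)
    (T : ℕ) (cs : List C) (hcs : cs.Pairwise fun c c' => q c ≠ q c' ∧ key (q c) ∉ res c' ∧
      ∀ z ∈ insert (key (q c')) (res c'), z ∉ res c) :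
    ∑ F, ind (∀ c ∈ cs, alive q st F T c) ≤
      (ρ ^ T + T * (η * (cs.length * (T + (w + 1)) : ℕ))) ^ cs.length * Fintype.card (Y → A) := by
  set ε := ρ ^ T + T * (η * (cs.length * (T + (w + 1)) : ℕ))
  let ok : List C → Finset Y → Prop := fun l U => ∀ c ∈ l, q c ∉ U ∧ ∀ y ∈ U, key y ∉ res c
  have main : ∀ l : List C, (l.Pairwise fun c c' => q c ≠ q c' ∧ key (q c) ∉ res c' ∧
      ∀ z ∈ insert (key (q c')) (res c'), z ∉ res c) → l.length ≤ cs.length →
      (∀ U F, 0 ≤ Tr q key res st T l U F) ∧
      (∀ U F, (∀ c ∈ l, alive q st F T c) → 1 ≤ Tr q key res st T l U F) ∧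
      (∀ U y F b, ok l U → y ∈ U →
        Tr q key res st T l U (update F y b) = Tr q key res st T l U F) ∧
      ∀ U, ok l U → #U + l.length * T ≤ cs.length * T →
        ∑ F, Tr q key res st T l U F ≤ ε ^ l.length * Fintype.card (Y → A) := by
    intro l
    induction l with
    | nil => intro _ _; simp [Tr]
    | cons c l ih =>
      intro hl hlen
      rw [List.pairwise_cons] at hl
      rw [List.length_cons] at hlen
      obtain ⟨i1, i2, i3, i4⟩ := ih hl.2 (by omega)
      have down : ∀ y (U : Finset Y), ok l (insert y U) → ok l U := fun y U h c hc =>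
        ⟨fun h' => (h c hc).1 (mem_insert_of_mem h'),
          fun y hy => (h c hc).2 y (mem_insert_of_mem hy)⟩
      have ins : ∀ y (U : Finset Y), ok l U → (∀ c ∈ l, y ≠ q c ∧ key y ∉ res c) →
          ok l (insert y U) := fun y U h hy c hc =>
        ⟨fun h' => (mem_insert.1 h').elim (fun e => (hy c hc).1 e.symm) (h c hc).1,
          fun y' h' => (mem_insert.1 h').elim (fun e => e ▸ (hy c hc).2) ((h c hc).2 y')⟩
      have up : ∀ y (U : Finset Y), ok l U → key y ∉ Rl q key res l → ok l (insert y U) :=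
        fun y U h hy => ins y U h fun c hc =>
          ⟨fun e => hy (mem_Rl.2 ⟨c, hc, e ▸ mem_insert_self _ _⟩),
            fun e => hy (mem_Rl.2 ⟨c, hc, mem_insert_of_mem e⟩)⟩
      have st0 : ∀ U : Finset Y, ok (c :: l) U → ok l (insert (q c) U) := fun U h =>
        ins _ U (fun c hc => h c (by simp [hc])) fun c' hc => ⟨(hl.1 c' hc).1, (hl.1 c' hc).2.1⟩
      refine ⟨Hr_nonneg i1 T c, fun U F h => Hr_ge (fun U => i2 U F fun c hc => h c (by simp [hc]))
        T c U (h c (by simp)), fun U y F b h hy =>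
        Hr_indep down up i3 y F b T c U (st0 U h) (h c (by simp)).1 hy, fun U h hU => ?_⟩
      rw [List.length_cons, Nat.succ_mul] at hU
      rw [List.length_cons, pow_succ', mul_assoc]
      have c1 := (card_Rl (q := q) (key := key) hw l).trans
        (Nat.mul_le_mul_right (w + 1) (show l.length ≤ cs.length by omega))
      refine Hr_bound hρ0 hρ1 hη hkey kill spread down up i3 (by positivity)
        (n := cs.length * T - l.length * T) (by rw [Nat.mul_add]; omega)
        (fun U h hU' => i4 U h (by omega)) T c U (st0 U h) (h c (by simp)).1 (fun z hz => ?_)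
        (by omega)
      rcases mem_union.1 hz with hz | hz
      · obtain ⟨y, hy, rfl⟩ := mem_image.1 hz
        exact (h c (by simp)).2 y hy
      · obtain ⟨c', hc, hz⟩ := mem_Rl.1 hz
        exact (hl.1 c' hc).2.2 z hz
  obtain ⟨i1, i2, -, i4⟩ := main cs hcs le_rfl
  refine le_trans (sum_le_sum fun F _ => ?_) (i4 ∅ (by simp [ok]) (by simp))
  unfold ind
  split_ifs with h
  exacts [i2 _ _ h, i1 _ _]

theorem exists_indep {ι : Type} {conf : ι → ι → Prop} [DecidableRel conf] (hs : ∀ a b, conf a b → conf b a) {Δ : ℕ} :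
    ∀ (r : ℕ) (S : Finset ι), r * (Δ + 1) ≤ #S → (∀ a, #{b ∈ S | conf a b} ≤ Δ) →
      ∃ I ⊆ S, #I = r ∧ ∀ a ∈ I, ∀ b ∈ I, a ≠ b → ¬ conf a b
  | 0, _, _, _ => ⟨∅, empty_subset _, rfl, by simp⟩
  | r + 1, S, h1, h2 => by
    rw [Nat.succ_mul] at h1
    obtain ⟨a, ha⟩ := card_pos.1 (show 0 < #S by omega)
    have h3 := card_filter_add_card_filter_not (s := S.erase a) (conf a)
    have h4 := (card_le_card (filter_subset_filter (conf a) (erase_subset a S))).trans (h2 a)
    rw [card_erase_of_mem ha] at h3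
    obtain ⟨I, i1, i2, i3⟩ := exists_indep hs r {b ∈ S.erase a | ¬ conf a b} (by omega) fun x =>
      (card_le_card (filter_subset_filter _ ((filter_subset _ _).trans (erase_subset a S)))).trans
        (h2 x)
    have h5 : ∀ b ∈ I, (b ≠ a ∧ b ∈ S) ∧ ¬ conf a b := fun b hb => by simpa using i1 hb
    refine ⟨insert a I, insert_subset ha fun b hb => (h5 b hb).1.2,
      by rw [card_insert_of_notMem fun h => (h5 a h).1.1 rfl, i2], fun x hx y hy hne => ?_⟩
    rcases mem_insert.1 hx with rfl | hx' <;> rcases mem_insert.1 hy with rfl | hy'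
    exacts [(hne rfl).elim, (h5 y hy').2, fun h => (h5 x hx').2 (hs _ _ h), i3 x hx' y hy' hne]

end Vale.Agent.P329
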