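import Vale.Agent.P329.Rand3

/-! The random function of the outer level, with two scales. -/

namespace Vale.Agent.P329

open Finset Function Filter
open scoped Classical

variable {V : Type} [AddCommGroup V] {L H : ℕ}

/-- The points at which the random function is queried. -/
abbrev Cell (L H : ℕ) : Type := ZMod L ⊕ ZMod H × ZMod H

/-- The high digit. -/
def high (H : ℕ) (u : ZMod L) : ZMod H := (u.val / H : ℕ)

/-- The waiting time after a tick. -/
def wt : Cell L H → ZMod H → ZMod L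
  | .inl u, ψ => (ψ.val : ℕ) - u
  | .inr _, ψ => (H * ψ.val : ℕ)

/-- The offset lies just after one of the first multiples of the long period. -/
def IsS (L H q ρ : ℕ) : Prop := 1 ≤ q ∧ q < H ∧ 0 < ρ ∧ ρ ≤ 5 * L

/-- The point queried by a tick at offset `o`. -/
noncomputable def cell (L H π o : ℕ) : Cell L H :=
  if IsS L H (o / π) (o % π) then .inl o else .inr (high H (o : ZMod L), (o / π : ℕ))

/-- A chain of ticks at the times `m i`, with query `y` and label `x` before the tick, survives. -/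
def AlC (π : ℕ) (F : Cell L H → V × ZMod H) (m : ℕ → ℕ) (μ : ℕ → ℕ → V → V) :
    ℕ → ℕ → Cell L H → V → Prop
  | 0, _, _, _ => True
  | t + 1, i, y, x => x + (F y).1 ≠ 0 ∧ ∃ d < 20,
      IsLeast {d | m i + (wt y (F y).2).val + 18 * L ≤ m (i + d)} d ∧
      AlC π F m μ t (i + d) (cell L H π (m (i + d) - m i - (wt y (F y).2).val))
        (μ i d (x + (F y).1))

/-- Families of starting points. -/
def Start (ℓ : ℕ) {r : ℕ} (y : Fin r → Cell L H) : Prop :=
  Injective y ∧ ((∃ y₀ : ZMod L, ∀ j, ∃ s < ℓ, y j = .inl (y₀ + (H * s : ℕ))) ∨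
    ∃ h₀ q₀ : ZMod H, ∀ j, ∃ s < ℓ, ∃ s' < ℓ, y j = .inr (h₀ + s, q₀ + s'))

section high

variable (hL : L = H * H) [NeZero H]
include hL

omit [NeZero H] in
theorem high_nat (n : ℕ) : high H (n : ZMod L) = (n / H : ℕ) := by
  rw [high, ZMod.val_natCast, hL, Nat.mod_mul_right_div_self, ZMod.natCast_mod]

theorem neZero_sq : NeZero L := ⟨hL ▸ mul_ne_zero (NeZero.ne H) (NeZero.ne H)⟩

theorem high_add_mul (u : ZMod L) (k : ℕ) : 
    high H (u + ((H * k : ℕ) : ZMod L)) = high H u + k := by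
  have := neZero_sq hL
  obtain ⟨n, rfl⟩ := ZMod.natCast_zmod_surjective u
  rw [← Nat.cast_add, high_nat hL, high_nat hL,
    Nat.add_mul_div_left _ _ (NeZero.pos H), Nat.cast_add]

theorem high_add_lt (u : ZMod L) {δ : ℕ} (h : δ < H) :
    ∃ ε ≤ 1, high H (u + (δ : ZMod L)) = high H u + (ε : ℕ) := by
  have := neZero_sq hL
  obtain ⟨n, rfl⟩ := ZMod.natCast_zmod_surjective u
  rw [← Nat.cast_add, high_nat hL, high_nat hL,
    Nat.add_div (NeZero.pos H), Nat.div_eq_of_lt h, add_zero, Nat.cast_add]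
  exact ⟨_, by split_ifs <;> omega, rfl⟩

end high

noncomputable def dsc (L : ℕ) (get : ℕ → ℕ → ℕ × ℕ × ZMod H × (V → V)) (i w : ℕ) : ℕ :=
  sInf {d | d < 20 ∧ (w + 18 * L ≤ (get i d).1 ∨ 1 ≤ (get i d).2.1)}

noncomputable def nxt (ρ q : ℕ) (q' : ZMod H) (w : ℕ) (u : ZMod L) : Cell L H :=
  if w ≤ ρ then (if IsS L H q (ρ - w) then .inl u else .inr (high H u, q'))
  else .inr (high H u, q' - 1)

theorem cell_sub {π Δ w : ℕ} (hπ : 20 * L ≤ π) (hw : w < L) (h : w ≤ Δ) :
    cell L H π (Δ - w) =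
      nxt (min (Δ % π) (19 * L)) (min (Δ / π) H) (Δ / π : ℕ) w (Δ - w : ℕ) := by
  have h0 : 0 < π := by omega
  have h1 := Nat.mod_add_div Δ π
  have h2 := Nat.mod_lt Δ h0
  generalize Δ % π = ρ at *
  generalize Δ / π = q at *
  unfold cell nxt
  by_cases h3 : w ≤ ρ
  · obtain ⟨e1, e2⟩ := (Nat.div_mod_unique (a := Δ - w) (c := ρ - w) (d := q) h0).2
      ⟨by omega, by omega⟩
    rw [e1, e2, if_pos (show w ≤ min ρ (19 * L) by omega)]
    exact if_congr (by unfold IsS; omega) rfl rfl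
  · obtain ⟨q, rfl⟩ : ∃ q', q = q' + 1 := ⟨q - 1, by
      rcases q with _ | q
      · omega
      · rfl⟩
    rw [Nat.mul_succ] at h1
    obtain ⟨e1, e2⟩ := (Nat.div_mod_unique (a := Δ - w) (c := ρ + π - w) (d := q) h0).2
      ⟨by omega, by omega⟩
    rw [e1, e2, if_neg (by unfold IsS; omega), if_neg (by omega)]
    simp

variable (B : ℕ) (pos : ℕ → ZMod L) (get : ℕ → ℕ → ℕ × ℕ × ZMod H × (V → V))

noncomputable def stC (c : ℕ × Cell L H × V) (a : V × ZMod H) : Option (ℕ × Cell L H × V) :=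
  let w := wt c.2.1 a.2
  let d := dsc L get c.1 w.val
  if c.2.2 + a.1 ≠ 0 ∧ 0 < d ∧ c.1 + d ≤ B then
    some (c.1 + d, nxt (get c.1 d).1 (get c.1 d).2.1 (get c.1 d).2.2.1 w.val
      (pos (c.1 + d) - pos c.1 - w), (get c.1 d).2.2.2 (c.2.2 + a.1))
  else none

noncomputable def resC (c : ℕ × Cell L H × V) : Finset (ZMod L ⊕ ZMod H) :=
  c.2.1.elim (fun y => (range (B + 1) ×ˢ range (B + 1 - c.1)).image fun p =>
    .inr (high H (pos p.1 - pos c.1 + y) - (p.2 : ℕ))) fun _ => ∅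

variable {B pos get}

theorem AlC.alive [NeZero L] {π : ℕ} (hH : 0 < H) (hπ : 20 * L ≤ π)
    {F : Cell L H → V × ZMod H} {m : ℕ → ℕ} {μ : ℕ → ℕ → V → V}
    (hp : ∀ i ≤ B, pos i = m i) (hg : ∀ i ≤ B, ∀ d < 20, get i d =
      (min ((m (i + d) - m i) % π) (19 * L), min ((m (i + d) - m i) / π) H,
        (((m (i + d) - m i) / π : ℕ) : ZMod H), μ i d)) :
    ∀ t i y x, i + 19 * t ≤ B → AlC π F m μ t i y x →
      alive (fun c => c.2.1) (stC B pos get) F t (i, y, x)
  | 0, _, _, _, _, _ => trivial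
  | t + 1, i, y, x, hi, ⟨h2, d, hd, h3, h4⟩ => by
    have hψ := ZMod.val_lt (wt y (F y).2)
    have iff : ∀ d < 20, (wt y (F y).2).val + 18 * L ≤ (get i d).1 ∨ 1 ≤ (get i d).2.1 ↔
        m i + (wt y (F y).2).val + 18 * L ≤ m (i + d) := by
      intro d hd
      rw [hg i (by omega) d hd]
      have h1 := Nat.mod_add_div (m (i + d) - m i) π
      generalize (m (i + d) - m i) / π = q at *
      rcases q with _ | q
      · simp only at h1 ⊢; omega
      · rw [Nat.mul_succ] at h1; simp only; omega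
    have h5 : m i + (wt y (F y).2).val + 18 * L ≤ m (i + d) := h3.1
    have e : dsc L get i (wt y (F y).2).val = d :=
      IsLeast.csInf_eq ⟨⟨hd, (iff d hd).2 h5⟩, fun d' h5 => h3.2 ((iff d' h5.1).1 h5.2)⟩
    have d0 : 0 < d := Nat.pos_of_ne_zero (by rintro rfl; simp only [add_zero] at h5; omega)
    refine ⟨_, if_pos ⟨h2, e ▸ d0, by rw [e]; change i + d ≤ B; omega⟩, ?_⟩
    simp only [e, hg i (by omega) d hd, hp i (by omega), hp (i + d) (by omega)]
    rw [cell_sub hπ hψ (by omega), Nat.cast_sub (by omega), Nat.cast_sub (by omega),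
      ZMod.natCast_zmod_val] at h4
    exact AlC.alive hH hπ hp hg t _ _ _ (by omega) h4

omit [AddCommGroup V] in
theorem resC_key (c : ℕ × Cell L H × V) : Sum.map id Prod.fst c.2.1 ∉ resC B pos c := by
  obtain ⟨i, y | y, x⟩ := c <;> simp [resC]

omit [AddCommGroup V] in
theorem resC_card (c : ℕ × Cell L H × V) : #(resC B pos c) ≤ (B + 1) ^ 2 := by
  obtain ⟨i, y | y, x⟩ := c
  · refine card_image_le.trans ?_
    rw [card_product, card_range, card_range, sq]
    exact Nat.mul_le_mul_left _ (Nat.sub_le _ _)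
  · exact Nat.zero_le _

theorem stC_some {c c' : ℕ × Cell L H × V} {a : V × ZMod H} (h : stC B pos get c a = some c')
    {z : ZMod L ⊕ ZMod H} (hz : z ∈ insert (Sum.map id Prod.fst c'.2.1) (resC B pos c')) :
    ∃ i, c.1 < i ∧ i ≤ B ∧ (z = .inl (pos i - pos c.1 - wt c.2.1 a.2) ∨ ∃ j ≤ B, ∃ k : ℕ,
      k + i ≤ B ∧ z = .inr (high H (pos j - pos c.1 - wt c.2.1 a.2) - k)) := by
  unfold stC at h
  simp only at h
  split_ifs at h with h1
  obtain rfl := Option.some.inj h
  generalize dsc L get c.1 _ = d at h1 hz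
  refine ⟨c.1 + d, by omega, h1.2.2, ?_⟩
  have two : ∀ q', z ∈ insert (Sum.map id Prod.fst (.inr (high H
      (pos (c.1 + d) - pos c.1 - wt c.2.1 a.2), q') : Cell L H)) ∅ → ∃ j ≤ B, ∃ k : ℕ,
      k + (c.1 + d) ≤ B ∧ z = .inr (high H (pos j - pos c.1 - wt c.2.1 a.2) - k) :=
    fun q' hz => ⟨c.1 + d, h1.2.2, 0, by omega, by
      rw [Nat.cast_zero, sub_zero]; exact (mem_insert.1 hz).resolve_right (notMem_empty _)⟩
  unfold nxt at hz
  split_ifs at hz
  · rcases mem_insert.1 hz with hz | hz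
    · exact Or.inl hz
    · obtain ⟨p, hp, rfl⟩ := mem_image.1 hz
      simp only [mem_product, mem_range] at hp
      exact Or.inr ⟨p.1, by omega, p.2, by omega, by congr 3; ring⟩
  · exact Or.inr (two _ hz)
  · exact Or.inr (two _ hz)

variable [Fintype V] [NeZero H]

theorem stC_kill (c : ℕ × Cell L H × V) : (#{a | stC B pos get c a ≠ none} : ℝ) ≤
    (1 - 1 / Fintype.card V) * Fintype.card (V × ZMod H) := by
  have hV : (0 : ℝ) < Fintype.card V := by exact_mod_cast Fintype.card_pos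
  have : #{a | stC B pos get c a ≠ none} ≤
      #((univ.erase (-c.2.2)) ×ˢ (univ : Finset (ZMod H))) := by
    refine card_le_card fun a ha => ?_
    simp only [mem_filter, mem_univ, true_and, mem_product, mem_erase, and_true] at ha ⊢
    exact fun h => ha (if_neg (by simp [h]))
  refine (Nat.cast_le.2 this).trans (le_of_eq ?_)
  rw [card_product, card_erase_of_mem (mem_univ _), Fintype.card_prod, card_univ, card_univ,
    Nat.cast_mul, Nat.cast_mul, Nat.cast_pred Fintype.card_pos]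
  field_simp

theorem stC_spread (hL : L = H * H) (c : ℕ × Cell L H × V) (z : ZMod L ⊕ ZMod H)
    (hz : z ∉ resC B pos c) : (#{a | ∃ c', stC B pos get c a = some c' ∧
      z ∈ insert (Sum.map id Prod.fst c'.2.1) (resC B pos c')} : ℝ) ≤
      (B + 1) ^ 2 / H * Fintype.card (V × ZMod H) := by
  have hH : (H : ℝ) ≠ 0 := by exact_mod_cast NeZero.ne H
  have := neZero_sq hL
  obtain ⟨g, hg⟩ : ∃ g : ℕ × ℕ → ZMod H, ∀ a c', stC B pos get c a = some c' →
      z ∈ insert (Sum.map id Prod.fst c'.2.1) (resC B pos c') →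
      ∃ j ≤ B, ∃ k ≤ B, g (j, k) = a.2 := by
    obtain ⟨i, y | y, x⟩ := c <;> rcases z with u | h
    · refine ⟨fun p => ((pos p.1 - pos i + y - u).val : ℕ), fun a c' h1 h2 => ?_⟩
      obtain ⟨j, -, j2, e | ⟨_, -, _, -, e⟩⟩ := stC_some h1 h2
      · refine ⟨j, j2, 0, Nat.zero_le _, ?_⟩
        have h3 : a.2.val < L := (ZMod.val_lt a.2).trans_le (hL ▸ Nat.le_mul_self H)
        rw [Sum.inl.inj e]
        simp only [wt]
        rw [show pos j - pos i + y - (pos j - pos i - ((a.2.val : ℕ) - y)) = (a.2.val : ℕ) by ring,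
          ZMod.val_natCast_of_lt h3, ZMod.natCast_zmod_val]
      · cases e
    · refine ⟨0, fun a c' h1 h2 => (hz ?_).elim⟩
      obtain ⟨i', j1, -, e | ⟨j, j2, k, k1, e⟩⟩ := stC_some h1 h2
      · cases e
      · obtain ⟨ε, e1, e2⟩ := high_add_lt hL (pos j - pos i - wt (.inl y) a.2) (ZMod.val_lt a.2)
        refine mem_image.2 ⟨(j, k + ε), ?_, ?_⟩
        · simp only [mem_product, mem_range] at j1 ⊢; omega
        · rw [e, show pos j - pos i + y = pos j - pos i - wt (.inl y) a.2 + (a.2.val : ℕ) by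
            simp only [wt]; ring, e2]
          simp
    · refine ⟨fun p => high H (pos p.1 - pos i - u), fun a c' h1 h2 => ?_⟩
      obtain ⟨j, -, j2, e | ⟨_, -, _, -, e⟩⟩ := stC_some h1 h2
      · refine ⟨j, j2, 0, Nat.zero_le _, ?_⟩
        rw [Sum.inl.inj e]
        simp only [wt, sub_sub_cancel]
        rw [high_nat hL, Nat.mul_div_cancel_left _ (NeZero.pos H), ZMod.natCast_zmod_val]
      · cases e
    · refine ⟨fun p => high H (pos p.1 - pos i) - (p.2 : ℕ) - h, fun a c' h1 h2 => ?_⟩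
      obtain ⟨i', -, -, e | ⟨j, j2, k, k1, e⟩⟩ := stC_some h1 h2
      · cases e
      · refine ⟨j, j2, k, by omega, ?_⟩
        have := high_add_mul hL (pos j - pos i - wt (.inr y) a.2) a.2.val
        rw [Sum.inr.inj e]
        simp only [wt, sub_add_cancel, ZMod.natCast_zmod_val] at this ⊢
        rw [this]; ring
  have : #{a | ∃ c', stC B pos get c a = some c' ∧
      z ∈ insert (Sum.map id Prod.fst c'.2.1) (resC B pos c')} ≤
      #((univ : Finset V) ×ˢ ((range (B + 1) ×ˢ range (B + 1)).image g)) := by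
    refine card_le_card fun a ha => ?_
    obtain ⟨c', h1, h2⟩ := (mem_filter.1 ha).2
    obtain ⟨j, j1, k, k1, e⟩ := hg a c' h1 h2
    exact mem_product.2 ⟨mem_univ _, mem_image.2 ⟨(j, k), by simp; omega, e⟩⟩
  rw [card_product] at this
  have h2 := this.trans (Nat.mul_le_mul_left _ card_image_le)
  refine (Nat.cast_le.2 h2).trans (le_of_eq ?_)
  simp only [card_univ, card_range, card_product, Fintype.card_prod, ZMod.card]
  push_cast; field_simp

end Vale.Agent.P329
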