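import Vale.Agent.P329.Defs

/-! Closure properties of the languages of bounded generalized star height, and the two general
constructions: first failure and the decoding star. -/

namespace Vale.Agent.P329

variable {α : Type} {h : ℕ} {P Q : List α → Prop}

/-- The set of words satisfying `P` has generalized star height at most `h`. -/
def SH (h : ℕ) (P : List α → Prop) : Prop :=
  ∃ e : GRE α, e.sh ≤ h ∧ ∀ u, u ∈ e.lang ↔ P u

def Cat (P Q : List α → Prop) (u : List α) : Prop := ∃ v w, u = v ++ w ∧ P v ∧ Q w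

def Str (P : List α → Prop) (u : List α) : Prop := ∃ L : List (List α), u = L.flatten ∧ ∀ y ∈ L, P y

theorem Str.nil : Str P [] := ⟨[], rfl, by simp⟩

theorem Str.cons {v u : List α} (hv : P v) (hu : Str P u) : Str P (v ++ u) := by
  obtain ⟨L, rfl, hL⟩ := hu
  exact ⟨v :: L, by simp, by simpa using ⟨hv, hL⟩⟩

namespace SH

theorem mono {k : ℕ} (H : SH h P) (hk : h ≤ k) : SH k P :=
  let ⟨e, h1, h2⟩ := H; ⟨e, h1.trans hk, h2⟩

theorem congr (H : SH h P) (e : ∀ u, P u ↔ Q u) : SH h Q :=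
  let ⟨r, h1, h2⟩ := H; ⟨r, h1, fun u => (h2 u).trans (e u)⟩

theorem bot : SH h (fun _ : List α => False) :=
  ⟨.zero, Nat.zero_le _, fun u => ⟨fun H => Language.notMem_zero u H, False.elim⟩⟩

theorem not (H : SH h P) : SH h (fun u => ¬ P u) :=
  let ⟨e, h1, h2⟩ := H; ⟨.compl e, h1, fun u => not_congr (h2 u)⟩

theorem or (H : SH h P) (K : SH h Q) : SH h (fun u => P u ∨ Q u) :=
  let ⟨e, h1, h2⟩ := H; let ⟨f, k1, k2⟩ := K
  ⟨.union e f, max_le h1 k1, fun u => (Language.mem_add _ _ u).trans (or_congr (h2 u) (k2 u))⟩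

theorem and (H : SH h P) (K : SH h Q) : SH h (fun u => P u ∧ Q u) :=
  (H.not.or K.not).not.congr fun u => by tauto

theorem imp (H : SH h P) (K : SH h Q) : SH h (fun u => P u → Q u) :=
  (H.not.or K).congr fun u => by tauto

theorem top : SH h (fun _ : List α => True) := (bot (h := h)).not.congr fun _ => by simp

theorem guard {p : Prop} (H : p → SH h P) : SH h (fun u => p ∧ P u) := by
  by_cases hp : p
  · exact (H hp).congr fun u => by simp [hp]
  · exact bot.congr fun u => by simp [hp]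

theorem cat (H : SH h P) (K : SH h Q) : SH h (Cat P Q) := by
  obtain ⟨e, h1, h2⟩ := H
  obtain ⟨f, k1, k2⟩ := K
  refine ⟨.concat e f, max_le h1 k1, fun u => Language.mem_mul.trans ?_⟩
  constructor
  · rintro ⟨a, ha, b, hb, rfl⟩
    exact ⟨a, b, rfl, (h2 a).1 ha, (k2 b).1 hb⟩
  · rintro ⟨a, b, rfl, ha, hb⟩
    exact ⟨a, (h2 a).2 ha, b, (k2 b).2 hb, rfl⟩

theorem star (H : SH h P) : SH (h + 1) (Str P) := by
  obtain ⟨e, h1, h2⟩ := H
  refine ⟨.star e, Nat.succ_le_succ h1, fun u => Language.mem_kstar.trans ?_⟩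
  simp only [h2, Str]

theorem word (l : List α) : SH h (fun u => u = l) := by
  induction l with
  | nil => exact ⟨.one, Nat.zero_le _, fun u => Language.mem_one u⟩
  | cons a l ih =>
    have h1 : SH h (fun u : List α => u = [a]) := ⟨.letter a, Nat.zero_le _, fun u => Iff.rfl⟩
    refine (h1.cat ih).congr fun u => ⟨?_, ?_⟩
    · rintro ⟨v, w, rfl, rfl, rfl⟩; rfl
    · rintro rfl; exact ⟨[a], l, rfl, rfl, rfl⟩

theorem exSet {ι : Type} {s : Set ι} (hs : s.Finite) {R : ι → List α → Prop}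
    (H : ∀ i ∈ s, SH h (R i)) : SH h (fun u => ∃ i ∈ s, R i u) := by
  induction s, hs using Set.Finite.induction_on with
  | empty => exact bot.congr fun u => by simp
  | insert _ _ ih =>
    exact ((H _ (Set.mem_insert _ _)).or
      (ih fun i hi => H i (Set.mem_insert_of_mem _ hi))).congr fun u => by simp

theorem ex {ι : Type} [Finite ι] {R : ι → List α → Prop} (H : ∀ i, SH h (R i)) :
    SH h (fun u => ∃ i, R i u) :=
  (exSet Set.finite_univ fun i _ => H i).congr fun u => by simp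

theorem all {ι : Type} [Finite ι] {R : ι → List α → Prop} (H : ∀ i, SH h (R i)) :
    SH h (fun u => ∀ i, R i u) :=
  (ex fun i => (H i).not).not.congr fun u => by simp

end SH

variable {S : Type} (δ : S → α → S)

/-- The state reached from `σ` on the word `u`. -/
def run (σ : S) (u : List α) : S := u.foldl δ σ

@[simp] theorem run_nil (σ : S) : run δ σ [] = σ := rfl

theorem run_append (σ : S) (u v : List α) : run δ σ (u ++ v) = run δ (run δ σ u) v :=
  List.foldl_append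

/-- The run from `σ` on `u` does not meet `K` at an interior time. -/
def Avoid (K : S → Prop) (σ : S) (u : List α) : Prop :=
  ∀ v w, u = v ++ w → v ≠ [] → w ≠ [] → ¬ K (run δ σ v)

variable {δ}

theorem Avoid.left {K : S → Prop} {σ : S} {u v : List α} (H : Avoid δ K σ (u ++ v)) :
    Avoid δ K σ u := fun a b e ha hb => H a (b ++ v) (by simp [e]) ha (by simp [hb])

theorem Avoid.right {K : S → Prop} {σ : S} {u v : List α} (H : Avoid δ K σ (u ++ v)) :
    Avoid δ K (run δ σ u) v := fun a b e ha hb => by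
  rw [← run_append]; exact H (u ++ a) b (by simp [e]) (by simp [ha]) hb

theorem first_hit {K : S → Prop} {σ : S} {u : List α} (H : ¬ Avoid δ K σ u) :
    ∃ v w, u = v ++ w ∧ v ≠ [] ∧ w ≠ [] ∧ K (run δ σ v) ∧ Avoid δ K σ v := by
  induction hn : u.length using Nat.strong_induction_on generalizing u with
  | _ n ih =>
    simp only [Avoid, not_forall, not_not] at H
    obtain ⟨v, w, rfl, hv, hw, hK⟩ := H
    by_cases hA : Avoid δ K σ v
    · exact ⟨v, w, rfl, hv, hw, hK, hA⟩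
    · have := List.length_pos_iff.2 hw
      obtain ⟨a, b, rfl, ha, hb, h1, h2⟩ := ih v.length (by simp at hn; omega) hA rfl
      exact ⟨a, b ++ w, by simp, ha, by simp [hb], h1, h2⟩

variable (δ)

/-- On the words satisfying the promise `A`, the state reached from `σ` is computed in height
`h`. -/
def Comp (h : ℕ) (A : List α → Prop) (σ : S) : Prop :=
  ∀ τ, ∃ L, SH h L ∧ ∀ u, A u → (L u ↔ run δ σ u = τ)

variable {δ}

/-- First failure: the promise that `K` is avoided can be checked. -/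
theorem Comp.ff [Finite S] {A : List α → Prop} {K : S → Prop} {σ : S}
    (hA : ∀ u v, A (u ++ v) → A u) (H : Comp δ h (fun u => A u ∧ Avoid δ K σ u) σ) (τ : S) :
    ∃ L, SH h L ∧ ∀ u, A u → (L u ↔ Avoid δ K σ u ∧ run δ σ u = τ) := by
  choose L hL hL' using H
  have h1 : SH h (Cat (fun v => ¬ v = [] ∧ ∃ κ, K κ ∧ L κ v) (fun w => ¬ w = [])) :=
    ((SH.word []).not.and (SH.ex fun κ => SH.guard fun _ => hL κ)).cat (SH.word []).not
  refine ⟨_, (hL τ).and h1.not, fun u hu => ⟨fun ⟨h2, h3⟩ => ?_, fun ⟨h2, h3⟩ => ?_⟩⟩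
  · have : Avoid δ K σ u := by
      by_contra hn
      obtain ⟨v, w, rfl, hv, hw, hK, hv'⟩ := first_hit hn
      exact h3 ⟨v, w, rfl, ⟨hv, _, hK, (hL' _ v ⟨hA _ _ hu, hv'⟩).2 rfl⟩, hw⟩
    exact ⟨this, (hL' _ u ⟨hu, this⟩).1 h2⟩
  · refine ⟨(hL' _ u ⟨hu, h2⟩).2 h3, ?_⟩
    rintro ⟨v, w, rfl, ⟨hv, κ, hK, hκ⟩, hw⟩
    exact h2 v w rfl hv hw (((hL' _ v ⟨hA _ _ hu, h2.left⟩).1 hκ).symm ▸ hK)

/-- The decoding star. `C` is the set of states at which cuts are made, `D ρ` is a set of words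
leading every state of `C` for which the promise holds to `ρ`. -/
theorem decode [Finite S] {A : S → List α → Prop}
    (hl : ∀ σ u v, A σ (u ++ v) → A σ u) (hr : ∀ σ u v, A σ (u ++ v) → A (run δ σ u) v)
    {E C : S → Prop} {T : S → S → List α → Prop} {D : S → List α → Prop}
    (hT : ∀ σ, E σ → ∀ τ, SH h (T σ τ)) (hD : ∀ ρ, SH h (D ρ))
    (sT : ∀ σ τ u, E σ → T σ τ u → A σ u → run δ σ u = τ)
    (sD : ∀ ρ σ u, D ρ u → C σ → A σ u → run δ σ u = ρ)
    (step : ∀ σ u, E σ → A σ u → T σ (run δ σ u) u ∨ ∃ v₁ v₂ u', u = v₁ ++ (v₂ ++ u') ∧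
      v₁ ++ v₂ ≠ [] ∧ T σ (run δ σ v₁) v₁ ∧ C (run δ σ v₁) ∧ D (run δ σ (v₁ ++ v₂)) v₂ ∧
      E (run δ σ (v₁ ++ v₂)))
    (σ₀ : S) (h₀ : E σ₀) : Comp δ (h + 1) (A σ₀) σ₀ := by
  intro τ
  let G : S → List α → Prop := fun τ u => ∃ ρ, E ρ ∧ Cat (D ρ) (T ρ τ) u
  have hG : ∀ τ, SH h (G τ) := fun τ => SH.ex fun ρ => SH.guard fun hρ => (hD ρ).cat (hT ρ hρ τ)
  have sG : ∀ τ σ u, G τ u → C σ → A σ u → run δ σ u = τ := by
    rintro τ σ u ⟨ρ, hρ, v, w, rfl, hv, hw⟩ hσ hA
    have e := sD ρ σ v hv hσ (hl _ _ _ hA)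
    have := hr _ _ _ hA
    rw [e] at this
    rw [run_append, e, sT ρ τ w hρ hw this]
  let P : List α → Prop := fun u => ∃ κ, C κ ∧ G κ u
  have hP : SH h P := SH.ex fun κ => SH.guard fun _ => hG κ
  have sP : ∀ (L : List (List α)) σ, (∀ y ∈ L, P y) → C σ → A σ L.flatten →
      C (run δ σ L.flatten) := by
    intro L
    induction L with
    | nil => exact fun σ _ h _ => h
    | cons y L ih =>
      intro σ hL hσ hA
      obtain ⟨κ, hκ, hy⟩ := hL y (by simp)
      rw [List.flatten_cons] at hA ⊢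
      have e := sG κ σ y hy hσ (hl _ _ _ hA)
      rw [run_append]
      exact ih _ (fun z hz => hL z (by simp [hz])) (e ▸ hκ) (hr _ _ _ hA)
  let F : S → S → List α → Prop := fun σ τ u =>
    T σ τ u ∨ ∃ κ, C κ ∧ Cat (T σ κ) (Cat (Str P) (G τ)) u
  have cF : ∀ n σ u, u.length = n → E σ → A σ u → F σ (run δ σ u) u := by
    intro n
    induction n using Nat.strong_induction_on with
    | _ n ih =>
      intro σ u hn hσ hA
      rcases step σ u hσ hA with h1 | ⟨v₁, v₂, u', rfl, hne, h1, h2, h3, h4⟩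
      · exact Or.inl h1
      have hA' : A (run δ σ (v₁ ++ v₂)) u' := hr _ _ _ (by simpa using hA)
      have hlt : u'.length < n := by
        have := List.length_pos_iff.2 hne
        simp at hn this; omega
      have e : run δ σ (v₁ ++ (v₂ ++ u')) = run δ (run δ σ (v₁ ++ v₂)) u' := by
        rw [← List.append_assoc, run_append]
      refine Or.inr ⟨_, h2, v₁, v₂ ++ u', rfl, h1, ?_⟩
      rw [e]
      rcases ih _ hlt _ u' rfl h4 hA' with h5 | ⟨κ, hκ, a, b, rfl, ha, c, d, rfl, hc, hd⟩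
      · exact ⟨[], _, rfl, Str.nil, _, h4, v₂, u', rfl, h3, h5⟩
      · exact ⟨(v₂ ++ a) ++ c, d, by simp, Str.cons ⟨κ, hκ, _, h4, v₂, a, rfl, h3, ha⟩ hc, hd⟩
  refine ⟨F σ₀ τ, ((hT σ₀ h₀ τ).mono (Nat.le_succ _)).or (SH.ex fun κ => SH.guard fun _ =>
    ((hT σ₀ h₀ κ).mono (Nat.le_succ _)).cat (hP.star.cat ((hG τ).mono (Nat.le_succ _)))),
    fun u hu => ⟨?_, fun e => e ▸ cF _ σ₀ u rfl h₀ hu⟩⟩
  rintro (h1 | ⟨κ, hκ, a, b, rfl, ha, c, d, rfl, ⟨L, rfl, hL⟩, hd⟩)
  · exact sT _ _ _ h₀ h1 hu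
  · have e := sT _ _ _ h₀ ha (hl _ _ _ hu)
    have h2 := hr _ _ _ hu
    rw [e] at h2
    rw [run_append, e, run_append]
    exact sG _ _ _ hd (sP L κ hL hκ (hl _ _ _ h2)) (hr _ _ _ h2)

/-- A star over the returns to a root state. -/
theorem root [Finite S] {E : S → Prop} {r : S} (hr : E r)
    (H : ∀ σ, E σ → Comp δ h (Avoid δ (· = r) σ) σ) (σ₀ : S) (h₀ : E σ₀) (τ : S) :
    SH (h + 1) (fun u => run δ σ₀ u = τ) := by
  have H' : ∀ σ τ, ∃ L, E σ → SH h L ∧ ∀ u, L u ↔ Avoid δ (· = r) σ u ∧ run δ σ u = τ := by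
    intro σ τ
    by_cases hσ : E σ
    · obtain ⟨L, h1, h2⟩ := Comp.ff (A := fun _ => True) (K := (· = r)) (σ := σ) (h := h)
        (fun _ _ _ => trivial) (by simpa using H σ hσ) τ
      exact ⟨L, fun _ => ⟨h1, fun u => h2 u trivial⟩⟩
    · exact ⟨fun _ => True, fun h => (hσ h).elim⟩
  choose T hT using H'
  obtain ⟨L, h1, h2⟩ := decode (δ := δ) (h := h) (A := fun _ _ => True) (E := E) (C := (· = r))
    (T := T) (D := fun ρ u => ρ = r ∧ u = []) (fun _ _ _ _ => trivial) (fun _ _ _ _ => trivial)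
    (fun σ hσ τ => (hT σ τ hσ).1) (fun ρ => SH.guard fun _ => SH.word [])
    (fun σ τ u hσ h _ => (((hT σ τ hσ).2 u).1 h).2)
    (by rintro _ _ _ ⟨rfl, rfl⟩ rfl _; rfl)
    (fun σ u hσ _ => by
      by_cases hA : Avoid δ (· = r) σ u
      · exact Or.inl (((hT σ _ hσ).2 u).2 ⟨hA, rfl⟩)
      · obtain ⟨v, w, rfl, hv, -, hK, hv'⟩ := first_hit hA
        exact Or.inr ⟨v, [], w, rfl, by simpa using hv, ((hT σ _ hσ).2 v).2 ⟨hv', rfl⟩, hK,
          ⟨by simpa using hK, rfl⟩, by simpa [hK] using hr⟩) σ₀ h₀ τ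
  exact h1.congr fun u => h2 u trivial

end Vale.Agent.P329
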